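import Mathlib

open MeasureTheory Set
open scoped ENNReal
set_option linter.unusedSectionVars false
set_option linter.unusedVariables false
set_option linter.unusedSimpArgs false

namespace Vale.Agent.Lib.P309

section Chain

/-- the amplification constants -/
noncomputable def Dfun (E : ℝ≥0∞) : ℕ → ℝ≥0∞
  | 0 => 1
  | j + 1 => Dfun E j * (2 ^ (j + 3) * Dfun E j * E)

/-- the truncation levels -/
noncomputable def Lam (E : ℝ≥0∞) (j : ℕ) : ℝ≥0∞ := 2 ^ (j + 3) * Dfun E j * E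

lemma Dfun_succ (E : ℝ≥0∞) (j : ℕ) : Dfun E (j + 1) = Dfun E j * Lam E j := rfl

lemma Dfun_ne_zero {E : ℝ≥0∞} (h0 : E ≠ 0) (j : ℕ) : Dfun E j ≠ 0 := by
  induction j with
  | zero => simp [Dfun]
  | succ j ih =>
    rw [Dfun]
    simp [ih, h0]

lemma Dfun_ne_top {E : ℝ≥0∞} (hT : E ≠ ⊤) (j : ℕ) : Dfun E j ≠ ⊤ := by
  induction j with
  | zero => simp [Dfun]
  | succ j ih =>
    rw [Dfun]
    exact ENNReal.mul_ne_top ih (ENNReal.mul_ne_top (ENNReal.mul_ne_top (by simp) ih) hT)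

lemma Lam_ne_zero {E : ℝ≥0∞} (h0 : E ≠ 0) (j : ℕ) : Lam E j ≠ 0 := by
  unfold Lam
  simp [Dfun_ne_zero h0, h0]

lemma Lam_ne_top {E : ℝ≥0∞} (hT : E ≠ ⊤) (j : ℕ) : Lam E j ≠ ⊤ := by
  unfold Lam
  exact ENNReal.mul_ne_top (ENNReal.mul_ne_top (by simp) (Dfun_ne_top hT j)) hT

lemma Dfun_closed (E : ℝ≥0∞) (j : ℕ) : Dfun E j * (2 ^ (j + 4) * E) = (16 * E) ^ (2 ^ j) := by
  induction j with
  | zero => simp [Dfun]; norm_num
  | succ j ih =>
    have h1 : (16 * E) ^ (2 ^ (j + 1)) = ((16 * E) ^ (2 ^ j)) ^ 2 := by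
      rw [← pow_mul, pow_succ]
    rw [h1, ← ih, Dfun]
    have h2 : (2:ℝ≥0∞) ^ (j + 1 + 4) = 2 ^ (j + 3) * 4 := by
      rw [show j + 1 + 4 = j + 3 + 2 by ring, pow_add]
      norm_num
    have h3 : (2:ℝ≥0∞) ^ (j + 4) = 2 ^ (j + 3) * 2 := by
      rw [show j + 4 = j + 3 + 1 by ring, pow_succ]
    rw [h2, h3]
    ring

lemma Dfun_le {E : ℝ≥0∞} (h1 : 1 ≤ E) (j : ℕ) : Dfun E j ≤ (16 * E) ^ (2 ^ j) := by
  rw [← Dfun_closed]
  calc Dfun E j = Dfun E j * 1 := (mul_one _).symm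
    _ ≤ Dfun E j * (2 ^ (j + 4) * E) := by
      gcongr
      exact one_le_mul_of_one_le_of_one_le (one_le_pow₀ (by norm_num)) h1

variable {Ω V : Type*} [MeasurableSpace Ω] [Fintype V] [DecidableEq V]

/-- the evolving sub-distributions -/
noncomputable def chT (g : ℕ → V → V → Ω → ℝ≥0∞) (v0 : V) : ℕ → V → Ω → ℝ≥0∞
  | 0 => fun v _ => if v = v0 then 1 else 0
  | j + 1 => fun v' ω => ∑ v, chT g v0 j v ω * g j v v' ω

/-- low part of a transition -/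
noncomputable def lowP (g : ℕ → V → V → Ω → ℝ≥0∞) (Q : ℕ → V → V → ℝ≥0∞) (E : ℝ≥0∞) (j : ℕ) (v v' : V) (ω : Ω) : ℝ≥0∞ :=
  if g j v v' ω ≤ Lam E j * Q j v v' then g j v v' ω else 0

/-- high part of a transition -/
noncomputable def highP (g : ℕ → V → V → Ω → ℝ≥0∞) (Q : ℕ → V → V → ℝ≥0∞) (E : ℝ≥0∞) (j : ℕ) (v v' : V) (ω : Ω) : ℝ≥0∞ :=
  if g j v v' ω ≤ Lam E j * Q j v v' then 0 else g j v v' ω

lemma low_add_high (g : ℕ → V → V → Ω → ℝ≥0∞) (Q : ℕ → V → V → ℝ≥0∞) (E : ℝ≥0∞) (j : ℕ) (v v' : V) (ω : Ω) :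
    lowP g Q E j v v' ω + highP g Q E j v v' ω = g j v v' ω := by
  unfold lowP highP
  split_ifs <;> simp

/-- the truncated part -/
noncomputable def chZ (g : ℕ → V → V → Ω → ℝ≥0∞) (Q : ℕ → V → V → ℝ≥0∞) (E : ℝ≥0∞) (v0 : V) : ℕ → V → Ω → ℝ≥0∞
  | 0 => fun v _ => if v = v0 then 1 else 0
  | j + 1 => fun v' ω => ∑ v, chZ g Q E v0 j v ω * lowP g Q E j v v' ω

/-- the remainder part -/
noncomputable def chR (g : ℕ → V → V → Ω → ℝ≥0∞) (Q : ℕ → V → V → ℝ≥0∞) (E : ℝ≥0∞) (v0 : V) : ℕ → V → Ω → ℝ≥0∞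
  | 0 => fun _ _ => 0
  | j + 1 => fun v' ω => ∑ v, chR g Q E v0 j v ω * g j v v' ω + ∑ v, chZ g Q E v0 j v ω * highP g Q E j v v' ω

/-- the universal comparison sequence -/
noncomputable def chY (Q : ℕ → V → V → ℝ≥0∞) (v0 : V) : ℕ → V → ℝ≥0∞
  | 0 => fun v => if v = v0 then 1 else 0
  | j + 1 => fun v' => ∑ v, chY Q v0 j v * Q j v v'

lemma chT_eq (g : ℕ → V → V → Ω → ℝ≥0∞) (Q : ℕ → V → V → ℝ≥0∞) (E : ℝ≥0∞) (v0 : V) (j : ℕ) (v : V) (ω : Ω) :
    chT g v0 j v ω = chZ g Q E v0 j v ω + chR g Q E v0 j v ω := by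
  induction j generalizing v with
  | zero => simp [chT, chZ, chR]
  | succ j ih =>
    simp only [chT, chZ, chR]
    have h : ∀ u, chT g v0 j u ω * g j u v ω =
        chZ g Q E v0 j u ω * lowP g Q E j u v ω + chR g Q E v0 j u ω * g j u v ω +
          chZ g Q E v0 j u ω * highP g Q E j u v ω := by
      intro u
      rw [ih u, ← low_add_high g Q E j u v ω]
      ring
    simp only [h, Finset.sum_add_distrib]
    ring

lemma chZ_le (g : ℕ → V → V → Ω → ℝ≥0∞) (Q : ℕ → V → V → ℝ≥0∞) (E : ℝ≥0∞) (v0 : V) (j : ℕ) (v : V) (ω : Ω) :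
    chZ g Q E v0 j v ω ≤ Dfun E j * chY Q v0 j v := by
  induction j generalizing v with
  | zero => simp [chZ, chY, Dfun]
  | succ j ih =>
    simp only [chZ, chY, Dfun_succ, Finset.mul_sum]
    apply Finset.sum_le_sum
    intro u _
    have h1 : lowP g Q E j u v ω ≤ Lam E j * Q j u v := by
      unfold lowP
      split_ifs with h
      · exact h
      · simp
    calc chZ g Q E v0 j u ω * lowP g Q E j u v ω
        ≤ (Dfun E j * chY Q v0 j u) * (Lam E j * Q j u v) := by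
          gcongr
          exact ih u
      _ = _ := by ring

lemma chY_sum_le (Q : ℕ → V → V → ℝ≥0∞) (hQ : ∀ j v, ∑ v', Q j v v' ≤ 1) (v0 : V) (j : ℕ) :
    ∑ v, chY Q v0 j v ≤ 1 := by
  induction j with
  | zero => simp [chY]
  | succ j ih =>
    simp only [chY]
    rw [Finset.sum_comm]
    calc ∑ u, ∑ v, chY Q v0 j u * Q j u v = ∑ u, chY Q v0 j u * ∑ v, Q j u v := by
          simp only [Finset.mul_sum]
      _ ≤ ∑ u, chY Q v0 j u * 1 := by
          gcongr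
          exact hQ j _
      _ ≤ 1 := by simpa using ih

/-- Chebyshev bound for the high part of one transition -/
lemma high_lintegral_le (σ : Measure Ω) {f : Ω → ℝ≥0∞} (hf : Measurable f) {q Λ Ξ : ℝ≥0∞}
    (hq : q ≠ ⊤) (hΛ0 : Λ ≠ 0) (hΛT : Λ ≠ ⊤) {θ : ℝ} (hθ : 0 < θ)
    (h : ∫⁻ ω, f ω ^ 2 ∂σ ≤ Ξ * q ^ (1 + θ)) :
    ∫⁻ ω, (if f ω ≤ Λ * q then 0 else f ω) ∂σ ≤ (Ξ * Λ⁻¹) * q ^ θ := by
  by_cases hq0 : q = 0
  · subst hq0
    have h1 : ∫⁻ ω, f ω ^ 2 ∂σ = 0 := by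
      apply le_antisymm _ (zero_le)
      refine h.trans (le_of_eq ?_)
      rw [ENNReal.zero_rpow_of_pos (by linarith), mul_zero]
    rw [lintegral_eq_zero_iff (hf.pow_const 2)] at h1
    have h2 : ∫⁻ ω, (if f ω ≤ Λ * 0 then 0 else f ω) ∂σ = 0 := by
      rw [lintegral_eq_zero_iff']
      · filter_upwards [h1] with ω hω
        have : f ω = 0 := by simpa using hω
        simp [this]
      · exact (Measurable.ite (measurableSet_le hf measurable_const) measurable_const hf).aemeasurable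
    rw [h2]
    exact zero_le
  · have hΛq0 : Λ * q ≠ 0 := mul_ne_zero hΛ0 hq0
    have hΛqT : Λ * q ≠ ⊤ := ENNReal.mul_ne_top hΛT hq
    have hpt : ∀ ω, (if f ω ≤ Λ * q then 0 else f ω) ≤ f ω ^ 2 * (Λ * q)⁻¹ := by
      intro ω
      split_ifs with hle
      · exact zero_le
      · have h1 : 1 ≤ f ω * (Λ * q)⁻¹ := by
          rw [← div_eq_mul_inv, ENNReal.le_div_iff_mul_le (Or.inl hΛq0) (Or.inl hΛqT), one_mul]
          exact (not_le.mp hle).le
        calc f ω = f ω * 1 := (mul_one _).symm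
          _ ≤ f ω * (f ω * (Λ * q)⁻¹) := by gcongr
          _ = _ := by ring
    calc ∫⁻ ω, (if f ω ≤ Λ * q then 0 else f ω) ∂σ ≤ ∫⁻ ω, f ω ^ 2 * (Λ * q)⁻¹ ∂σ := lintegral_mono hpt
      _ = (∫⁻ ω, f ω ^ 2 ∂σ) * (Λ * q)⁻¹ := by
          rw [lintegral_mul_const _ (hf.pow_const 2)]
      _ ≤ (Ξ * q ^ (1 + θ)) * (Λ * q)⁻¹ := by gcongr
      _ = (Ξ * Λ⁻¹) * q ^ θ := by
          rw [ENNReal.rpow_add _ _ hq0 hq, ENNReal.rpow_one, ENNReal.mul_inv (Or.inl hΛ0) (Or.inl hΛT)]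
          have : q * q⁻¹ = 1 := ENNReal.mul_inv_cancel hq0 hq
          calc Ξ * (q * q ^ θ) * (Λ⁻¹ * q⁻¹) = (Ξ * Λ⁻¹) * q ^ θ * (q * q⁻¹) := by ring
            _ = _ := by rw [this, mul_one]

/-- sum of powers of a sub-distribution -/
lemma sum_rpow_le (Q : V → ℝ≥0∞) (hQ : ∑ v, Q v ≤ 1) {k : ℕ} (hk : 2 ≤ k) :
    ∑ v, Q v ^ (1 - 1 / (k : ℝ)) ≤ (Fintype.card V : ℝ≥0∞) ^ (1 / (k : ℝ)) := by
  have hk' : (2:ℝ) ≤ k := by exact_mod_cast hk
  set θ : ℝ := 1 - 1 / (k : ℝ) with hθ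
  have hinv : 1 / (k : ℝ) ≤ 1 / 2 := by
    apply one_div_le_one_div_of_le (by norm_num) hk'
  have hinvpos : 0 < 1 / (k : ℝ) := by positivity
  have hθpos : 0 < θ := by rw [hθ]; linarith
  have hθlt : θ < 1 := by rw [hθ]; linarith
  have hpq : (θ⁻¹).HolderConjugate (k : ℝ) := by
    rw [Real.holderConjugate_iff]
    constructor
    · exact (one_lt_inv₀ hθpos).mpr hθlt
    · rw [inv_inv, hθ]
      field_simp
      ring
  have h := ENNReal.inner_le_Lp_mul_Lq Finset.univ (fun v => Q v ^ θ) (fun _ : V => (1 : ℝ≥0∞)) hpq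
  simp only [mul_one] at h
  refine h.trans ?_
  have h1 : ∑ v, (Q v ^ θ) ^ (θ⁻¹) = ∑ v, Q v := by
    apply Finset.sum_congr rfl
    intro v _
    rw [← ENNReal.rpow_mul, mul_inv_cancel₀ hθpos.ne', ENNReal.rpow_one]
  have h2 : ∑ _v : V, (1 : ℝ≥0∞) ^ (k : ℝ) = (Fintype.card V : ℝ≥0∞) := by
    simp
  rw [h1, h2]
  have h3 : (∑ v, Q v) ^ (1 / θ⁻¹) ≤ 1 := by
    apply ENNReal.rpow_le_one hQ (by positivity)
  calc _ ≤ 1 * (Fintype.card V : ℝ≥0∞) ^ (1 / (k : ℝ)) := by gcongr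
    _ = _ := one_mul _

variable (σ : Measure Ω) (g : ℕ → V → V → Ω → ℝ≥0∞) (Q : ℕ → V → V → ℝ≥0∞) (E : ℝ≥0∞) (v0 : V)

lemma measurable_lowP (hg : ∀ j v v', Measurable (g j v v')) (j : ℕ) (v v' : V) :
    Measurable (lowP g Q E j v v') := by
  unfold lowP
  exact Measurable.ite (measurableSet_le (hg j v v') measurable_const) (hg j v v') measurable_const

lemma measurable_highP (hg : ∀ j v v', Measurable (g j v v')) (j : ℕ) (v v' : V) :
    Measurable (highP g Q E j v v') := by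
  unfold highP
  exact Measurable.ite (measurableSet_le (hg j v v') measurable_const) measurable_const (hg j v v')

lemma measurable_chZ (hg : ∀ j v v', Measurable (g j v v')) (j : ℕ) (v : V) :
    Measurable (chZ g Q E v0 j v) := by
  induction j generalizing v with
  | zero => exact measurable_const
  | succ j ih =>
    simp only [chZ]
    exact Finset.measurable_sum _ (fun u _ => (ih u).mul (measurable_lowP g Q E hg j u v))

lemma measurable_chR (hg : ∀ j v v', Measurable (g j v v')) (j : ℕ) (v : V) :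
    Measurable (chR g Q E v0 j v) := by
  induction j generalizing v with
  | zero => exact measurable_const
  | succ j ih =>
    simp only [chR]
    apply Measurable.add
    · exact Finset.measurable_sum _ (fun u _ => (ih u).mul (hg j u v))
    · exact Finset.measurable_sum _ (fun u _ => (measurable_chZ g Q E v0 hg j u).mul (measurable_highP g Q E hg j u v))

lemma measurable_chT (hg : ∀ j v v', Measurable (g j v v')) (j : ℕ) (v : V) :
    Measurable (chT g v0 j v) := by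
  induction j generalizing v with
  | zero => exact measurable_const
  | succ j ih =>
    simp only [chT]
    exact Finset.measurable_sum _ (fun u _ => (ih u).mul (hg j u v))

/-- bound for the total mass moved into the remainder at one step -/
lemma step_loss_le (Ξ : ℝ≥0∞) {k : ℕ} (hk : 2 ≤ k)
    (hg : ∀ j v v', Measurable (g j v v')) (hQ : ∀ j v, ∑ v', Q j v v' ≤ 1)
    (hL2 : ∀ j v v', ∫⁻ ω, g j v v' ω ^ 2 ∂σ ≤ Ξ * Q j v v' ^ ((2 : ℝ) - 1 / (k : ℝ)))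
    (hE : Ξ * (Fintype.card V : ℝ≥0∞) ^ (1 / (k : ℝ)) = E) (hE0 : E ≠ 0) (hET : E ≠ ⊤) (j : ℕ) :
    ∑ v', ∫⁻ ω, ∑ v, chZ g Q E v0 j v ω * highP g Q E j v v' ω ∂σ ≤ (2⁻¹) ^ (j + 3) := by
  have hk' : (2:ℝ) ≤ k := by exact_mod_cast hk
  have hinv : 1 / (k : ℝ) ≤ 1 / 2 := by
    apply one_div_le_one_div_of_le (by norm_num) hk'
  set θ : ℝ := 1 - 1 / (k : ℝ) with hθ
  have hθpos : 0 < θ := by rw [hθ]; linarith
  have hexp : (2 : ℝ) - 1 / (k : ℝ) = 1 + θ := by rw [hθ]; ring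
  have hQT : ∀ v v', Q j v v' ≠ ⊤ := by
    intro v v' h
    have h1 := hQ j v
    have h2 : Q j v v' ≤ ∑ v', Q j v v' := Finset.single_le_sum (fun _ _ => zero_le) (Finset.mem_univ v')
    rw [h] at h2
    have := h2.trans h1
    simp at this
  have hhigh : ∀ v v', ∫⁻ ω, highP g Q E j v v' ω ∂σ ≤ (Ξ * (Lam E j)⁻¹) * Q j v v' ^ θ := by
    intro v v'
    have := hL2 j v v'
    rw [hexp] at this
    exact high_lintegral_le σ (hg j v v') (hQT v v') (Lam_ne_zero hE0 j) (Lam_ne_top hET j) hθpos this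
  have h1 : ∀ v', ∫⁻ ω, ∑ v, chZ g Q E v0 j v ω * highP g Q E j v v' ω ∂σ ≤
      ∑ v, Dfun E j * chY Q v0 j v * ((Ξ * (Lam E j)⁻¹) * Q j v v' ^ θ) := by
    intro v'
    have hmeas : ∀ u ∈ Finset.univ, Measurable (fun ω => chZ g Q E v0 j u ω * highP g Q E j u v' ω) :=
      fun u _ => (measurable_chZ g Q E v0 hg j u).mul (measurable_highP g Q E hg j u v')
    rw [lintegral_finsetSum _ hmeas]
    apply Finset.sum_le_sum
    intro u _
    calc ∫⁻ ω, chZ g Q E v0 j u ω * highP g Q E j u v' ω ∂σ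
        ≤ ∫⁻ ω, (Dfun E j * chY Q v0 j u) * highP g Q E j u v' ω ∂σ := by
          apply lintegral_mono
          intro ω
          simp only
          gcongr
          exact chZ_le g Q E v0 j u ω
      _ = (Dfun E j * chY Q v0 j u) * ∫⁻ ω, highP g Q E j u v' ω ∂σ := by
          rw [lintegral_const_mul _ (measurable_highP g Q E hg j u v')]
      _ ≤ _ := by
          gcongr
          exact hhigh u v'
  calc ∑ v', ∫⁻ ω, ∑ v, chZ g Q E v0 j v ω * highP g Q E j v v' ω ∂σ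
      ≤ ∑ v', ∑ v, Dfun E j * chY Q v0 j v * ((Ξ * (Lam E j)⁻¹) * Q j v v' ^ θ) := Finset.sum_le_sum (fun v' _ => h1 v')
    _ = ∑ v, Dfun E j * chY Q v0 j v * ((Ξ * (Lam E j)⁻¹) * ∑ v', Q j v v' ^ θ) := by
        rw [Finset.sum_comm]
        apply Finset.sum_congr rfl
        intro v _
        simp only [Finset.mul_sum]
    _ ≤ ∑ v, Dfun E j * chY Q v0 j v * ((Ξ * (Lam E j)⁻¹) * (Fintype.card V : ℝ≥0∞) ^ (1 / (k : ℝ))) := by
        apply Finset.sum_le_sum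
        intro v _
        gcongr
        exact sum_rpow_le (Q j v) (hQ j v) hk
    _ = (∑ v, chY Q v0 j v) * (Dfun E j * (E * (Lam E j)⁻¹)) := by
        rw [← hE, Finset.sum_mul]
        apply Finset.sum_congr rfl
        intro v _
        ring
    _ ≤ 1 * (Dfun E j * (E * (Lam E j)⁻¹)) := by
        gcongr
        exact chY_sum_le Q hQ v0 j
    _ = (2⁻¹) ^ (j + 3) := by
        rw [one_mul]
        have hD0 := Dfun_ne_zero hE0 j
        have hDT := Dfun_ne_top hET j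
        have h2 : Lam E j = 2 ^ (j + 3) * (Dfun E j * E) := by
          unfold Lam; ring
        have h3 : (Dfun E j * E) * (Dfun E j * E)⁻¹ = 1 :=
          ENNReal.mul_inv_cancel (mul_ne_zero hD0 hE0) (ENNReal.mul_ne_top hDT hET)
        rw [h2, ENNReal.mul_inv (Or.inl (by simp)) (Or.inl (by simp)), ENNReal.inv_pow]
        calc Dfun E j * (E * ((2⁻¹:ℝ≥0∞) ^ (j + 3) * (Dfun E j * E)⁻¹))
            = (2⁻¹:ℝ≥0∞) ^ (j + 3) * ((Dfun E j * E) * (Dfun E j * E)⁻¹) := by ring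
          _ = _ := by rw [h3, mul_one]

lemma chR_mass (Ξ : ℝ≥0∞) {k : ℕ} (hk : 2 ≤ k)
    (hg : ∀ j v v', Measurable (g j v v')) (hgs : ∀ j v ω, ∑ v', g j v v' ω ≤ 1)
    (hQ : ∀ j v, ∑ v', Q j v v' ≤ 1)
    (hL2 : ∀ j v v', ∫⁻ ω, g j v v' ω ^ 2 ∂σ ≤ Ξ * Q j v v' ^ ((2 : ℝ) - 1 / (k : ℝ)))
    (hE : Ξ * (Fintype.card V : ℝ≥0∞) ^ (1 / (k : ℝ)) = E) (hE0 : E ≠ 0) (hET : E ≠ ⊤) (n : ℕ) :
    (∑ v, ∫⁻ ω, chR g Q E v0 n v ω ∂σ) + (2⁻¹) ^ (n + 2) ≤ (2⁻¹) ^ 2 := by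
  induction n with
  | zero => simp [chR]
  | succ n ih =>
    have h1 : ∑ v', ∫⁻ ω, chR g Q E v0 (n + 1) v' ω ∂σ ≤
        (∑ v, ∫⁻ ω, chR g Q E v0 n v ω ∂σ) + (2⁻¹) ^ (n + 3) := by
      simp only [chR]
      have hm1 : ∀ v', Measurable (fun ω => ∑ v, chR g Q E v0 n v ω * g n v v' ω) := fun v' =>
        Finset.measurable_sum _ (fun u _ => (measurable_chR g Q E v0 hg n u).mul (hg n u v'))
      have hm2 : ∀ v', Measurable (fun ω => ∑ v, chZ g Q E v0 n v ω * highP g Q E n v v' ω) := fun v' =>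
        Finset.measurable_sum _ (fun u _ => (measurable_chZ g Q E v0 hg n u).mul (measurable_highP g Q E hg n u v'))
      have h2 : ∀ v', ∫⁻ ω, (∑ v, chR g Q E v0 n v ω * g n v v' ω + ∑ v, chZ g Q E v0 n v ω * highP g Q E n v v' ω) ∂σ =
          ∫⁻ ω, ∑ v, chR g Q E v0 n v ω * g n v v' ω ∂σ + ∫⁻ ω, ∑ v, chZ g Q E v0 n v ω * highP g Q E n v v' ω ∂σ := by
        intro v'
        rw [lintegral_add_left (hm1 v')]
      simp only [h2, Finset.sum_add_distrib]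
      refine add_le_add ?_ ?_
      · rw [← lintegral_finsetSum _ (fun v' _ => hm1 v')]
        have hm3 : ∀ u ∈ (Finset.univ : Finset V), Measurable (chR g Q E v0 n u) := fun u _ => measurable_chR g Q E v0 hg n u
        rw [← lintegral_finsetSum _ hm3]
        apply lintegral_mono
        intro ω
        simp only
        rw [Finset.sum_comm]
        apply Finset.sum_le_sum
        intro v _
        rw [← Finset.mul_sum]
        calc chR g Q E v0 n v ω * ∑ v', g n v v' ω ≤ chR g Q E v0 n v ω * 1 := by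
              gcongr
              exact hgs n v ω
          _ = _ := mul_one _
      · exact step_loss_le σ g Q E v0 Ξ hk hg hQ hL2 hE hE0 hET n
    have h3 : ((2⁻¹ : ℝ≥0∞)) ^ (n + 3) + (2⁻¹) ^ (n + 3) = (2⁻¹) ^ (n + 2) := by
      rw [← two_mul, show n + 3 = (n + 2) + 1 by ring, pow_succ]
      calc (2:ℝ≥0∞) * ((2⁻¹) ^ (n + 2) * 2⁻¹) = (2⁻¹) ^ (n + 2) * (2 * 2⁻¹) := by ring
        _ = _ := by rw [ENNReal.mul_inv_cancel (by norm_num) (by norm_num), mul_one]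
    calc (∑ v', ∫⁻ ω, chR g Q E v0 (n + 1) v' ω ∂σ) + (2⁻¹) ^ (n + 1 + 2)
        ≤ ((∑ v, ∫⁻ ω, chR g Q E v0 n v ω ∂σ) + (2⁻¹) ^ (n + 3)) + (2⁻¹) ^ (n + 3) := by
          gcongr
      _ = (∑ v, ∫⁻ ω, chR g Q E v0 n v ω ∂σ) + (2⁻¹) ^ (n + 2) := by
          rw [add_assoc, h3]
      _ ≤ _ := ih

/-- the final bound of the chain argument -/
theorem chain_bound (Ξ : ℝ≥0∞) {k : ℕ} (hk : 2 ≤ k)
    (hg : ∀ j v v', Measurable (g j v v')) (hgs : ∀ j v ω, ∑ v', g j v v' ω ≤ 1)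
    (hQ : ∀ j v, ∑ v', Q j v v' ≤ 1)
    (hL2 : ∀ j v v', ∫⁻ ω, g j v v' ω ^ 2 ∂σ ≤ Ξ * Q j v v' ^ ((2 : ℝ) - 1 / (k : ℝ)))
    (hE : Ξ * (Fintype.card V : ℝ≥0∞) ^ (1 / (k : ℝ)) = E) (hE0 : E ≠ 0) (hET : E ≠ ⊤) (n : ℕ)
    (B : V → Set Ω) (hB : ∀ v, MeasurableSet (B v)) (κ : ℝ≥0∞) (hκ : ∀ v, σ (B v) ≤ κ) :
    ∑ v', ∫⁻ ω in B v', chT g v0 n v' ω ∂σ ≤ (2⁻¹) ^ 2 + Dfun E n * κ := by
  have hR := chR_mass σ g Q E v0 Ξ hk hg hgs hQ hL2 hE hE0 hET n
  have h1 : ∀ v', ∫⁻ ω in B v', chT g v0 n v' ω ∂σ ≤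
      ∫⁻ ω, chR g Q E v0 n v' ω ∂σ + Dfun E n * chY Q v0 n v' * κ := by
    intro v'
    have h2 : ∀ ω, chT g v0 n v' ω = chR g Q E v0 n v' ω + chZ g Q E v0 n v' ω := by
      intro ω
      rw [chT_eq g Q E v0 n v' ω, add_comm]
    simp only [h2]
    rw [lintegral_add_left (measurable_chR g Q E v0 hg n v')]
    refine add_le_add (setLIntegral_le_lintegral _ _) ?_
    · calc ∫⁻ ω in B v', chZ g Q E v0 n v' ω ∂σ ≤ ∫⁻ ω in B v', Dfun E n * chY Q v0 n v' ∂σ := by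
            apply lintegral_mono
            intro ω
            exact chZ_le g Q E v0 n v' ω
        _ = Dfun E n * chY Q v0 n v' * σ (B v') := by
            rw [setLIntegral_const]
        _ ≤ _ := by
            gcongr
            exact hκ v'
  calc ∑ v', ∫⁻ ω in B v', chT g v0 n v' ω ∂σ
      ≤ ∑ v', (∫⁻ ω, chR g Q E v0 n v' ω ∂σ + Dfun E n * chY Q v0 n v' * κ) := Finset.sum_le_sum (fun v' _ => h1 v')
    _ = (∑ v', ∫⁻ ω, chR g Q E v0 n v' ω ∂σ) + (∑ v', chY Q v0 n v') * (Dfun E n * κ) := by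
        rw [Finset.sum_add_distrib, Finset.sum_mul]
        congr 1
        apply Finset.sum_congr rfl
        intro v _
        ring
    _ ≤ (2⁻¹) ^ 2 + 1 * (Dfun E n * κ) := by
        gcongr
        · exact (le_self_add).trans hR
        · exact chY_sum_le Q hQ v0 n
    _ = _ := by rw [one_mul]

end Chain

end Vale.Agent.Lib.P309
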