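import Mathlib

/-! Basic notions for the noiseless Gaussian regression streaming model. -/

open MeasureTheory ProbabilityTheory Set Module
open scoped ENNReal

namespace Vale.Agent.Lib.P309

/-- Euclidean space of dimension `d`. -/
abbrev Vec (d : ℕ) := EuclideanSpace ℝ (Fin d)

/-- The uniform probability measure on the unit sphere: normalized surface measure. -/
noncomputable def sphereUnif (d : ℕ) : Measure (Metric.sphere (0 : Vec d) 1) :=
  ((volume : Measure (Vec d)).toSphere univ)⁻¹ • (volume : Measure (Vec d)).toSphere

/-- A streaming learner with at most `2 ^ M` memory states in dimension `d`. All its randomness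
is one seed in `Ω`, which every rule may read (this includes fresh private coins at every step,
as coordinates of the seed). At index `t`, in memory state `v`, reading the row `x` and the label
`y`, the rule `step` gives the next state and `halt` decides whether to stop reading. The output is
a unit vector depending on the final state and the seed. All rules are jointly measurable. -/
structure Learner (d M : ℕ) (Ω : Type*) [MeasurableSpace Ω] where
  init : Ω → Fin (2 ^ M)
  step : ℕ → Fin (2 ^ M) → Vec d → ℝ → Ω → Fin (2 ^ M)
  halt : ℕ → Fin (2 ^ M) → Vec d → ℝ → Ω → Bool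
  out : Fin (2 ^ M) → Ω → Metric.sphere (0 : Vec d) 1
  init_meas : Measurable init
  step_meas : ∀ t, Measurable fun p : Fin (2 ^ M) × Vec d × ℝ × Ω =>
    step t p.1 p.2.1 p.2.2.1 p.2.2.2
  halt_meas : ∀ t, Measurable fun p : Fin (2 ^ M) × Vec d × ℝ × Ω =>
    halt t p.1 p.2.1 p.2.2.1 p.2.2.2
  out_meas : Measurable fun p : Fin (2 ^ M) × Ω => out p.1 p.2

/-- The final memory state and stopping flag of the learner after reading, in order and with exact
labels `y = inner x s`, at most `T` rows `A 0, ..., A (T - 1)`: once the flag is set nothing
changes any more. -/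
noncomputable def Learner.run {d M : ℕ} {Ω : Type*} [MeasurableSpace Ω] (L : Learner d M Ω) (T : ℕ)
    (A : Fin T → Vec d) (s : Vec d) (ω : Ω) : Fin (2 ^ M) × Bool :=
  Fin.foldl T (fun p i =>
      if p.2 then p
      else (L.step i p.1 (A i) (inner ℝ (A i) s) ω, L.halt i p.1 (A i) (inner ℝ (A i) s) ω))
    (L.init ω, false)

/-- The probability that the output is within angle `ε` of the signal, when the signal is uniform
on the sphere, the `T` rows are independent standard Gaussian vectors and the seed has law `μ`, all
three independent. -/
noncomputable def Learner.successProb {d M : ℕ} {Ω : Type*} [MeasurableSpace Ω]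
    (L : Learner d M Ω) (T : ℕ) (μ : Measure Ω) (ε : ℝ) : ℝ≥0∞ :=
  ((sphereUnif d).prod ((Measure.pi fun _ : Fin T => stdGaussian (Vec d)).prod μ))
    {p | Real.arccos (inner ℝ ((L.out (L.run T p.2.1 p.1 p.2.2).1 p.2.2 : Metric.sphere (0 : Vec d) 1) : Vec d)
        (p.1 : Vec d)) ≤ ε}

end Vale.Agent.Lib.P309
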