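import Mathlib

open MeasureTheory ProbabilityTheory Set Module
open scoped ENNReal

namespace Vale.Agent.Lib.P309

section Polar

variable {F : Type*} [NormedAddCommGroup F] [InnerProductSpace ℝ F] [FiniteDimensional ℝ F]
  [MeasurableSpace F] [BorelSpace F]

/-- polar coordinates for a general nonnegative integrand -/
lemma lintegral_polar [Nontrivial F] (f : F → ℝ≥0∞) :
    ∫⁻ x : F, f x =
      ∫⁻ p : Metric.sphere (0 : F) 1 × Ioi (0 : ℝ), f ((p.2 : ℝ) • (p.1 : F)) ∂((volume : Measure F).toSphere.prod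
        (Measure.volumeIoiPow (finrank ℝ F - 1))) := by
  have hmp := (volume : Measure F).measurePreserving_homeomorphUnitSphereProd
  have h1 := hmp.lintegral_comp_emb (Homeomorph.measurableEmbedding _)
    (fun p : Metric.sphere (0 : F) 1 × Ioi (0 : ℝ) => f ((p.2 : ℝ) • (p.1 : F)))
  rw [← h1]
  have hmeas : MeasurableSet ({0}ᶜ : Set F) := (measurableSet_singleton _).compl
  have h2 := lintegral_subtype_comap (μ := (volume : Measure F)) hmeas
    (fun x => f x)
  have h3 : ∀ x : ({0}ᶜ : Set F), ((homeomorphUnitSphereProd F x).2 : ℝ) •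
      ((homeomorphUnitSphereProd F x).1 : F) = x := by
    intro x
    have hx : (x : F) ≠ 0 := x.2
    simp [homeomorphUnitSphereProd, smul_smul, norm_ne_zero_iff.mpr hx]
  simp only [h3]
  rw [h2, restrict_compl_singleton]

/-- reduce integrals over `Ioi 0` with the power measure to Lebesgue integrals -/
lemma lintegral_volumeIoiPow (n : ℕ) (g : ℝ → ℝ≥0∞) (hg : Measurable g) :
    ∫⁻ r : Ioi (0 : ℝ), g r ∂(Measure.volumeIoiPow n) =
      ∫⁻ r in Ioi (0 : ℝ), ENNReal.ofReal (r ^ n) * g r := by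
  rw [Measure.volumeIoiPow, lintegral_withDensity_eq_lintegral_mul _ (by fun_prop)
    (by fun_prop)]
  have := lintegral_subtype_comap (μ := (volume : Measure ℝ)) (measurableSet_Ioi (a := (0:ℝ)))
    (fun r => ENNReal.ofReal (r ^ n) * g r)
  simpa using this

/-- integrals of radial functions -/
lemma lintegral_radial [Nontrivial F] (g : ℝ → ℝ≥0∞) (hg : Measurable g) :
    ∫⁻ x : F, g ‖x‖ = (volume : Measure F).toSphere univ *
      ∫⁻ r in Ioi (0 : ℝ), ENNReal.ofReal (r ^ (finrank ℝ F - 1)) * g r := by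
  rw [lintegral_polar]
  have h : ∀ p : Metric.sphere (0 : F) 1 × Ioi (0 : ℝ),
      g ‖((p.2 : ℝ) • (p.1 : F))‖ = g p.2 := by
    rintro ⟨⟨ω, hω⟩, ⟨r, hr⟩⟩
    have hr' : (0:ℝ) < r := hr
    have : ‖ω‖ = 1 := by simpa using hω
    simp [norm_smul, this, abs_of_pos hr']
  simp only [h]
  rw [lintegral_prod _ (by fun_prop)]
  simp only [lintegral_const]
  rw [mul_comm, lintegral_volumeIoiPow _ g hg]

end Polar

section Density

variable {F : Type*} [NormedAddCommGroup F] [InnerProductSpace ℝ F] [FiniteDimensional ℝ F]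
  [MeasurableSpace F] [BorelSpace F]

noncomputable def gDens (F : Type*) [NormedAddCommGroup F] [InnerProductSpace ℝ F] [FiniteDimensional ℝ F] (x : F) : ℝ :=
  (2 * Real.pi) ^ (-(finrank ℝ F : ℝ) / 2) * Real.exp (-‖x‖ ^ 2 / 2)

lemma integrable_gaussWeight : Integrable (fun x : F => Real.exp (-‖x‖ ^ 2 / 2)) := by
  have h := GaussianFourier.integrable_cexp_neg_mul_sq_norm_add (V := F) (b := (1/2 : ℂ))
    (by simp) 0 0
  have h2 := h.re
  refine h2.congr (Filter.Eventually.of_forall fun x => ?_)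
  simp only [RCLike.re_to_complex, zero_mul, add_zero]
  have : -(1 / 2 : ℂ) * (‖x‖ : ℂ) ^ 2 = ((-‖x‖ ^ 2 / 2 : ℝ) : ℂ) := by
    push_cast; ring
  rw [this, Complex.exp_ofReal_re]

lemma integral_gaussWeight : ∫ x : F, Real.exp (-‖x‖ ^ 2 / 2) =
    (2 * Real.pi) ^ ((finrank ℝ F : ℝ) / 2) := by
  have h := GaussianFourier.integral_rexp_neg_mul_sq_norm (V := F) (b := (1/2 : ℝ)) (by norm_num)
  have e : ∀ x : F, Real.exp (-(1/2 : ℝ) * ‖x‖ ^ 2) = Real.exp (-‖x‖ ^ 2 / 2) := by
    intro x; congr 1; ring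
  simp only [e] at h
  rw [h]
  congr 1
  field_simp

lemma lintegral_gaussWeight : ∫⁻ x : F, ENNReal.ofReal (Real.exp (-‖x‖ ^ 2 / 2)) =
    ENNReal.ofReal ((2 * Real.pi) ^ ((finrank ℝ F : ℝ) / 2)) := by
  rw [← ofReal_integral_eq_lintegral_ofReal integrable_gaussWeight
    (Filter.Eventually.of_forall fun x => (Real.exp_pos _).le), integral_gaussWeight]

lemma lintegral_gDens : ∫⁻ x : F, ENNReal.ofReal (gDens F x) = 1 := by
  have hc : (0:ℝ) < (2 * Real.pi) ^ (-(finrank ℝ F : ℝ) / 2) := by positivity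
  simp only [gDens]
  simp_rw [ENNReal.ofReal_mul hc.le]
  rw [lintegral_const_mul _ (by fun_prop), lintegral_gaussWeight, ← ENNReal.ofReal_mul hc.le,
    ← Real.rpow_add (by positivity)]
  simp [neg_div]

/-- the standard Gaussian has the usual density -/
lemma stdGaussian_eq_withDensity :
    stdGaussian F = (volume : Measure F).withDensity (fun x => ENNReal.ofReal (gDens F x)) := by
  have hm : Measurable (fun x : F => ENNReal.ofReal (gDens F x)) := by
    unfold gDens; fun_prop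
  have : IsFiniteMeasure ((volume : Measure F).withDensity (fun x => ENNReal.ofReal (gDens F x))) := by
    constructor
    rw [withDensity_apply _ MeasurableSet.univ, Measure.restrict_univ, lintegral_gDens]
    simp
  apply Measure.ext_of_charFun
  ext t
  rw [charFun_stdGaussian, charFun_apply, integral_withDensity_eq_integral_toReal_smul hm
    (Filter.Eventually.of_forall fun x => by simp)]
  have hc : (0:ℝ) < (2 * Real.pi) ^ (-(finrank ℝ F : ℝ) / 2) := by positivity
  have h1 : ∀ x : F, (ENNReal.ofReal (gDens F x)).toReal • Complex.exp ((inner ℝ x t : ℝ) * Complex.I)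
      = ((2 * Real.pi) ^ (-(finrank ℝ F : ℝ) / 2) : ℝ) *
        Complex.exp (-(1/2 : ℂ) * (‖x‖ : ℂ) ^ 2 + Complex.I * (inner ℝ t x : ℝ)) := by
    intro x
    have hg : 0 ≤ gDens F x := by unfold gDens; positivity
    rw [ENNReal.toReal_ofReal hg, real_inner_comm]
    simp only [gDens, Complex.real_smul]
    push_cast
    rw [mul_assoc, ← Complex.exp_add]
    congr 2
    ring
  simp_rw [h1]
  rw [integral_const_mul, GaussianFourier.integral_cexp_neg_mul_sq_norm_add (by simp)]
  have h2 : (Real.pi : ℂ) / (1/2 : ℂ) = ((2 * Real.pi : ℝ) : ℂ) := by push_cast; ring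
  rw [h2]
  have h3 : (((2 * Real.pi : ℝ) : ℂ)) ^ ((finrank ℝ F : ℂ) / 2) =
      (((2 * Real.pi) ^ ((finrank ℝ F : ℝ) / 2) : ℝ) : ℂ) := by
    rw [Complex.ofReal_cpow (by positivity)]
    push_cast
    rfl
  rw [h3]
  rw [← mul_assoc, ← Complex.ofReal_mul, ← Real.rpow_add (by positivity)]
  have h4 : -(finrank ℝ F : ℝ) / 2 + (finrank ℝ F : ℝ) / 2 = 0 := by ring
  rw [h4, Real.rpow_zero]
  simp only [Complex.ofReal_one, one_mul]
  congr 1
  rw [Complex.I_sq]
  push_cast
  ring

end Density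

section Moments

noncomputable def intExp (a : ℝ) : ℝ := ∫ r in Ioi (0:ℝ), r ^ a * Real.exp (-(1/2) * r ^ (2:ℝ))

lemma intExp_eq {a : ℝ} (ha : -1 < a) :
    intExp a = (1/2 : ℝ) ^ (-(a + 1) / 2) * (1 / 2) * Real.Gamma ((a + 1) / 2) := by
  unfold intExp
  exact integral_rpow_mul_exp_neg_mul_rpow (by norm_num) ha (by norm_num)

lemma intExp_pos {a : ℝ} (ha : -1 < a) : 0 < intExp a := by
  rw [intExp_eq ha]
  have : 0 < (a + 1) / 2 := by linarith
  have := Real.Gamma_pos_of_pos this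
  positivity

lemma intExp_add_two {a : ℝ} (ha : -1 < a) : intExp (a + 2) = (a + 1) * intExp a := by
  rw [intExp_eq ha, intExp_eq (by linarith)]
  have h1 : (a + 2 + 1) / 2 = (a + 1) / 2 + 1 := by ring
  have h2 : 0 < (a + 1) / 2 := by linarith
  rw [h1, Real.Gamma_add_one h2.ne']
  have h3 : -(a + 2 + 1) / 2 = -(a + 1) / 2 + (-1) := by ring
  rw [h3, Real.rpow_add (by norm_num), Real.rpow_neg_one]
  field_simp

variable {F : Type*} [NormedAddCommGroup F] [InnerProductSpace ℝ F] [FiniteDimensional ℝ F]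
  [MeasurableSpace F] [BorelSpace F]

noncomputable def gMom (F : Type*) [NormedAddCommGroup F] [InnerProductSpace ℝ F] [FiniteDimensional ℝ F]
    [MeasurableSpace F] (q : ℝ) : ℝ≥0∞ :=
  ∫⁻ x : F, ENNReal.ofReal (‖x‖ ^ q) ∂(stdGaussian F)

lemma gMom_eq [Nontrivial F] {q : ℝ} (hq : -(finrank ℝ F : ℝ) < q) :
    gMom F q = ENNReal.ofReal ((2 * Real.pi) ^ (-(finrank ℝ F : ℝ) / 2)) *
      ((volume : Measure F).toSphere univ *
        ENNReal.ofReal (intExp ((finrank ℝ F : ℝ) - 1 + q))) := by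
  have hn : 0 < finrank ℝ F := finrank_pos
  have hc : (0:ℝ) < (2 * Real.pi) ^ (-(finrank ℝ F : ℝ) / 2) := by positivity
  have hm : Measurable (fun x : F => ENNReal.ofReal (gDens F x)) := by
    unfold gDens; fun_prop
  unfold gMom
  rw [stdGaussian_eq_withDensity, lintegral_withDensity_eq_lintegral_mul _ hm (by fun_prop)]
  have h1 : ∀ x : F, (fun x => ENNReal.ofReal (gDens F x)) x * ENNReal.ofReal (‖x‖ ^ q) =
      ENNReal.ofReal ((2 * Real.pi) ^ (-(finrank ℝ F : ℝ) / 2)) *
        (fun r : ℝ => ENNReal.ofReal (r ^ q * Real.exp (-r ^ 2 / 2))) ‖x‖ := by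
    intro x
    simp only [gDens]
    rw [ENNReal.ofReal_mul hc.le, mul_assoc, ← ENNReal.ofReal_mul (Real.exp_pos _).le, mul_comm (Real.exp _)]
  simp only [Pi.mul_apply, h1]
  rw [lintegral_const_mul _ (by fun_prop)]
  have hrad := lintegral_radial (F := F) (fun r : ℝ => ENNReal.ofReal (r ^ q * Real.exp (-r ^ 2 / 2)))
    (by fun_prop)
  rw [hrad]
  congr 2
  have hint : IntegrableOn (fun r : ℝ => r ^ ((finrank ℝ F : ℝ) - 1 + q) * Real.exp (-(1/2) * r ^ (2:ℝ))) (Ioi 0) :=
    integrableOn_rpow_mul_exp_neg_mul_rpow (by linarith) (by norm_num) (by norm_num)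
  unfold intExp
  rw [ofReal_integral_eq_lintegral_ofReal hint]
  · apply setLIntegral_congr_fun measurableSet_Ioi
    intro r hr
    have hr' : (0:ℝ) < r := hr
    simp only
    rw [← ENNReal.ofReal_mul (by positivity)]
    congr 1
    have e1 : r ^ ((finrank ℝ F : ℝ) - 1 + q) = r ^ (finrank ℝ F - 1) * r ^ q := by
      rw [Real.rpow_add hr']
      congr 1
      rw [← Real.rpow_natCast, Nat.cast_sub hn]
      simp
    rw [e1, Real.rpow_two, mul_assoc]
    congr 3
    ring
  · filter_upwards [ae_restrict_mem measurableSet_Ioi] with r hr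
    have hr' : (0:ℝ) < r := hr
    positivity

lemma gMom_add_two [Nontrivial F] {q : ℝ} (hq : -(finrank ℝ F : ℝ) < q) :
    gMom F (q + 2) = ENNReal.ofReal ((finrank ℝ F : ℝ) + q) * gMom F q := by
  rw [gMom_eq hq, gMom_eq (by linarith)]
  have h : (finrank ℝ F : ℝ) - 1 + (q + 2) = ((finrank ℝ F : ℝ) - 1 + q) + 2 := by ring
  rw [h, intExp_add_two (by linarith)]
  have h2 : (finrank ℝ F : ℝ) - 1 + q + 1 = (finrank ℝ F : ℝ) + q := by ring
  rw [h2, ENNReal.ofReal_mul (by linarith)]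
  ring

lemma gMom_zero : gMom F 0 = 1 := by
  simp [gMom]

/-- positive even moments of the norm of a standard Gaussian -/
lemma gMom_pos_le [Nontrivial F] (j : ℕ) :
    gMom F (2 * j : ℝ) ≤ ENNReal.ofReal (((finrank ℝ F : ℝ) + 2 * j) ^ j) := by
  have hn : 0 < finrank ℝ F := finrank_pos
  have hn' : (0:ℝ) < (finrank ℝ F : ℝ) := by exact_mod_cast hn
  induction j with
  | zero => simp [gMom_zero]
  | succ j ih =>
    have h1 : (2 * ((j + 1 : ℕ) : ℝ)) = (2 * (j : ℝ)) + 2 := by push_cast; ring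
    rw [h1, gMom_add_two (by have : (0:ℝ) ≤ j := by positivity
                             linarith)]
    calc ENNReal.ofReal ((finrank ℝ F : ℝ) + 2 * j) * gMom F (2 * j)
        ≤ ENNReal.ofReal ((finrank ℝ F : ℝ) + 2 * j) *
            ENNReal.ofReal (((finrank ℝ F : ℝ) + 2 * j) ^ j) := by gcongr
      _ = ENNReal.ofReal (((finrank ℝ F : ℝ) + 2 * j) ^ (j + 1)) := by
          rw [← ENNReal.ofReal_mul (by positivity), pow_succ]
          ring_nf
      _ ≤ ENNReal.ofReal (((finrank ℝ F : ℝ) + (2 * j + 2)) ^ (j + 1)) := by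
          apply ENNReal.ofReal_le_ofReal
          gcongr
          linarith

/-- negative even moments of the norm of a standard Gaussian -/
lemma gMom_neg_le [Nontrivial F] (j : ℕ) (hj : 2 * (j : ℝ) < (finrank ℝ F : ℝ)) :
    gMom F (-(2 * j : ℝ)) ≤ ENNReal.ofReal ((((finrank ℝ F : ℝ) - 2 * j)⁻¹) ^ j) := by
  induction j with
  | zero => simp [gMom_zero]
  | succ j ih =>
    have h0 : (2 * ((j + 1 : ℕ) : ℝ)) = (2 * (j : ℝ)) + 2 := by push_cast; ring
    rw [h0] at hj ⊢
    have hj' : 2 * (j:ℝ) < (finrank ℝ F : ℝ) := by linarith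
    have ih' := ih hj'
    have h1 := gMom_add_two (F := F) (q := -(2 * (j : ℝ) + 2)) (by linarith)
    have h2 : -(2 * (j : ℝ) + 2) + 2 = -(2 * (j:ℝ)) := by ring
    rw [h2] at h1
    set X := gMom F (-(2 * (j : ℝ) + 2)) with hX
    set b : ℝ := (finrank ℝ F : ℝ) + -(2 * (j : ℝ) + 2) with hb
    have hbpos : 0 < b := by rw [hb]; linarith
    have hb' : ENNReal.ofReal b ≠ 0 := by simpa using hbpos
    have hb'' : ENNReal.ofReal b ≠ ⊤ := by simp
    have h3 : X = (ENNReal.ofReal b)⁻¹ * (ENNReal.ofReal b * X) := by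
      rw [← mul_assoc, ENNReal.inv_mul_cancel hb' hb'', one_mul]
    rw [h3, ← h1]
    have h5 : (finrank ℝ F : ℝ) - (2 * (j : ℝ) + 2) = b := by rw [hb]; ring
    rw [h5]
    have h6 : (((finrank ℝ F : ℝ) - 2 * j)⁻¹) ^ j ≤ (b⁻¹) ^ j := by
      have : 0 < (finrank ℝ F : ℝ) - 2 * j := by linarith
      gcongr
      rw [hb]; linarith
    calc (ENNReal.ofReal b)⁻¹ * gMom F (-(2 * (j:ℝ)))
        ≤ (ENNReal.ofReal b)⁻¹ * ENNReal.ofReal ((b⁻¹) ^ j) := by
          gcongr
          exact ih'.trans (ENNReal.ofReal_le_ofReal h6)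
      _ = ENNReal.ofReal ((b⁻¹) ^ (j + 1)) := by
          rw [← ENNReal.ofReal_inv_of_pos hbpos, ← ENNReal.ofReal_mul (by positivity), pow_succ]
          ring_nf


end Moments

end Vale.Agent.Lib.P309
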