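import Mathlib
import Vale.Agent.Lib.P309.Gauss
import Vale.Agent.Lib.P309.Defs

open MeasureTheory ProbabilityTheory Set Module
open scoped ENNReal
set_option linter.unusedSectionVars false
set_option linter.unusedVariables false
set_option linter.unusedSimpArgs false

namespace Vale.Agent.Lib.P309

section Jac
variable {U : Type*} [NormedAddCommGroup U] [InnerProductSpace ℝ U] [FiniteDimensional ℝ U]
  [MeasurableSpace U] [BorelSpace U]

/-- the radial factor -/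
noncomputable def gFac (w : U) : ℝ := (√(1 + ‖w‖ ^ 2))⁻¹

lemma gFac_pos (w : U) : 0 < gFac w := by
  unfold gFac; positivity

lemma gFac_sq (w : U) : gFac w ^ 2 * (1 + ‖w‖ ^ 2) = 1 := by
  unfold gFac
  have h : 0 < 1 + ‖w‖ ^ 2 := by positivity
  rw [inv_pow, Real.sq_sqrt h.le]
  field_simp

lemma gFac_le_one (w : U) : gFac w ≤ 1 := by
  unfold gFac
  apply inv_le_one_of_one_le₀
  rw [Real.one_le_sqrt]
  nlinarith [sq_nonneg ‖w‖]

/-- the map from the whole space onto the unit ball -/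
noncomputable def nuMap (w : U) : U := gFac w • w

noncomputable def nuDeriv (w : U) : U →L[ℝ] U :=
  gFac w • ContinuousLinearMap.id ℝ U +
    (-(gFac w) ^ 3) • (innerSL ℝ w).smulRight w

lemma hasFDerivAt_gFac (w : U) :
    HasFDerivAt (gFac : U → ℝ) ((-(gFac w) ^ 3) • innerSL ℝ w) w := by
  have h0 : (0:ℝ) < 1 + ‖w‖ ^ 2 := by positivity
  have h1 : HasFDerivAt (fun x : U => 1 + ‖x‖ ^ 2) (2 • (innerSL ℝ w).comp (ContinuousLinearMap.id ℝ U)) w :=
    ((hasFDerivAt_id w).norm_sq).const_add 1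
  have h2 := h1.sqrt h0.ne'
  have h3 : √(1 + ‖w‖ ^ 2) ≠ 0 := (Real.sqrt_pos.mpr h0).ne'
  have h4 := (hasDerivAt_inv h3).comp_hasFDerivAt w h2
  refine HasFDerivAt.congr_fderiv (f := gFac) h4 ?_
  ext v
  simp only [smul_apply, ContinuousLinearMap.comp_id, innerSL_apply_apply, gFac,
    smul_eq_mul]
  have hs : (√(1 + ‖w‖ ^ 2)) ^ 2 = 1 + ‖w‖ ^ 2 := Real.sq_sqrt h0.le
  set s := √(1 + ‖w‖ ^ 2) with hs'
  simp
  field_simp

lemma hasFDerivAt_nuMap (w : U) : HasFDerivAt (nuMap : U → U) (nuDeriv w) w := by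
  have h := (hasFDerivAt_gFac w).smul (hasFDerivAt_id w)
  refine HasFDerivAt.congr_fderiv (f := nuMap) h ?_
  ext v
  simp [nuDeriv, smul_smul]

lemma det_nuDeriv (w : U) :
    (nuDeriv w).det = gFac w ^ (finrank ℝ U + 2) := by
  have hg := gFac_pos w
  have hg2 := gFac_sq w
  let f : Dual ℝ U := (-(gFac w) ^ 2) • (innerSL ℝ w : U →L[ℝ] ℝ).toLinearMap
  have h1 : (nuDeriv w : U →ₗ[ℝ] U) = gFac w • (LinearMap.transvection f w) := by
    ext v
    simp [nuDeriv, LinearMap.transvection.apply, f, smul_add, smul_smul]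
    congr 1
    ring
  have h2 : (nuDeriv w).det = LinearMap.det (nuDeriv w : U →ₗ[ℝ] U) := rfl
  rw [h2, h1, LinearMap.det_smul, LinearMap.transvection.det]
  have h3 : f w = -(gFac w)^2 * ‖w‖^2 := by
    simp [f]
  rw [h3, pow_add]
  have h4 : 1 + -gFac w ^ 2 * ‖w‖ ^ 2 = gFac w ^ 2 := by nlinarith
  rw [h4]

lemma nuMap_injective : Function.Injective (nuMap : U → U) := by
  intro a b hab
  have h1 : gFac a * ‖a‖ = gFac b * ‖b‖ := by
    have := congrArg norm hab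
    simp only [nuMap, norm_smul, Real.norm_eq_abs, abs_of_pos (gFac_pos _)] at this
    exact this
  have h2 := gFac_sq a
  have h3 := gFac_sq b
  have h4 : gFac a = gFac b := by
    have h5 : gFac a ^ 2 = gFac b ^ 2 := by
      have h6 : (gFac a * ‖a‖) ^ 2 = (gFac b * ‖b‖) ^ 2 := by rw [h1]
      nlinarith
    exact (pow_left_inj₀ (gFac_pos a).le (gFac_pos b).le (by norm_num)).mp h5
  simp only [nuMap, h4] at hab
  exact smul_right_injective U (gFac_pos b).ne' hab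

lemma measurable_gFac : Measurable (gFac : U → ℝ) := by
  unfold gFac; fun_prop

lemma measurable_nuMap : Measurable (nuMap : U → U) := by
  unfold nuMap
  exact measurable_gFac.smul measurable_id

/-- the change of variables bound for `nuMap` -/
lemma lintegral_nuMap_le (H : U → ℝ≥0∞) (hH : Measurable H) :
    ∫⁻ w : U, ENNReal.ofReal (gFac w ^ (finrank ℝ U + 2)) * H (nuMap w) ≤ ∫⁻ u : U, H u := by
  have h := lintegral_image_eq_lintegral_abs_det_fderiv_mul (volume : Measure U)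
    (s := univ) (f := nuMap) (f' := nuDeriv) MeasurableSet.univ
    (fun w _ => (hasFDerivAt_nuMap w).hasFDerivWithinAt)
    (nuMap_injective.injOn) H
  have h2 : ∀ w : U, ENNReal.ofReal |(nuDeriv w).det| = ENNReal.ofReal (gFac w ^ (finrank ℝ U + 2)) := by
    intro w
    rw [det_nuDeriv, abs_of_pos (pow_pos (gFac_pos w) _)]
  simp only [h2, Measure.restrict_univ] at h
  rw [← h]
  exact setLIntegral_le_lintegral _ _

end Jac

section Core
variable {U V : Type*} [NormedAddCommGroup U] [InnerProductSpace ℝ U] [FiniteDimensional ℝ U]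
  [MeasurableSpace U] [BorelSpace U]
  [NormedAddCommGroup V] [InnerProductSpace ℝ V] [FiniteDimensional ℝ V]
  [MeasurableSpace V] [BorelSpace V]

/-- the radial moment of a Gaussian-like weight -/
noncomputable def aMom (V : Type*) [NormedAddCommGroup V] [MeasureSpace V] (n : ℕ) : ℝ≥0∞ :=
  ∫⁻ b : V, ENNReal.ofReal (‖b‖ ^ n * Real.exp (-‖b‖ ^ 2 / 2))

/-- scaling inside a Haar integral -/
lemma lintegral_smul_sub {W : Type*} [NormedAddCommGroup W] [InnerProductSpace ℝ W]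
    [FiniteDimensional ℝ W] [MeasurableSpace W] [BorelSpace W] (r : ℝ) (hr : 0 < r)
    (Ψ : W → ℝ≥0∞) (hΨ : Measurable Ψ) :
    ∫⁻ a : W, Ψ a = ENNReal.ofReal (r ^ finrank ℝ W) * ∫⁻ w : W, Ψ (r • w) := by
  have h := Measure.map_addHaar_smul (volume : Measure W) hr.ne'
  have h2 : ∫⁻ w : W, Ψ (r • w) = ∫⁻ a : W, Ψ a ∂(Measure.map (fun x => r • x) volume) := by
    rw [lintegral_map hΨ (measurable_const_smul r)]
  rw [h2, h, lintegral_smul_measure]
  have hinv : ENNReal.ofReal (r ^ finrank ℝ W) * ENNReal.ofReal |(r ^ finrank ℝ W)⁻¹| = 1 := by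
    rw [← ENNReal.ofReal_mul (by positivity), abs_of_pos (by positivity), mul_inv_cancel₀ (by positivity)]
    simp
  rw [smul_eq_mul, ← mul_assoc, hinv, one_mul]

lemma measurable_coreF (H : U → ℝ≥0∞) (hH : Measurable H) :
    Measurable (fun p : U × V => H ((√(‖p.1‖ ^ 2 + ‖p.2‖ ^ 2))⁻¹ • p.1) *
      ENNReal.ofReal (Real.exp (-(‖p.1‖ ^ 2 + ‖p.2‖ ^ 2) / 2))) := by
  apply Measurable.mul
  · apply hH.comp
    apply Measurable.smul
    · fun_prop
    · fun_prop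
  · fun_prop

lemma core_inner_a (H : U → ℝ≥0∞) (hH : Measurable H) (b : V) (hb : b ≠ 0) :
    ∫⁻ a : U, H ((√(‖a‖ ^ 2 + ‖b‖ ^ 2))⁻¹ • a) *
      ENNReal.ofReal (Real.exp (-(‖a‖ ^ 2 + ‖b‖ ^ 2) / 2)) =
    ENNReal.ofReal (‖b‖ ^ finrank ℝ U) *
      ∫⁻ w : U, H (nuMap w) * ENNReal.ofReal (Real.exp (-(‖b‖ ^ 2 * (1 + ‖w‖ ^ 2)) / 2)) := by
  have hr : 0 < ‖b‖ := norm_pos_iff.mpr hb
  have hΨ : Measurable (fun a : U => H ((√(‖a‖ ^ 2 + ‖b‖ ^ 2))⁻¹ • a) *
      ENNReal.ofReal (Real.exp (-(‖a‖ ^ 2 + ‖b‖ ^ 2) / 2))) := by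
    apply Measurable.mul
    · apply hH.comp
      apply Measurable.smul <;> fun_prop
    · fun_prop
  rw [lintegral_smul_sub ‖b‖ hr _ hΨ]
  congr 1
  apply lintegral_congr
  intro w
  have h1 : ‖‖b‖ • w‖ ^ 2 + ‖b‖ ^ 2 = ‖b‖ ^ 2 * (1 + ‖w‖ ^ 2) := by
    rw [norm_smul, norm_norm]; ring
  rw [h1]
  congr 2
  · rw [Real.sqrt_mul (by positivity), Real.sqrt_sq hr.le, smul_smul, nuMap, gFac]
    congr 1
    have : √(1 + ‖w‖ ^ 2) ≠ 0 := by positivity
    field_simp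

lemma core_inner_b (w : U) :
    ∫⁻ b : V, ENNReal.ofReal (‖b‖ ^ finrank ℝ U) *
        ENNReal.ofReal (Real.exp (-(‖b‖ ^ 2 * (1 + ‖w‖ ^ 2)) / 2)) =
      ENNReal.ofReal (gFac w ^ (finrank ℝ U + finrank ℝ V)) * aMom V (finrank ℝ U) := by
  set c := √(1 + ‖w‖ ^ 2) with hc
  have h0 : (0:ℝ) < 1 + ‖w‖ ^ 2 := by positivity
  have hcpos : 0 < c := Real.sqrt_pos.mpr h0
  have hc2 : c ^ 2 = 1 + ‖w‖ ^ 2 := Real.sq_sqrt h0.le
  have hg : gFac w = c⁻¹ := rfl
  have hΦ : Measurable (fun b : V => ENNReal.ofReal (‖b‖ ^ finrank ℝ U * Real.exp (-‖b‖ ^ 2 / 2))) := by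
    fun_prop
  have h1 := lintegral_smul_sub c hcpos _ hΦ
  have h2 : ∀ b : V, ENNReal.ofReal (‖b‖ ^ finrank ℝ U) *
        ENNReal.ofReal (Real.exp (-(‖b‖ ^ 2 * (1 + ‖w‖ ^ 2)) / 2)) =
      ENNReal.ofReal ((c ^ finrank ℝ U)⁻¹) *
      ENNReal.ofReal (‖c • b‖ ^ finrank ℝ U * Real.exp (-‖c • b‖ ^ 2 / 2)) := by
    intro b
    rw [← ENNReal.ofReal_mul (by positivity), ← ENNReal.ofReal_mul (by positivity)]
    congr 1
    rw [norm_smul, Real.norm_eq_abs, abs_of_pos hcpos, mul_pow, mul_pow, hc2, ← mul_assoc,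
      ← mul_assoc, inv_mul_cancel₀ (by positivity), one_mul]
    congr 3
    ring
  simp only [h2]
  rw [lintegral_const_mul _ (by
    apply Measurable.ennreal_ofReal
    fun_prop)]
  unfold aMom
  rw [h1, ← mul_assoc]
  congr 1
  rw [← ENNReal.ofReal_mul (by have := gFac_pos w; positivity), hg, pow_add, inv_pow, inv_pow, mul_assoc,
      inv_mul_cancel₀ (by positivity), mul_one]

/-- the core inequality on a product of two Euclidean spaces -/
lemma core_le (hm : 2 ≤ finrank ℝ V) (H : U → ℝ≥0∞) (hH : Measurable H) :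
    ∫⁻ p : U × V, H ((√(‖p.1‖ ^ 2 + ‖p.2‖ ^ 2))⁻¹ • p.1) *
      ENNReal.ofReal (Real.exp (-(‖p.1‖ ^ 2 + ‖p.2‖ ^ 2) / 2)) ≤
    aMom V (finrank ℝ U) * ∫⁻ u : U, H u := by
  have : Nontrivial V := Module.nontrivial_of_finrank_pos (R := ℝ) (by omega)
  rw [Measure.volume_eq_prod, lintegral_prod_symm _ (measurable_coreF H hH).aemeasurable]
  have hae : ∀ᵐ b : V, ∫⁻ a : U, H ((√(‖a‖ ^ 2 + ‖b‖ ^ 2))⁻¹ • a) *
      ENNReal.ofReal (Real.exp (-(‖a‖ ^ 2 + ‖b‖ ^ 2) / 2)) =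
      ENNReal.ofReal (‖b‖ ^ finrank ℝ U) *
      ∫⁻ w : U, H (nuMap w) * ENNReal.ofReal (Real.exp (-(‖b‖ ^ 2 * (1 + ‖w‖ ^ 2)) / 2)) := by
    have h0 : ∀ᵐ b : V, b ≠ 0 := by
      rw [ae_iff]
      simp
    filter_upwards [h0] with b hb
    exact core_inner_a H hH b hb
  rw [lintegral_congr_ae hae]
  have hjoint : Measurable (fun p : V × U => H (nuMap p.2) *
      ENNReal.ofReal (Real.exp (-(‖p.1‖ ^ 2 * (1 + ‖p.2‖ ^ 2)) / 2))) := by
    apply Measurable.mul
    · exact hH.comp (measurable_nuMap.comp measurable_snd)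
    · fun_prop
  have h1 : ∫⁻ b : V, ENNReal.ofReal (‖b‖ ^ finrank ℝ U) *
      ∫⁻ w : U, H (nuMap w) * ENNReal.ofReal (Real.exp (-(‖b‖ ^ 2 * (1 + ‖w‖ ^ 2)) / 2)) =
      ∫⁻ w : U, H (nuMap w) * (ENNReal.ofReal (gFac w ^ (finrank ℝ U + finrank ℝ V)) * aMom V (finrank ℝ U)) := by
    have h2 : ∀ b : V, ENNReal.ofReal (‖b‖ ^ finrank ℝ U) *
      ∫⁻ w : U, H (nuMap w) * ENNReal.ofReal (Real.exp (-(‖b‖ ^ 2 * (1 + ‖w‖ ^ 2)) / 2)) =
      ∫⁻ w : U, ENNReal.ofReal (‖b‖ ^ finrank ℝ U) * (H (nuMap w) * ENNReal.ofReal (Real.exp (-(‖b‖ ^ 2 * (1 + ‖w‖ ^ 2)) / 2))) := by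
      intro b
      exact (lintegral_const_mul _ (hjoint.comp measurable_prodMk_left)).symm
    simp only [h2]
    rw [lintegral_lintegral_swap]
    · apply lintegral_congr
      intro w
      have h3 : ∀ b : V, ENNReal.ofReal (‖b‖ ^ finrank ℝ U) * (H (nuMap w) * ENNReal.ofReal (Real.exp (-(‖b‖ ^ 2 * (1 + ‖w‖ ^ 2)) / 2))) =
        H (nuMap w) * (ENNReal.ofReal (‖b‖ ^ finrank ℝ U) * ENNReal.ofReal (Real.exp (-(‖b‖ ^ 2 * (1 + ‖w‖ ^ 2)) / 2))) := by
        intro b; ring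
      simp only [h3]
      rw [lintegral_const_mul _ (by fun_prop), core_inner_b]
    · apply Measurable.aemeasurable
      apply Measurable.mul
      · fun_prop
      · exact hjoint
  rw [h1]
  have h4 : ∀ w : U, H (nuMap w) * (ENNReal.ofReal (gFac w ^ (finrank ℝ U + finrank ℝ V)) * aMom V (finrank ℝ U)) =
      aMom V (finrank ℝ U) * (ENNReal.ofReal (gFac w ^ (finrank ℝ U + finrank ℝ V)) * H (nuMap w)) := by
    intro w; ring
  simp only [h4]
  rw [lintegral_const_mul _ (by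
    apply Measurable.mul
    · apply Measurable.ennreal_ofReal
      exact measurable_gFac.pow_const _
    · exact hH.comp measurable_nuMap)]
  refine mul_le_mul_right ?_ _
  calc ∫⁻ w : U, ENNReal.ofReal (gFac w ^ (finrank ℝ U + finrank ℝ V)) * H (nuMap w)
      ≤ ∫⁻ w : U, ENNReal.ofReal (gFac w ^ (finrank ℝ U + 2)) * H (nuMap w) := by
        apply lintegral_mono
        intro w
        simp only
        gcongr ?_ * _
        apply ENNReal.ofReal_le_ofReal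
        exact pow_le_pow_of_le_one (gFac_pos w).le (gFac_le_one w) (by omega)
    _ ≤ ∫⁻ u : U, H u := lintegral_nuMap_le H hH

end Core

section SphereFormula

lemma toSphere_univ_ne_zero (d : ℕ) (hd : 0 < d) : (volume : Measure (Vec d)).toSphere univ ≠ 0 := by
  have : Nontrivial (Vec d) := Module.nontrivial_of_finrank_pos (R := ℝ) (by simpa using hd)
  rw [Measure.toSphere_apply_univ]
  simp only [smul_eq_mul, ne_eq, mul_eq_zero, not_or]
  refine ⟨?_, ?_⟩
  · simp; omega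
  · exact (Metric.measure_ball_pos volume (0:Vec d) one_pos).ne'

lemma toSphere_univ_ne_top (d : ℕ) : (volume : Measure (Vec d)).toSphere univ ≠ ⊤ := by
  exact measure_ne_top _ _

instance sphereUnif_prob (d : ℕ) [Fact (0 < d)] : IsProbabilityMeasure (sphereUnif d) := by
  constructor
  have hd : 0 < d := Fact.out
  rw [sphereUnif, Measure.smul_apply, smul_eq_mul, ENNReal.inv_mul_cancel (toSphere_univ_ne_zero d hd) (toSphere_univ_ne_top d)]

/-- the integral over the uniform sphere measure in terms of a Gaussian integral -/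
lemma lintegral_sphereUnif (d : ℕ) (hd : 0 < d) (F : Vec d → ℝ≥0∞) (hF : Measurable F) :
    ∫⁻ ω : Metric.sphere (0 : Vec d) 1, F ω ∂(sphereUnif d) =
      ENNReal.ofReal ((2 * Real.pi) ^ (-(d : ℝ) / 2)) *
        ∫⁻ x : Vec d, F (‖x‖⁻¹ • x) * ENNReal.ofReal (Real.exp (-‖x‖ ^ 2 / 2)) := by
  have : Nontrivial (Vec d) := Module.nontrivial_of_finrank_pos (R := ℝ) (by simpa using hd)
  set μS := (volume : Measure (Vec d)).toSphere with hμS
  set ν := Measure.volumeIoiPow (finrank ℝ (Vec d) - 1) with hν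
  set I := ∫⁻ r : Ioi (0 : ℝ), ENNReal.ofReal (Real.exp (-(r:ℝ) ^ 2 / 2)) ∂ν with hI
  have key : ∀ G : Vec d → ℝ≥0∞, Measurable G →
      ∫⁻ x : Vec d, G (‖x‖⁻¹ • x) * ENNReal.ofReal (Real.exp (-‖x‖ ^ 2 / 2)) =
        (∫⁻ ω : Metric.sphere (0 : Vec d) 1, G ω ∂μS) * I := by
    intro G hG
    rw [lintegral_polar]
    have h1 : ∀ p : Metric.sphere (0 : Vec d) 1 × Ioi (0 : ℝ),
        G (‖(p.2:ℝ) • (p.1 : Vec d)‖⁻¹ • ((p.2:ℝ) • (p.1 : Vec d))) *
          ENNReal.ofReal (Real.exp (-‖(p.2:ℝ) • (p.1 : Vec d)‖ ^ 2 / 2)) =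
        G (p.1 : Vec d) * ENNReal.ofReal (Real.exp (-(p.2:ℝ) ^ 2 / 2)) := by
      rintro ⟨⟨ω, hω⟩, ⟨r, hr⟩⟩
      have hr' : (0:ℝ) < r := hr
      have hω' : ‖ω‖ = 1 := by simpa using hω
      simp only [norm_smul, hω', mul_one, Real.norm_eq_abs, abs_of_pos hr']
      rw [smul_smul, inv_mul_cancel₀ hr'.ne', one_smul]
    simp only [h1]
    have hm1 : Measurable (fun ω : Metric.sphere (0 : Vec d) 1 => G ω) :=
      hG.comp measurable_subtype_coe
    have hm2 : Measurable (fun r : Ioi (0:ℝ) => ENNReal.ofReal (Real.exp (-(r:ℝ) ^ 2 / 2))) := by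
      fun_prop
    exact lintegral_prod_mul hm1.aemeasurable hm2.aemeasurable
  have hfr : finrank ℝ (Vec d) = d := by simp
  have hone : ENNReal.ofReal ((2 * Real.pi) ^ ((d : ℝ) / 2)) = μS univ * I := by
    have := key (fun _ => 1) measurable_const
    simp only [one_mul, lintegral_const] at this
    rw [lintegral_gaussWeight, hfr] at this
    exact this
  rw [key F hF]
  unfold sphereUnif
  rw [lintegral_smul_measure, smul_eq_mul]
  have hinv : ENNReal.ofReal ((2 * Real.pi) ^ (-(d : ℝ) / 2)) * ENNReal.ofReal ((2 * Real.pi) ^ ((d : ℝ) / 2)) = 1 := by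
    rw [← ENNReal.ofReal_mul (by positivity), ← Real.rpow_add (by positivity)]
    simp [neg_div]
  have hS0 := toSphere_univ_ne_zero d hd
  have hST := toSphere_univ_ne_top d
  have h3 : ENNReal.ofReal ((2 * Real.pi) ^ (-(d : ℝ) / 2)) * I = (μS univ)⁻¹ := by
    apply ENNReal.eq_inv_of_mul_eq_one_left
    rw [mul_assoc, mul_comm I, ← hone, hinv]
  rw [mul_comm _ I, ← mul_assoc, h3]


end SphereFormula

end Vale.Agent.Lib.P309
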