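import Mathlib
import Vale.Agent.Lib.P309.Sphere0

open MeasureTheory ProbabilityTheory Set Module
open scoped ENNReal
set_option linter.unusedSectionVars false
set_option linter.unusedVariables false
set_option linter.unusedSimpArgs false
set_option linter.style.haveILetI false

namespace Vale.Agent.Lib.P309

/-- coordinates with respect to a family of vectors -/
noncomputable def coordsE {d n : ℕ} (e : Fin n → Vec d) (x : Vec d) : Vec n :=
  WithLp.toLp 2 (fun i => inner ℝ (e i) x)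

lemma measurable_coordsE {d n : ℕ} (e : Fin n → Vec d) : Measurable (coordsE e) := by
  have : Continuous (coordsE e) := by
    unfold coordsE
    apply (PiLp.continuous_toLp 2 _).comp
    apply continuous_pi
    intro i
    fun_prop
  exact this.measurable

lemma coordsE_smul {d n : ℕ} (e : Fin n → Vec d) (r : ℝ) (x : Vec d) :
    coordsE e (r • x) = r • coordsE e x := by
  unfold coordsE
  ext i
  simp [inner_smul_right]

lemma exists_split {d n m : ℕ} (hd : d = n + m) (e : Fin n → Vec d) (he : Orthonormal ℝ e) :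
    ∃ W : Vec d ≃ₗᵢ[ℝ] WithLp 2 (Vec n × Vec m), ∀ x, (W x).fst = coordsE e x := by
  have hcard : finrank ℝ (Vec d) = Fintype.card (Fin n ⊕ Fin m) := by
    simp [hd]
  have hv : Orthonormal ℝ ((Set.range (Sum.inl : Fin n → Fin n ⊕ Fin m)).domRestrict
      (Sum.elim e (fun _ => 0))) := by
    rw [orthonormal_iff_ite]
    rintro ⟨_, a, rfl⟩ ⟨_, b, rfl⟩
    have := (orthonormal_iff_ite.mp he) a b
    simpa [Subtype.ext_iff] using this
  obtain ⟨b, hb⟩ := hv.exists_orthonormalBasis_extension_of_card_eq hcard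
  refine ⟨b.repr.trans (PiLp.sumPiLpEquivProdLpPiLp 2 (fun _ => ℝ)), ?_⟩
  intro x
  ext i
  have h1 : b (Sum.inl i) = e i := by
    simpa using hb (Sum.inl i) ⟨i, rfl⟩
  show (b.repr x) (Sum.inl i) = inner ℝ (e i) x
  rw [b.repr_apply_apply, h1]

lemma aMom_eq {m : ℕ} [Nontrivial (Vec m)] (n : ℕ) :
    aMom (Vec m) n = ENNReal.ofReal ((2 * Real.pi) ^ ((m : ℝ) / 2)) * gMom (Vec m) n := by
  unfold gMom aMom
  have hm : Measurable (fun x : Vec m => ENNReal.ofReal (gDens (Vec m) x)) := by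
    unfold gDens; fun_prop
  rw [stdGaussian_eq_withDensity, lintegral_withDensity_eq_lintegral_mul _ hm (by fun_prop)]
  rw [← lintegral_const_mul _ (by
    apply Measurable.mul
    · exact hm
    · fun_prop)]
  apply lintegral_congr
  intro x
  simp only [Pi.mul_apply, gDens]
  rw [finrank_euclideanSpace_fin]
  rw [← ENNReal.ofReal_mul (by positivity), ← ENNReal.ofReal_mul (by positivity)]
  congr 1
  rw [Real.rpow_natCast]
  have : (2 * Real.pi) ^ ((m : ℝ) / 2) * (2 * Real.pi) ^ (-(m : ℝ) / 2) = 1 := by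
    rw [← Real.rpow_add (by positivity)]
    simp [neg_div]
  calc ‖x‖ ^ n * Real.exp (-‖x‖ ^ 2 / 2) = ((2 * Real.pi) ^ ((m : ℝ) / 2) * (2 * Real.pi) ^ (-(m : ℝ) / 2)) * (Real.exp (-‖x‖ ^ 2 / 2) * ‖x‖ ^ n) := by
        rw [this]; ring
    _ = _ := by ring

/-- the projection of the uniform sphere measure has bounded density -/
theorem sphere_proj_le {d n m : ℕ} (hd : d = n + m) (hm : 2 ≤ m) (e : Fin n → Vec d)
    (he : Orthonormal ℝ e) (H : Vec n → ℝ≥0∞) (hH : Measurable H) :
    ∫⁻ ω : Metric.sphere (0 : Vec d) 1, H (coordsE e ω) ∂(sphereUnif d) ≤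
      ENNReal.ofReal ((2 * Real.pi) ^ (-(n : ℝ) / 2)) * gMom (Vec m) n * ∫⁻ u : Vec n, H u := by
  have hd0 : 0 < d := by omega
  have hVm : Nontrivial (Vec m) := Module.nontrivial_of_finrank_pos (R := ℝ) (by simp; omega)
  rw [lintegral_sphereUnif d hd0 (fun x => H (coordsE e x)) (hH.comp (measurable_coordsE e))]
  obtain ⟨W, hW⟩ := exists_split (m := m) hd e he
  have hφ : MeasurePreserving (fun x : Vec d => WithLp.ofLp (W x)) volume volume :=
    (WithLp.volume_preserving_ofLp (Vec n) (Vec m)).comp W.measurePreserving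
  have h1 : ∀ x : Vec d, H (coordsE e (‖x‖⁻¹ • x)) * ENNReal.ofReal (Real.exp (-‖x‖ ^ 2 / 2)) =
      (fun p : Vec n × Vec m => H ((√(‖p.1‖ ^ 2 + ‖p.2‖ ^ 2))⁻¹ • p.1) *
      ENNReal.ofReal (Real.exp (-(‖p.1‖ ^ 2 + ‖p.2‖ ^ 2) / 2))) (WithLp.ofLp (W x)) := by
    intro x
    have h2 : ‖x‖ ^ 2 = ‖(W x).fst‖ ^ 2 + ‖(W x).snd‖ ^ 2 := by
      rw [← WithLp.prod_norm_sq_eq_of_L2, W.norm_map]
    simp only [WithLp.ofLp_fst, WithLp.ofLp_snd]
    rw [coordsE_smul, ← hW x, ← h2, Real.sqrt_sq (norm_nonneg x)]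
  simp only [h1]
  rw [hφ.lintegral_comp (measurable_coreF H hH)]
  have h3 := core_le (U := Vec n) (V := Vec m) (by simpa using hm) H hH
  rw [finrank_euclideanSpace_fin] at h3
  rw [aMom_eq] at h3
  calc _ ≤ ENNReal.ofReal ((2 * Real.pi) ^ (-(d : ℝ) / 2)) *
        (ENNReal.ofReal ((2 * Real.pi) ^ ((m : ℝ) / 2)) * gMom (Vec m) n * ∫⁻ u : Vec n, H u) := by
        gcongr
    _ = _ := by
        rw [← mul_assoc, ← mul_assoc, ← ENNReal.ofReal_mul (by positivity), ← Real.rpow_add (by positivity)]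
        congr 4
        rw [hd]
        push_cast
        ring


lemma coordsE_norm_sq_le {d n : ℕ} (e : Fin n → Vec d) (he : Orthonormal ℝ e) (x : Vec d) :
    ‖coordsE e x‖ ^ 2 ≤ ‖x‖ ^ 2 := by
  have h := he.sum_inner_products_le (s := Finset.univ) (x := x)
  rw [EuclideanSpace.real_norm_sq_eq]
  simpa [coordsE, real_inner_comm] using h

lemma coordsE_norm_le {d n : ℕ} (e : Fin n → Vec d) (he : Orthonormal ℝ e) (x : Vec d) :
    ‖coordsE e x‖ ≤ ‖x‖ :=
  (sq_le_sq₀ (norm_nonneg _) (norm_nonneg _)).mp (coordsE_norm_sq_le e he x)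

lemma coordsE_sub {d n : ℕ} (e : Fin n → Vec d) (x y : Vec d) :
    coordsE e (x - y) = coordsE e x - coordsE e y := by
  unfold coordsE
  ext i
  simp [inner_sub_right]

/-- the standard orthonormal family of the first `n` coordinates -/
noncomputable def stdFam {d n : ℕ} (h : n ≤ d) : Fin n → Vec d :=
  fun i => EuclideanSpace.single (Fin.castLE h i) 1

lemma stdFam_orthonormal {d n : ℕ} (h : n ≤ d) : Orthonormal ℝ (stdFam h) := by
  rw [orthonormal_iff_ite]
  intro i j
  simp [stdFam, EuclideanSpace.inner_single_left, PiLp.single_apply, Fin.ext_iff]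

/-- the measure of a spherical cap -/
theorem cap_le {d w : ℕ} (hw0 : 0 < w) (hw : 2 * w + 2 ≤ d) (c : Vec d) (ε : ℝ) (hε : 0 < ε) :
    sphereUnif d {ω | ‖(ω : Vec d) - c‖ ≤ ε} ≤
      ENNReal.ofReal (((d : ℝ) * ε ^ 2 / 2) ^ w / (w.factorial : ℝ)) := by
  have hn : 2 * w ≤ d := by omega
  obtain ⟨m, hm⟩ : ∃ m, d = 2 * w + m := ⟨d - 2 * w, by omega⟩
  have hm2 : 2 ≤ m := by omega
  have hVm : Nontrivial (Vec m) := Module.nontrivial_of_finrank_pos (R := ℝ) (by simp; omega)
  set e := stdFam hn with he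
  have heo := stdFam_orthonormal hn
  set H : Vec (2 * w) → ℝ≥0∞ := (Metric.closedBall (coordsE e c) ε).indicator 1 with hH
  have hHm : Measurable H := measurable_one.indicator Metric.isClosed_closedBall.measurableSet
  have h0 : sphereUnif d {ω | ‖(ω : Vec d) - c‖ ≤ ε} ≤
      ∫⁻ ω : Metric.sphere (0 : Vec d) 1, H (coordsE e ω) ∂(sphereUnif d) := by
    rw [← lintegral_indicator_one (by
      apply measurableSet_le
      · fun_prop
      · fun_prop)]
    apply lintegral_mono
    intro ω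
    by_cases hω : ‖(ω : Vec d) - c‖ ≤ ε
    · have h1 : coordsE e ω ∈ Metric.closedBall (coordsE e c) ε := by
        rw [Metric.mem_closedBall, dist_eq_norm, ← coordsE_sub]
        exact (coordsE_norm_le e heo _).trans hω
      simp [hH, h1, hω]
    · simp [hω]
  refine h0.trans ((sphere_proj_le hm hm2 e heo H hHm).trans ?_)
  have h1 : ∫⁻ u : Vec (2 * w), H u = ENNReal.ofReal (ε ^ (2 * w) * (Real.pi ^ w / (w.factorial : ℝ))) := by
    haveI : Nonempty (Fin (2 * w)) := ⟨⟨0, by omega⟩⟩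
    rw [hH, lintegral_indicator_one Metric.isClosed_closedBall.measurableSet, EuclideanSpace.volume_closedBall]
    simp only [Fintype.card_fin]
    rw [← ENNReal.ofReal_pow hε.le, ← ENNReal.ofReal_mul (by positivity)]
    congr 2
    congr 1
    · rw [pow_mul, Real.sq_sqrt Real.pi_pos.le]
    · push_cast
      have : (2 * (w:ℝ)) / 2 + 1 = (w:ℝ) + 1 := by ring
      rw [this, Real.Gamma_nat_eq_factorial]
  rw [h1]
  have h2 : gMom (Vec m) ((2 * w : ℕ) : ℝ) ≤ ENNReal.ofReal ((d : ℝ) ^ w) := by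
    have := gMom_pos_le (F := Vec m) w
    rw [finrank_euclideanSpace_fin] at this
    push_cast
    refine this.trans (le_of_eq ?_)
    congr 2
    rw [hm]
    push_cast
    ring
  calc _ ≤ ENNReal.ofReal ((2 * Real.pi) ^ (-((2 * w : ℕ) : ℝ) / 2)) * ENNReal.ofReal ((d : ℝ) ^ w) *
        ENNReal.ofReal (ε ^ (2 * w) * (Real.pi ^ w / (w.factorial : ℝ))) := by gcongr
    _ = _ := by
      rw [← ENNReal.ofReal_mul (by positivity), ← ENNReal.ofReal_mul (by positivity)]
      congr 1
      have h3 : -((2 * w : ℕ) : ℝ) / 2 = -(w : ℝ) := by push_cast; ring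
      rw [h3, Real.rpow_neg (by positivity), Real.rpow_natCast, pow_mul, div_pow, mul_pow]
      have : (2:ℝ) ^ w ≠ 0 := by positivity
      have h5 : Real.pi ^ w ≠ 0 := by positivity
      have h6 : (w.factorial : ℝ) ≠ 0 := by positivity
      field_simp
      ring


end Vale.Agent.Lib.P309
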