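import Mathlib
import Vale.Agent.Lib.P309.Sphere

open MeasureTheory ProbabilityTheory Set Module
open scoped ENNReal
set_option linter.unusedSectionVars false
set_option linter.unusedVariables false
set_option linter.unusedSimpArgs false
set_option linter.unusedTactic false

namespace Vale.Agent.Lib.P309

lemma map_coordsE_stdGaussian {d n : ℕ} (e : Fin n → Vec d) (he : Orthonormal ℝ e) :
    (stdGaussian (Vec d)).map (coordsE e) = stdGaussian (Vec n) := by
  have hm := measurable_coordsE e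
  have : IsProbabilityMeasure ((stdGaussian (Vec d)).map (coordsE e)) :=
    Measure.isProbabilityMeasure_map hm.aemeasurable
  apply Measure.ext_of_charFun
  ext t
  rw [charFun_stdGaussian, charFun_apply, integral_map hm.aemeasurable (by
    apply Measurable.aestronglyMeasurable
    fun_prop)]
  set a : Vec d := ∑ i, t i • e i with ha
  have h1 : ∀ x : Vec d, inner ℝ (coordsE e x) t = inner ℝ x a := by
    intro x
    rw [ha, inner_sum]
    simp only [inner_smul_right]
    rw [PiLp.inner_apply]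
    apply Finset.sum_congr rfl
    intro i _
    simp only [coordsE, RCLike.inner_apply, conj_trivial]
    rw [real_inner_comm x (e i)]
  simp only [h1]
  rw [← charFun_apply, charFun_stdGaussian]
  have h2 : ‖a‖ ^ 2 = ‖t‖ ^ 2 := by
    rw [← real_inner_self_eq_norm_sq, ha, he.inner_sum, EuclideanSpace.real_norm_sq_eq]
    simp [sq]
  have h3 : ((‖a‖ : ℂ)) ^ 2 = ((‖t‖ : ℂ)) ^ 2 := by exact_mod_cast h2
  rw [h3]

lemma exists_orth_fam {d a : ℕ} (U : Submodule ℝ (Vec d)) (hU : finrank ℝ U ≤ a) (ha : a ≤ d) :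
    ∃ b : Fin (d - a) → Vec d, Orthonormal ℝ b ∧ ∀ l, b l ∈ Uᗮ := by
  have h1 := Submodule.finrank_add_finrank_orthogonal U
  rw [finrank_euclideanSpace_fin] at h1
  have h2 : d - a ≤ finrank ℝ Uᗮ := by omega
  let B := stdOrthonormalBasis ℝ Uᗮ
  refine ⟨fun l => (B (Fin.castLE h2 l) : Vec d), ?_, fun l => (B _).2⟩
  have h3 : Orthonormal ℝ (fun l : Fin (d - a) => B (Fin.castLE h2 l)) :=
    B.orthonormal.comp _ (Fin.castLE_injective h2)
  exact h3.comp_linearIsometry Uᗮ.subtypeₗᵢ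

/-- the moment bound for the ratio of a row to its residual -/
lemma ratio_moment {d a k : ℕ} (ha : a ≤ d) (hk : 4 * k < d - a)
    (U : Submodule ℝ (Vec d)) (hU : finrank ℝ U ≤ a) (r : Vec d → Vec d)
    (hr : Measurable r) (hrU : ∀ z, r z - z ∈ U) :
    ∫⁻ z, (if r z = 0 then ⊤ else ENNReal.ofReal (‖z‖ / ‖r z‖)) ^ (2 * k) ∂(stdGaussian (Vec d)) ≤
      ENNReal.ofReal (((d : ℝ) + 4 * k) ^ k * ((((d - a : ℕ) : ℝ) - 4 * k)⁻¹) ^ k) := by
  obtain ⟨b, hb, hbU⟩ := exists_orth_fam U hU ha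
  set P := coordsE b with hP
  have hPm : Measurable P := measurable_coordsE b
  have hmap := map_coordsE_stdGaussian b hb
  have hm' : 0 < d - a := by omega
  have hV : Nontrivial (Vec (d - a)) := Module.nontrivial_of_finrank_pos (R := ℝ) (by simpa using hm')
  have hd : 0 < d := by omega
  have hE : Nontrivial (Vec d) := Module.nontrivial_of_finrank_pos (R := ℝ) (by simpa using hd)
  -- the residual dominates the projection
  have hle : ∀ z, ‖P z‖ ≤ ‖r z‖ := by
    intro z
    have h1 : P z = coordsE b (r z) := by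
      rw [hP]
      unfold coordsE
      congr 1
      ext l
      have h2 : inner ℝ (b l) (r z - z) = 0 := by
        have := hbU l
        rw [Submodule.mem_orthogonal'] at this
        exact this _ (hrU z)
      rw [inner_sub_right] at h2
      linarith
    rw [h1]
    exact coordsE_norm_le b hb _
  -- almost surely nonzero
  have hae0 : ∀ᵐ z ∂(stdGaussian (Vec d)), P z ≠ 0 := by
    have h1 : ∀ᵐ y ∂(stdGaussian (Vec (d - a))), y ≠ 0 := by
      rw [stdGaussian_eq_withDensity]
      rw [ae_withDensity_iff (by unfold gDens; fun_prop)]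
      have : ∀ᵐ y ∂(volume : Measure (Vec (d - a))), y ≠ 0 := by
        rw [ae_iff]; simp
      filter_upwards [this] with y hy _ using hy
    rw [← hmap] at h1
    exact ae_of_ae_map hPm.aemeasurable h1
  set f : Vec d → ℝ≥0∞ := fun z => ENNReal.ofReal (‖z‖ ^ (2 * k)) with hf
  set g : Vec d → ℝ≥0∞ := fun z => ENNReal.ofReal ((‖P z‖⁻¹) ^ (2 * k)) with hg
  have hfm : Measurable f := by fun_prop
  have hgm : Measurable g := by
    apply Measurable.ennreal_ofReal
    exact (hPm.norm.inv).pow_const _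
  have hbound : ∫⁻ z, (if r z = 0 then ⊤ else ENNReal.ofReal (‖z‖ / ‖r z‖)) ^ (2 * k) ∂(stdGaussian (Vec d))
      ≤ ∫⁻ z, (f * g) z ∂(stdGaussian (Vec d)) := by
    apply lintegral_mono_ae
    filter_upwards [hae0] with z hz
    have hrz : r z ≠ 0 := by
      intro h0
      have := hle z
      rw [h0, norm_zero] at this
      exact hz (norm_le_zero_iff.mp this)
    simp only [hrz, if_false, Pi.mul_apply, hf, hg]
    rw [← ENNReal.ofReal_pow (by positivity), ← ENNReal.ofReal_mul (by positivity)]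
    apply ENNReal.ofReal_le_ofReal
    rw [← mul_pow]
    apply pow_le_pow_left₀ (by positivity)
    rw [div_eq_mul_inv]
    have hP0 : 0 < ‖P z‖ := norm_pos_iff.mpr hz
    gcongr
    exact hle z
  refine hbound.trans ?_
  have hH := ENNReal.lintegral_mul_le_Lp_mul_Lq (stdGaussian (Vec d))
    (Real.HolderConjugate.two_two) hfm.aemeasurable hgm.aemeasurable
  refine hH.trans ?_
  have hF : ∫⁻ z, f z ^ (2:ℝ) ∂(stdGaussian (Vec d)) ≤ ENNReal.ofReal ((((d : ℝ) + 4 * k) ^ k) ^ 2) := by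
    have h1 := gMom_pos_le (F := Vec d) (2 * k)
    rw [finrank_euclideanSpace_fin] at h1
    unfold gMom at h1
    have h2 : ∀ z : Vec d, f z ^ (2:ℝ) = ENNReal.ofReal (‖z‖ ^ (2 * ((2 * k : ℕ) : ℝ))) := by
      intro z
      simp only [hf]
      rw [ENNReal.rpow_two, ← ENNReal.ofReal_pow (by positivity)]
      congr 1
      have e1 : (2 * ((2 * k : ℕ) : ℝ)) = ((2 * k * 2 : ℕ) : ℝ) := by push_cast; ring
      rw [e1, Real.rpow_natCast, ← pow_mul]
    simp only [h2]
    refine h1.trans (ENNReal.ofReal_le_ofReal (le_of_eq ?_))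
    rw [← pow_mul]
    congr 1
    · push_cast; ring
    · ring
  have hG : ∫⁻ z, g z ^ (2:ℝ) ∂(stdGaussian (Vec d)) ≤
      ENNReal.ofReal ((((((d - a : ℕ) : ℝ) - 4 * k)⁻¹) ^ k) ^ 2) := by
    have hk' : 2 * (((2 * k : ℕ) : ℝ)) < (finrank ℝ (Vec (d - a)) : ℝ) := by
      rw [finrank_euclideanSpace_fin]
      have : 2 * (2 * k) < d - a := by omega
      exact_mod_cast this
    have h1 := gMom_neg_le (F := Vec (d - a)) (2 * k) hk'
    rw [finrank_euclideanSpace_fin] at h1
    unfold gMom at h1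
    rw [← hmap, lintegral_map (by fun_prop) hPm] at h1
    have h2 : ∀ z : Vec d, g z ^ (2:ℝ) = ENNReal.ofReal (‖P z‖ ^ (-(2 * ((2 * k : ℕ) : ℝ)))) := by
      intro z
      simp only [hg]
      rw [ENNReal.rpow_two, ← ENNReal.ofReal_pow (by positivity)]
      congr 1
      have e1 : (2 * ((2 * k : ℕ) : ℝ)) = ((2 * k * 2 : ℕ) : ℝ) := by push_cast; ring
      rw [e1, Real.rpow_neg (norm_nonneg _), Real.rpow_natCast, ← pow_mul, inv_pow]
    simp only [h2]
    refine h1.trans (ENNReal.ofReal_le_ofReal (le_of_eq ?_))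
    rw [← pow_mul]
    congr 1
    · congr 1
      push_cast; ring
    · ring
  have hX : (0:ℝ) ≤ ((d : ℝ) + 4 * k) ^ k := by positivity
  have hmpos : (0:ℝ) < ((d - a : ℕ) : ℝ) - 4 * k := by
    have : 4 * k < d - a := hk
    have h' : ((4 * k : ℕ) : ℝ) < ((d - a : ℕ) : ℝ) := by exact_mod_cast this
    push_cast at h'
    push_cast
    linarith
  have hY : (0:ℝ) ≤ ((((d - a : ℕ) : ℝ) - 4 * k)⁻¹) ^ k := by positivity
  have hroot : ∀ X : ℝ, 0 ≤ X → (ENNReal.ofReal (X ^ 2)) ^ (1 / (2:ℝ)) = ENNReal.ofReal X := by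
    intro X hX
    rw [ENNReal.ofReal_rpow_of_nonneg (by positivity) (by norm_num), ← Real.sqrt_eq_rpow, Real.sqrt_sq hX]
  calc _ ≤ (ENNReal.ofReal ((((d : ℝ) + 4 * k) ^ k) ^ 2)) ^ (1 / (2:ℝ)) *
        (ENNReal.ofReal ((((((d - a : ℕ) : ℝ) - 4 * k)⁻¹) ^ k) ^ 2)) ^ (1 / (2:ℝ)) := by
        gcongr
    _ = _ := by
        rw [hroot _ hX, hroot _ hY, ← ENNReal.ofReal_mul hX]


end Vale.Agent.Lib.P309
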