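import Mathlib
import Vale.Agent.Lib.P309.Ratio

open MeasureTheory ProbabilityTheory Set Module InnerProductSpace
open scoped ENNReal
set_option linter.unusedSectionVars false
set_option linter.unusedVariables false
set_option linter.unusedSimpArgs false

namespace Vale.Agent.Lib.P309

section GS
variable {d : ℕ}

/-- Gram-Schmidt residual of an `ℕ`-indexed sequence of rows -/
noncomputable abbrev gs (x : ℕ → Vec d) (j : ℕ) : Vec d := gramSchmidt ℝ x j

lemma gs_congr (x y : ℕ → Vec d) (j : ℕ) (h : ∀ i ≤ j, x i = y i) : gs x j = gs y j := by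
  induction j using Nat.strong_induction_on with
  | _ j ih =>
    simp only [gs]
    rw [gramSchmidt_def ℝ x j, gramSchmidt_def ℝ y j, h j le_rfl]
    congr 1
    apply Finset.sum_congr rfl
    intro i hi
    have hi' : i < j := Finset.mem_Iio.mp hi
    have := ih i hi' (fun l hl => h l (hl.trans hi'.le))
    simp only [gs] at this
    rw [this]

lemma measurable_gs (j : ℕ) : Measurable (fun x : ℕ → Vec d => gs x j) := by
  induction j using Nat.strong_induction_on with
  | _ j ih =>
    have h : (fun x : ℕ → Vec d => gs x j) = fun x => x j -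
        ∑ i ∈ Finset.Iio j, ((inner ℝ (gs x i) (x j) / ((‖gs x i‖ : ℝ)) ^ 2)) • gs x i := by
      funext x
      have := gramSchmidt_def'' ℝ x j
      rw [eq_sub_iff_add_eq]
      simpa using this.symm
    rw [h]
    apply (measurable_pi_apply j).sub
    apply Finset.measurable_sum
    intro i hi
    have hi' : i < j := Finset.mem_Iio.mp hi
    have h1 := ih i hi'
    refine Measurable.smul (f := fun a : ℕ → Vec d => inner ℝ (gs a i) (a j) / ‖gs a i‖ ^ 2) (g := fun a => gs a i) ?_ h1
    apply Measurable.div
    · exact Measurable.inner h1 (measurable_pi_apply j)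
    · exact (h1.norm).pow_const 2

/-- ratio of a row to its residual; infinite when the residual vanishes -/
noncomputable def gsRatio (x : ℕ → Vec d) (j : ℕ) : ℝ≥0∞ :=
  if gs x j = 0 then ⊤ else ENNReal.ofReal (‖x j‖ / ‖gs x j‖)

lemma measurable_gsRatio (j : ℕ) : Measurable (fun x : ℕ → Vec d => gsRatio x j) := by
  unfold gsRatio
  apply Measurable.ite
  · exact (measurable_gs j) (measurableSet_singleton 0)
  · exact measurable_const
  · apply Measurable.ennreal_ofReal
    exact ((measurable_pi_apply j).norm).div (measurable_gs j).norm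

/-- product of the ratios -/
noncomputable def rho (x : ℕ → Vec d) (n : ℕ) : ℝ≥0∞ := ∏ j ∈ Finset.range n, gsRatio x j

lemma measurable_rho (n : ℕ) : Measurable (fun x : ℕ → Vec d => rho x n) := by
  unfold rho
  exact Finset.measurable_prod _ (fun j _ => measurable_gsRatio j)

lemma gsRatio_congr (x y : ℕ → Vec d) (j : ℕ) (h : ∀ i ≤ j, x i = y i) :
    gsRatio x j = gsRatio y j := by
  unfold gsRatio
  rw [gs_congr x y j h, h j le_rfl]

lemma rho_congr (x y : ℕ → Vec d) (n : ℕ) (h : ∀ i < n, x i = y i) : rho x n = rho y n := by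
  unfold rho
  apply Finset.prod_congr rfl
  intro j hj
  have hj' : j < n := Finset.mem_range.mp hj
  exact gsRatio_congr x y j (fun i hi => h i (lt_of_le_of_lt hi hj'))

lemma rho_succ (x : ℕ → Vec d) (n : ℕ) : rho x (n + 1) = rho x n * gsRatio x n := by
  unfold rho
  rw [Finset.prod_range_succ]

/-- the one-row moment bound -/
lemma gsRatio_update_moment {a k : ℕ} (ha : a ≤ d) (hk : 4 * k < d - a)
    (x0 : ℕ → Vec d) (j : ℕ) (hj : j ≤ a) :
    ∫⁻ z, (gsRatio (Function.update x0 j z) j) ^ (2 * k) ∂(stdGaussian (Vec d)) ≤
      ENNReal.ofReal (((d : ℝ) + 4 * k) ^ k * ((((d - a : ℕ) : ℝ) - 4 * k)⁻¹) ^ k) := by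
  classical
  set U : Submodule ℝ (Vec d) := Submodule.span ℝ (((Finset.Iio j).image (gs x0) : Finset (Vec d)) : Set (Vec d)) with hU
  have hUdim : finrank ℝ U ≤ a := by
    refine (finrank_span_finset_le_card _).trans ?_
    refine Finset.card_image_le.trans ?_
    simpa using hj
  set r : Vec d → Vec d := fun z => gs (Function.update x0 j z) j with hr
  have hrm : Measurable r := (measurable_gs j).comp (measurable_update x0)
  have hrU : ∀ z, r z - z ∈ U := by
    intro z
    have h1 := gramSchmidt_def'' ℝ (Function.update x0 j z) j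
    simp only [Function.update_self, RCLike.ofReal_real_eq_id, id] at h1
    have h2 : r z - z = - ∑ i ∈ Finset.Iio j,
      (inner ℝ (gs (Function.update x0 j z) i) z / (‖gs (Function.update x0 j z) i‖) ^ 2) • gs (Function.update x0 j z) i := by
      apply eq_neg_of_add_eq_zero_left
      rw [sub_add_eq_add_sub, sub_eq_zero]
      simpa [hr, gs] using h1.symm
    rw [h2]
    apply Submodule.neg_mem
    apply Submodule.sum_mem
    intro i hi
    apply Submodule.smul_mem
    have hi' : i < j := Finset.mem_Iio.mp hi
    have h3 : gs (Function.update x0 j z) i = gs x0 i := by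
      apply gs_congr
      intro l hl
      rw [Function.update_of_ne (by omega)]
    rw [h3, hU]
    apply Submodule.subset_span
    simp only [Finset.coe_image, Set.mem_image]
    exact ⟨i, by simpa using hi', rfl⟩
  have h4 := ratio_moment ha hk U hUdim r hrm hrU
  refine le_trans (le_of_eq ?_) h4
  apply lintegral_congr
  intro z
  congr 1
  simp only [gsRatio, hr, Function.update_self]

end GS

section Peel

lemma lintegral_pi_snoc {X : Type*} [MeasurableSpace X] (μ : Measure X) [SigmaFinite μ] (n : ℕ)
    (f : (Fin (n + 1) → X) → ℝ≥0∞) (hf : Measurable f) :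
    ∫⁻ A, f A ∂(Measure.pi fun _ : Fin (n + 1) => μ) =
      ∫⁻ A', ∫⁻ z, f (Fin.snoc A' z) ∂μ ∂(Measure.pi fun _ : Fin n => μ) := by
  have hmp := measurePreserving_piFinSuccAbove (fun _ : Fin (n + 1) => μ) (Fin.last n)
  have h1 := hmp.symm.lintegral_comp hf
  rw [← h1, lintegral_prod_symm (fun a => f ((MeasurableEquiv.piFinSuccAbove (fun _ => X) (Fin.last n)).symm a)) ((hf.comp (MeasurableEquiv.measurable _)).aemeasurable)]
  apply lintegral_congr
  intro A'
  apply lintegral_congr
  intro z
  congr 1
  simp [MeasurableEquiv.piFinSuccAbove, Fin.insertNth_last']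
  rfl

end Peel

section Moment
variable {d : ℕ}

/-- extend a finite list of rows by zero -/
noncomputable def rows {b : ℕ} (A : Fin b → Vec d) : ℕ → Vec d :=
  fun i => if h : i < b then A ⟨i, h⟩ else 0

lemma measurable_rows (b : ℕ) : Measurable (rows (d := d) (b := b)) := by
  apply measurable_pi_iff.mpr
  intro i
  unfold rows
  by_cases h : i < b
  · simp only [h, dif_pos]
    exact measurable_pi_apply _
  · simp only [h, dif_neg, not_false_eq_true]
    exact measurable_const

lemma rows_snoc {b : ℕ} (A : Fin b → Vec d) (z : Vec d) :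
    rows (Fin.snoc A z : Fin (b + 1) → Vec d) = Function.update (rows A) b z := by
  funext i
  unfold rows
  by_cases h : i = b
  · subst h
    simp
    exact Fin.snoc_last (α := fun _ => Vec d) z A
  · rw [Function.update_of_ne h]
    by_cases h2 : i < b
    · have h3 : i < b + 1 := by omega
      simp only [h2, h3, dif_pos]
      have : (⟨i, h3⟩ : Fin (b + 1)) = Fin.castSucc ⟨i, h2⟩ := rfl
      rw [this, Fin.snoc_castSucc]
    · have h3 : ¬ i < b + 1 := by omega
      simp [h2, h3]

/-- place a sequence of rows after the first `a` rows of another -/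
def merge (p : ℕ → Vec d) (a : ℕ) (q : ℕ → Vec d) : ℕ → Vec d :=
  fun i => if i < a then p i else q (i - a)

lemma measurable_merge (p : ℕ → Vec d) (a : ℕ) : Measurable (merge p a) := by
  apply measurable_pi_iff.mpr
  intro i
  unfold merge
  by_cases h : i < a
  · simp only [h, if_true]
    exact measurable_const
  · simp only [h, if_false]
    exact measurable_pi_apply _

lemma merge_update (p q : ℕ → Vec d) (a b : ℕ) (z : Vec d) :
    merge p a (Function.update q b z) = Function.update (merge p a q) (a + b) z := by
  funext i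
  unfold merge
  by_cases h : i = a + b
  · subst h
    simp
  · rw [Function.update_of_ne h]
    by_cases h2 : i < a
    · simp [h2]
    · simp only [h2, if_false]
      rw [Function.update_of_ne (by omega)]

/-- the prefix-conditioned moment bound for `rho` -/
lemma rho_merge_moment {a0 k : ℕ} (ha0 : a0 ≤ d) (hk : 4 * k < d - a0) (p : ℕ → Vec d) (a b : ℕ)
    (hab : a + b ≤ a0) :
    ∫⁻ A : Fin b → Vec d, (rho (merge p a (rows A)) (a + b)) ^ (2 * k)
        ∂(Measure.pi fun _ => stdGaussian (Vec d)) ≤
      (ENNReal.ofReal (((d : ℝ) + 4 * k) ^ k * ((((d - a0 : ℕ) : ℝ) - 4 * k)⁻¹) ^ k)) ^ b *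
        (rho p a) ^ (2 * k) := by
  induction b with
  | zero =>
    rw [Measure.pi_of_empty _ (fun i => i.elim0), lintegral_dirac' _ (by
      apply Measurable.pow_const
      exact (measurable_rho _).comp ((measurable_merge p a).comp (measurable_rows 0)))]
    simp only [pow_zero, one_mul, add_zero]
    rw [rho_congr _ p a]
    intro i hi
    simp [merge, hi]
  | succ b ih =>
    have ih' := ih (by omega)
    set c := ENNReal.ofReal (((d : ℝ) + 4 * k) ^ k * ((((d - a0 : ℕ) : ℝ) - 4 * k)⁻¹) ^ k) with hc
    have hmeas : Measurable (fun A : Fin (b + 1) → Vec d =>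
        (rho (merge p a (rows A)) (a + (b + 1))) ^ (2 * k)) := by
      apply Measurable.pow_const
      exact (measurable_rho _).comp ((measurable_merge p a).comp (measurable_rows _))
    rw [lintegral_pi_snoc _ b _ hmeas]
    have hstep : ∀ A' : Fin b → Vec d,
        ∫⁻ z, (rho (merge p a (rows (Fin.snoc A' z : Fin (b + 1) → Vec d))) (a + (b + 1))) ^ (2 * k)
          ∂(stdGaussian (Vec d)) ≤ c * (rho (merge p a (rows A')) (a + b)) ^ (2 * k) := by
      intro A'
      set X := merge p a (rows A') with hX
      have h1 : ∀ z, rho (merge p a (rows (Fin.snoc A' z : Fin (b + 1) → Vec d))) (a + (b + 1)) =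
          rho X (a + b) * gsRatio (Function.update X (a + b) z) (a + b) := by
        intro z
        rw [rows_snoc, merge_update, ← hX, ← add_assoc, rho_succ]
        congr 1
        apply rho_congr
        intro i hi
        rw [Function.update_of_ne (by omega)]
      simp only [h1, mul_pow]
      have hm : Measurable (fun z => gsRatio (Function.update X (a + b) z) (a + b) ^ (2 * k)) :=
        ((measurable_gsRatio _).comp (measurable_update X)).pow_const _
      rw [lintegral_const_mul _ hm, mul_comm]
      gcongr
      exact gsRatio_update_moment ha0 hk X (a + b) (by omega)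
    calc _ ≤ ∫⁻ A' : Fin b → Vec d, c * (rho (merge p a (rows A')) (a + b)) ^ (2 * k)
          ∂(Measure.pi fun _ => stdGaussian (Vec d)) := lintegral_mono hstep
      _ = c * ∫⁻ A' : Fin b → Vec d, (rho (merge p a (rows A')) (a + b)) ^ (2 * k)
          ∂(Measure.pi fun _ => stdGaussian (Vec d)) := by
          rw [lintegral_const_mul _ (by
            apply Measurable.pow_const
            exact (measurable_rho _).comp ((measurable_merge p a).comp (measurable_rows _)))]
      _ ≤ c * (c ^ b * (rho p a) ^ (2 * k)) := by gcongr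
      _ = _ := by rw [pow_succ]; ring

end Moment


end Vale.Agent.Lib.P309
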