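import Mathlib
import Vale.Agent.Lib.P309.Rows

open MeasureTheory ProbabilityTheory Set Module InnerProductSpace
open scoped ENNReal
set_option linter.unusedSectionVars false
set_option linter.unusedVariables false
set_option linter.unusedSimpArgs false

namespace Vale.Agent.Lib.P309

section L2
variable {d : ℕ}

lemma merge_zero (p q : ℕ → Vec d) : merge p 0 q = q := by
  funext i
  simp [merge]

lemma rho_zero (p : ℕ → Vec d) : rho p 0 = 1 := by
  simp [rho]

/-- moment bound for two independent blocks of rows -/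
lemma rho_double_moment {w k : ℕ} (h : 2 * w ≤ d) (hk : 4 * k < d - 2 * w) :
    ∫⁻ A : Fin w → Vec d, ∫⁻ A' : Fin w → Vec d,
        (rho (merge (rows A) w (rows A')) (2 * w)) ^ (2 * k)
        ∂(Measure.pi fun _ => stdGaussian (Vec d)) ∂(Measure.pi fun _ => stdGaussian (Vec d)) ≤
      (ENNReal.ofReal (((d : ℝ) + 4 * k) ^ k * ((((d - 2 * w : ℕ) : ℝ) - 4 * k)⁻¹) ^ k)) ^ (2 * w) := by
  set c := ENNReal.ofReal (((d : ℝ) + 4 * k) ^ k * ((((d - 2 * w : ℕ) : ℝ) - 4 * k)⁻¹) ^ k) with hc
  have h1 : ∀ A : Fin w → Vec d, ∫⁻ A' : Fin w → Vec d,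
        (rho (merge (rows A) w (rows A')) (2 * w)) ^ (2 * k)
        ∂(Measure.pi fun _ => stdGaussian (Vec d)) ≤ c ^ w * (rho (rows A) w) ^ (2 * k) := by
    intro A
    have := rho_merge_moment h hk (rows A) w w (by omega)
    rw [two_mul]
    exact this
  refine (lintegral_mono h1).trans ?_
  rw [lintegral_const_mul _ (by
    apply Measurable.pow_const
    exact (measurable_rho _).comp (measurable_rows _))]
  have h2 := rho_merge_moment h hk (fun _ => 0) 0 w (by omega)
  simp only [merge_zero, rho_zero, zero_add, one_pow, mul_one] at h2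
  calc c ^ w * ∫⁻ A : Fin w → Vec d, (rho (rows A) w) ^ (2 * k) ∂(Measure.pi fun _ => stdGaussian (Vec d))
      ≤ c ^ w * c ^ w := by gcongr
    _ = _ := by rw [two_mul, pow_add]

lemma inner_gs_self_row (x : ℕ → Vec d) (j : ℕ) :
    inner ℝ (gs x j) (x j) = ‖gs x j‖ ^ 2 := by
  have h := gramSchmidt_def'' ℝ x j
  have h2 : inner ℝ (gs x j) (x j) = inner ℝ (gs x j) (gs x j) +
      inner ℝ (gs x j) (∑ i ∈ Finset.Iio j,
      ((inner ℝ (gs x i) (x j) / ((‖gs x i‖ : ℝ)) ^ 2)) • gs x i) := by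
    rw [← inner_add_right]
    congr 1
  rw [h2, real_inner_self_eq_norm_sq, inner_sum]
  have : ∑ i ∈ Finset.Iio j, inner ℝ (gs x j) (((inner ℝ (gs x i) (x j) / ((‖gs x i‖ : ℝ)) ^ 2)) • gs x i) = 0 := by
    apply Finset.sum_eq_zero
    intro i hi
    rw [inner_smul_right]
    have hi' : i < j := Finset.mem_Iio.mp hi
    have := gramSchmidt_orthogonal ℝ x (a := j) (b := i) (by omega)
    simp only [gs]
    rw [this, mul_zero]
  rw [this, add_zero]

/-- normalized Gram-Schmidt vectors -/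
noncomputable def gsN (x : ℕ → Vec d) (j : ℕ) : Vec d := (‖gs x j‖)⁻¹ • gs x j

lemma gsN_orthonormal (n : ℕ) (x : ℕ → Vec d) (hx : ∀ j < n, gs x j ≠ 0) :
    Orthonormal ℝ (fun j : Fin n => gsN x j) := by
  rw [orthonormal_iff_ite]
  intro i j
  by_cases hij : i = j
  · subst hij
    have h0 : ‖gs x i‖ ≠ 0 := norm_ne_zero_iff.mpr (hx i i.2)
    simp only [gsN, if_true, inner_smul_left, inner_smul_right, real_inner_self_eq_norm_sq, conj_trivial]
    field_simp
  · have h1 : (i : ℕ) ≠ j := fun h => hij (Fin.ext h)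
    simp only [gsN, hij, if_false, inner_smul_left, inner_smul_right]
    have := gramSchmidt_orthogonal ℝ x h1
    simp only [gs]
    rw [this]
    simp

/-- the triangular matrix of the rows in the Gram-Schmidt frame -/
noncomputable def gsL (n : ℕ) (x : ℕ → Vec d) : Matrix (Fin n) (Fin n) ℝ :=
  fun j i => inner ℝ (gsN x i) (x j)

lemma gsL_diag (n : ℕ) (x : ℕ → Vec d) (hx : ∀ j < n, gs x j ≠ 0) (j : Fin n) :
    gsL n x j j = ‖gs x j‖ := by
  have h0 : ‖gs x j‖ ≠ 0 := norm_ne_zero_iff.mpr (hx j j.2)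
  simp only [gsL, gsN, inner_smul_left, inner_gs_self_row, conj_trivial]
  field_simp

lemma gsL_upper (n : ℕ) (x : ℕ → Vec d) {j i : Fin n} (h : j < i) : gsL n x j i = 0 := by
  simp only [gsL, gsN, inner_smul_left]
  have := gramSchmidt_inv_triangular ℝ x (i := j) (j := i) h
  simp only [gs]
  rw [this, mul_zero]

lemma gsL_det (n : ℕ) (x : ℕ → Vec d) (hx : ∀ j < n, gs x j ≠ 0) :
    (gsL n x).det = ∏ j ∈ Finset.range n, ‖gs x j‖ := by
  have h1 : (gsL n x).IsLowerTriangular := by
    intro i j hij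
    exact gsL_upper n x (by simpa using hij)
  rw [Matrix.det_of_isLowerTriangular _ h1]
  simp only [gsL_diag n x hx]
  rw [Fin.prod_univ_eq_prod_range (fun j => ‖gs x j‖) n]

/-- expansion of the inner product with a row in the Gram-Schmidt frame -/
lemma inner_row_expand (n : ℕ) (x : ℕ → Vec d) (hx : ∀ j < n, gs x j ≠ 0) (j : Fin n) (ω : Vec d) :
    inner ℝ (x j) ω = ∑ i : Fin n, gsL n x j i * inner ℝ (gsN x i) ω := by
  set f : ℕ → ℝ := fun i => inner ℝ (gsN x i) (x j) * inner ℝ (gsN x i) ω with hf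
  have h1 : ∑ i : Fin n, gsL n x j i * inner ℝ (gsN x i) ω = ∑ i ∈ Finset.range n, f i :=
    Fin.sum_univ_eq_sum_range f n
  rw [h1]
  have h2 : ∑ i ∈ Finset.range (j + 1), f i = ∑ i ∈ Finset.range n, f i := by
    apply Finset.sum_subset
    · intro i hi
      simp only [Finset.mem_range] at hi ⊢
      have := j.2
      omega
    · intro i hi hi2
      simp only [Finset.mem_range, not_lt] at hi hi2
      simp only [hf, gsN, inner_smul_left]
      have := gramSchmidt_inv_triangular ℝ x (i := j) (j := i) (by omega)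
      simp only [gs]
      rw [this]
      simp
  rw [← h2, Finset.sum_range_succ]
  have h3 := gramSchmidt_def'' ℝ x j
  have h4 : inner ℝ (x j) ω = inner ℝ (gs x j) ω + ∑ i ∈ Finset.Iio (j : ℕ),
      (inner ℝ (gs x i) (x j) / ((‖gs x i‖ : ℝ)) ^ 2) * inner ℝ (gs x i) ω := by
    have : inner ℝ (x j) ω = inner ℝ (gs x j + ∑ i ∈ Finset.Iio (j : ℕ),
      ((inner ℝ (gs x i) (x j) / ((‖gs x i‖ : ℝ)) ^ 2)) • gs x i) ω := by
      congr 1
    rw [this, inner_add_left, sum_inner]
    simp only [real_inner_smul_left]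
  rw [h4, add_comm, Nat.Iio_eq_range]
  congr 1
  · apply Finset.sum_congr rfl
    intro i hi
    have hi' : i < j := Finset.mem_range.mp hi
    have h0 : ‖gs x i‖ ≠ 0 := norm_ne_zero_iff.mpr (hx i (by have := j.2; omega))
    simp only [hf, gsN, real_inner_smul_left]
    field_simp
  · have h0 : ‖gs x j‖ ≠ 0 := norm_ne_zero_iff.mpr (hx j j.2)
    simp only [hf, gsN, real_inner_smul_left, inner_gs_self_row]
    field_simp

/-- density bound for the joint law of the labels of several rows -/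
theorem sphere_rows_le {n m : ℕ} (hd : d = n + m) (hm : 2 ≤ m) (x : ℕ → Vec d)
    (hx : ∀ j < n, gs x j ≠ 0) (H : (Fin n → ℝ) → ℝ≥0∞) (hH : Measurable H) :
    ∫⁻ ω : Metric.sphere (0 : Vec d) 1, H (fun j => inner ℝ (x j) (ω : Vec d)) ∂(sphereUnif d) ≤
      ENNReal.ofReal ((2 * Real.pi) ^ (-(n : ℝ) / 2)) * gMom (Vec m) n *
        ((∏ j ∈ Finset.range n, ENNReal.ofReal ‖gs x j‖)⁻¹ * ∫⁻ y, H y) := by
  classical
  set e : Fin n → Vec d := fun j => gsN x j with he
  have heo : Orthonormal ℝ e := gsN_orthonormal n x hx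
  set L := gsL n x with hL
  have hdet : L.det = ∏ j ∈ Finset.range n, ‖gs x j‖ := gsL_det n x hx
  have hdetpos : 0 < L.det := by
    rw [hdet]
    apply Finset.prod_pos
    intro j hj
    exact norm_pos_iff.mpr (hx j (Finset.mem_range.mp hj))
  set H' : Vec n → ℝ≥0∞ := fun u => H (L.mulVec (WithLp.ofLp u)) with hH'
  have hLc : Continuous (fun v : Fin n → ℝ => L.mulVec v) := by fun_prop
  have hH'm : Measurable H' := by
    apply hH.comp
    exact hLc.measurable.comp (by fun_prop)
  have h1 : ∀ ω : Metric.sphere (0 : Vec d) 1, H (fun j => inner ℝ (x j) (ω : Vec d)) = H' (coordsE e ω) := by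
    intro ω
    simp only [hH', coordsE]
    congr 1
    funext j
    rw [inner_row_expand n x hx j]
    simp only [Matrix.mulVec, dotProduct]
    rfl
  simp only [h1]
  refine (sphere_proj_le hd hm e heo H' hH'm).trans ?_
  gcongr
  have h2 : ∫⁻ u : Vec n, H' u = ∫⁻ v : Fin n → ℝ, H (L.mulVec v) := by
    have := (PiLp.volume_preserving_ofLp (Fin n)).lintegral_comp (hH.comp hLc.measurable)
    simpa using this
  rw [h2]
  have h3 : ∫⁻ v : Fin n → ℝ, H (L.mulVec v) = ∫⁻ y, H y ∂(Measure.map (Matrix.toLin' L) volume) := by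
    rw [lintegral_map hH (by
      have : (⇑(Matrix.toLin' L)) = fun v => L.mulVec v := by
        funext v; simp
      rw [this]
      exact hLc.measurable)]
    simp
  rw [h3, Real.map_matrix_volume_pi_eq_smul_volume_pi hdetpos.ne', lintegral_smul_measure]
  apply le_of_eq
  rw [smul_eq_mul]
  congr 1
  rw [abs_of_pos (inv_pos.mpr hdetpos), ENNReal.ofReal_inv_of_pos hdetpos, hdet,
    ENNReal.ofReal_prod_of_nonneg (fun j _ => norm_nonneg _)]

end L2


end Vale.Agent.Lib.P309
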