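import Mathlib
import Vale.Agent.Lib.P309.Labels

open MeasureTheory ProbabilityTheory Set Module InnerProductSpace
open scoped ENNReal
set_option linter.unusedSectionVars false
set_option linter.unusedVariables false
set_option linter.unusedSimpArgs false
set_option linter.unnecessarySimpa false

namespace Vale.Agent.Lib.P309

section HalfIntegral

/-- Fubini on a product split of `Fin (w + w) → ℝ`. -/
lemma lintegral_halves (w : ℕ) (h h' : (Fin w → ℝ) → ℝ≥0∞) (hh : Measurable h) (hh' : Measurable h') :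
    ∫⁻ u : Fin (w + w) → ℝ, h (fun j => u (Fin.castAdd w j)) * h' (fun j => u (Fin.natAdd w j)) =
      (∫⁻ y, h y) * ∫⁻ y, h' y := by
  have h1 := measurePreserving_piCongrLeft (fun _ : Fin (w + w) => (volume : Measure ℝ))
    (finSumFinEquiv (m := w) (n := w))
  have h2 : MeasurePreserving (MeasurableEquiv.piCongrLeft (fun _ : Fin (w + w) => ℝ) (finSumFinEquiv (m := w) (n := w))).symm
      (volume : Measure (Fin (w + w) → ℝ)) (volume : Measure (Fin w ⊕ Fin w → ℝ)) := h1.symm
  have h3 := volume_measurePreserving_sumPiEquivProdPi (fun _ : Fin w ⊕ Fin w => ℝ)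
  have h4 := h3.comp h2
  have hG : Measurable (fun p : (Fin w → ℝ) × (Fin w → ℝ) => h p.1 * h' p.2) := by
    apply Measurable.mul
    · exact hh.comp measurable_fst
    · exact hh'.comp measurable_snd
  have h5 := h4.lintegral_comp hG
  rw [← lintegral_prod_mul hh.aemeasurable hh'.aemeasurable, ← Measure.volume_eq_prod, ← h5]
  apply lintegral_congr
  intro u
  rfl

end HalfIntegral

section Rho
variable {d : ℕ}

lemma gs_ne_zero_row (x : ℕ → Vec d) (j : ℕ) (h : gs x j ≠ 0) : x j ≠ 0 := by
  intro h0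
  apply h
  simp only [gs]
  rw [gramSchmidt_def ℝ x j, h0]
  simp

lemma gsRatio_ne_zero (x : ℕ → Vec d) (j : ℕ) : gsRatio x j ≠ 0 := by
  unfold gsRatio
  by_cases h : gs x j = 0
  · simp [h]
  · simp only [h, if_false]
    have h1 := gs_ne_zero_row x j h
    have : 0 < ‖x j‖ / ‖gs x j‖ := div_pos (norm_pos_iff.mpr h1) (norm_pos_iff.mpr h)
    simpa using this

lemma rho_ne_zero (x : ℕ → Vec d) (n : ℕ) : rho x n ≠ 0 := by
  unfold rho
  rw [Finset.prod_ne_zero_iff]
  intro j _
  exact gsRatio_ne_zero x j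

lemma rho_top (x : ℕ → Vec d) (n : ℕ) (h : ∃ j < n, gs x j = 0) : rho x n = ⊤ := by
  induction n with
  | zero => obtain ⟨j, hj, _⟩ := h; omega
  | succ n ih =>
    rw [rho_succ]
    obtain ⟨j, hj, h0⟩ := h
    by_cases hjn : j = n
    · subst hjn
      have : gsRatio x j = ⊤ := by simp [gsRatio, h0]
      rw [this, ENNReal.mul_top (rho_ne_zero x j)]
    · rw [ih ⟨j, by omega, h0⟩, ENNReal.top_mul (gsRatio_ne_zero x n)]

lemma gs_ne_zero_of_rho (x : ℕ → Vec d) (n : ℕ) (h : rho x n ≠ ⊤) : ∀ j < n, gs x j ≠ 0 := by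
  intro j hj h0
  exact h (rho_top x n ⟨j, hj, h0⟩)

lemma rho_eq_div (x : ℕ → Vec d) (n : ℕ) (h : ∀ j < n, gs x j ≠ 0) :
    (∏ j ∈ Finset.range n, ENNReal.ofReal ‖gs x j‖)⁻¹ * ∏ j ∈ Finset.range n, ENNReal.ofReal ‖x j‖ = rho x n := by
  induction n with
  | zero => simp [rho]
  | succ n ih =>
    rw [rho_succ, ← ih (fun j hj => h j (by omega))]
    rw [Finset.prod_range_succ, Finset.prod_range_succ]
    have h0 := h n (by omega)
    have hpos : 0 < ‖gs x n‖ := norm_pos_iff.mpr h0
    have h1 : gsRatio x n = (ENNReal.ofReal ‖gs x n‖)⁻¹ * ENNReal.ofReal ‖x n‖ := by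
      simp only [gsRatio, h0, if_false]
      rw [div_eq_mul_inv, ENNReal.ofReal_mul (norm_nonneg _), ENNReal.ofReal_inv_of_pos hpos, mul_comm]
    rw [h1]
    have hne : ENNReal.ofReal ‖gs x n‖ ≠ 0 := by simpa using hpos
    have hprod0 : (∏ j ∈ Finset.range n, ENNReal.ofReal ‖gs x j‖) ≠ 0 := by
      rw [Finset.prod_ne_zero_iff]
      intro j hj
      have := h j (by have := Finset.mem_range.mp hj; omega)
      simpa using this
    have hprodT : (∏ j ∈ Finset.range n, ENNReal.ofReal ‖gs x j‖) ≠ ⊤ := by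
      apply ENNReal.prod_ne_top
      intro j _
      exact ENNReal.ofReal_ne_top
    rw [ENNReal.mul_inv (Or.inl hprod0) (Or.inl hprodT)]
    ring

end Rho

section Window
variable {d w : ℕ}

/-- product Gaussian measure on a block of `w` rows -/
noncomputable abbrev PP (d w : ℕ) : Measure (Fin w → Vec d) := Measure.pi fun _ => stdGaussian (Vec d)

/-- the exact labels of a block of rows -/
noncomputable def lab (A : Fin w → Vec d) (ω : Vec d) : Fin w → ℝ := fun j => inner ℝ (A j) ω

/-- the box in which labels lie for a unit vector signal -/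
def boxA (A : Fin w → Vec d) : Set (Fin w → ℝ) := Icc (fun j => -‖A j‖) (fun j => ‖A j‖)

lemma lab_mem_box (A : Fin w → Vec d) (ω : Metric.sphere (0 : Vec d) 1) : lab A ω ∈ boxA A := by
  have hω : ‖(ω : Vec d)‖ = 1 := by simpa using ω.2
  constructor
  · intro j
    have := abs_real_inner_le_norm (A j) (ω : Vec d)
    rw [hω, mul_one] at this
    exact (abs_le.mp this).1
  · intro j
    have := abs_real_inner_le_norm (A j) (ω : Vec d)
    rw [hω, mul_one] at this
    exact (abs_le.mp this).2

lemma volume_boxA (A : Fin w → Vec d) : volume (boxA A) = ∏ j, ENNReal.ofReal (2 * ‖A j‖) := by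
  unfold boxA
  rw [Real.volume_Icc_pi]
  apply Finset.prod_congr rfl
  intro j _
  congr 1
  ring

/-- the part of `C` inside the box, as a subset of the product -/
def jointS (C : Set ((Fin w → Vec d) × (Fin w → ℝ))) : Set ((Fin w → Vec d) × (Fin w → ℝ)) :=
  C ∩ {p | p.2 ∈ boxA p.1}

lemma measurableSet_jointS {C : Set ((Fin w → Vec d) × (Fin w → ℝ))} (hC : MeasurableSet C) :
    MeasurableSet (jointS C) := by
  apply hC.inter
  have : {p : (Fin w → Vec d) × (Fin w → ℝ) | p.2 ∈ boxA p.1} =
      ⋂ j, ({p | -‖p.1 j‖ ≤ p.2 j} ∩ {p | p.2 j ≤ ‖p.1 j‖}) := by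
    ext p
    simp only [boxA, Set.mem_ofPred_eq, mem_Icc, Pi.le_def, mem_iInter, mem_inter_iff]
    constructor
    · intro h j; exact ⟨h.1 j, h.2 j⟩
    · intro h; exact ⟨fun j => (h j).1, fun j => (h j).2⟩
  rw [this]
  apply MeasurableSet.iInter
  intro j
  apply MeasurableSet.inter
  · apply measurableSet_le <;> fun_prop
  · apply measurableSet_le <;> fun_prop

/-- the section of the part of `C` inside the box -/
def sectW (C : Set ((Fin w → Vec d) × (Fin w → ℝ))) (A : Fin w → Vec d) : Set (Fin w → ℝ) :=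
  Prod.mk A ⁻¹' jointS C

lemma sectW_subset (C : Set ((Fin w → Vec d) × (Fin w → ℝ))) (A : Fin w → Vec d) :
    sectW C A ⊆ boxA A := fun y hy => hy.2

/-- the normalized volume of the section; universal quantity of the `L2` estimate -/
noncomputable def aW (C : Set ((Fin w → Vec d) × (Fin w → ℝ))) (A : Fin w → Vec d) : ℝ≥0∞ :=
  volume (sectW C A) / volume (boxA A)

noncomputable def qW (C : Set ((Fin w → Vec d) × (Fin w → ℝ))) : ℝ≥0∞ := ∫⁻ A, aW C A ∂(PP d w)

/-- the probability that a block of rows with labels from `ω` lands in `C` -/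
noncomputable def gW (C : Set ((Fin w → Vec d) × (Fin w → ℝ))) (ω : Vec d) : ℝ≥0∞ :=
  PP d w {A | (A, lab A ω) ∈ C}

lemma volume_boxA_ne_top (A : Fin w → Vec d) : volume (boxA A) ≠ ⊤ := by
  rw [volume_boxA]
  apply ENNReal.prod_ne_top
  intro j _
  exact ENNReal.ofReal_ne_top

lemma aW_le_one (C : Set ((Fin w → Vec d) × (Fin w → ℝ))) (A : Fin w → Vec d) : aW C A ≤ 1 := by
  unfold aW
  exact ENNReal.div_le_of_le_mul (by
    rw [one_mul]
    exact measure_mono (sectW_subset C A))

lemma volume_sectW_eq (C : Set ((Fin w → Vec d) × (Fin w → ℝ))) (A : Fin w → Vec d) :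
    volume (sectW C A) = aW C A * volume (boxA A) := by
  unfold aW
  by_cases h : volume (boxA A) = 0
  · rw [h, mul_zero]
    exact measure_mono_null (sectW_subset C A) h
  · rw [ENNReal.div_mul_cancel h (volume_boxA_ne_top A)]

lemma measurable_aW {C : Set ((Fin w → Vec d) × (Fin w → ℝ))} (hC : MeasurableSet C) :
    Measurable (aW C) := by
  unfold aW
  apply Measurable.div
  · exact measurable_measure_prodMk_left (measurableSet_jointS hC)
  · simp only [volume_boxA]
    apply Finset.measurable_prod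
    intro j _
    fun_prop

lemma measurable_lab : Measurable (fun p : (Fin w → Vec d) × Vec d => lab p.1 p.2) := by
  unfold lab
  apply measurable_pi_iff.mpr
  intro j
  fun_prop

lemma measurable_gW {C : Set ((Fin w → Vec d) × (Fin w → ℝ))} (hC : MeasurableSet C) :
    Measurable (gW C) := by
  unfold gW
  have hS : MeasurableSet {p : Vec d × (Fin w → Vec d) | (p.2, lab p.2 p.1) ∈ C} := by
    apply (measurable_snd.prodMk (measurable_lab.comp measurable_swap)) hC
  exact measurable_measure_prodMk_left hS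

/-- on the sphere, the event `C` is the same as the event for the part inside the box -/
lemma gW_eq_lintegral {C : Set ((Fin w → Vec d) × (Fin w → ℝ))} (hC : MeasurableSet C)
    (ω : Metric.sphere (0 : Vec d) 1) :
    gW C ω = ∫⁻ A, (jointS C).indicator (1 : (Fin w → Vec d) × (Fin w → ℝ) → ℝ≥0∞) (A, lab A ω) ∂(PP d w) := by
  unfold gW
  have hS : MeasurableSet {A : Fin w → Vec d | (A, lab A ω) ∈ jointS C} := by
    have h1 : Measurable (fun A : Fin w → Vec d => (A, lab A (ω : Vec d))) :=
      measurable_id.prodMk (measurable_lab.comp (measurable_id.prodMk measurable_const))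
    exact h1 (measurableSet_jointS hC)
  have h2 : {A : Fin w → Vec d | (A, lab A ω) ∈ C} = {A : Fin w → Vec d | (A, lab A ω) ∈ jointS C} := by
    ext A
    simp only [jointS, Set.mem_ofPred_eq, mem_inter_iff, iff_self_and]
    intro _
    exact lab_mem_box A ω
  rw [h2, ← lintegral_indicator_one hS]
  apply lintegral_congr
  intro A
  simp only [indicator, Set.mem_ofPred_eq, Pi.one_apply]

end Window


end Vale.Agent.Lib.P309
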