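import Mathlib
import Vale.Agent.Lib.P309.Window0

open MeasureTheory ProbabilityTheory Set Module InnerProductSpace
open scoped ENNReal
set_option linter.unusedSectionVars false
set_option linter.unusedVariables false
set_option linter.unusedSimpArgs false
set_option linter.unnecessarySimpa false

namespace Vale.Agent.Lib.P309

section Window2
variable {d w : ℕ}

/-- two blocks as one sequence of rows -/
noncomputable def x2 (p : (Fin w → Vec d) × (Fin w → Vec d)) : ℕ → Vec d :=
  merge (rows p.1) w (rows p.2)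

lemma measurable_x2 : Measurable (x2 (d := d) (w := w)) := by
  apply measurable_pi_iff.mpr
  intro i
  unfold x2 merge
  by_cases h : i < w
  · simp only [h, if_true]
    exact (measurable_pi_apply i).comp ((measurable_rows w).comp measurable_fst)
  · simp only [h, if_false]
    exact (measurable_pi_apply (i - w)).comp ((measurable_rows w).comp measurable_snd)

lemma x2_first (p : (Fin w → Vec d) × (Fin w → Vec d)) (j : Fin w) : x2 p j = p.1 j := by
  simp [x2, merge, rows]

lemma x2_second (p : (Fin w → Vec d) × (Fin w → Vec d)) (j : Fin w) : x2 p (w + j) = p.2 j := by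
  simp [x2, merge, rows]

/-- indicator of the part of `C` inside the box -/
noncomputable def indW (C : Set ((Fin w → Vec d) × (Fin w → ℝ))) (A : Fin w → Vec d) (y : Fin w → ℝ) : ℝ≥0∞ :=
  (jointS C).indicator (1 : (Fin w → Vec d) × (Fin w → ℝ) → ℝ≥0∞) (A, y)

lemma measurable_indW {C : Set ((Fin w → Vec d) × (Fin w → ℝ))} (hC : MeasurableSet C) :
    Measurable (fun p : (Fin w → Vec d) × (Fin w → ℝ) => indW C p.1 p.2) :=
  measurable_one.indicator (measurableSet_jointS hC)

lemma lintegral_indW {C : Set ((Fin w → Vec d) × (Fin w → ℝ))} (hC : MeasurableSet C) (A : Fin w → Vec d) :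
    ∫⁻ y, indW C A y = volume (sectW C A) := by
  have hS : MeasurableSet (sectW C A) := measurable_prodMk_left (measurableSet_jointS hC)
  rw [← lintegral_indicator_one hS]
  apply lintegral_congr
  intro y
  by_cases h : (A, y) ∈ jointS C
  · have h' : y ∈ sectW C A := h
    simp [indW, h, h']
  · have h' : y ∉ sectW C A := h
    simp [indW, h, h']

lemma prod_volume_box (p : (Fin w → Vec d) × (Fin w → Vec d)) :
    volume (boxA p.1) * volume (boxA p.2) =
      4 ^ w * ∏ j ∈ Finset.range (w + w), ENNReal.ofReal ‖x2 p j‖ := by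
  rw [volume_boxA, volume_boxA, Finset.prod_range_add]
  have h1 : ∏ j, ENNReal.ofReal (2 * ‖p.1 j‖) = 2 ^ w * ∏ j ∈ Finset.range w, ENNReal.ofReal ‖x2 p j‖ := by
    rw [← Fin.prod_univ_eq_prod_range (fun j => ENNReal.ofReal ‖x2 p j‖) w]
    simp only [x2_first]
    simp only [ENNReal.ofReal_mul (show (0:ℝ) ≤ 2 by norm_num), Finset.prod_mul_distrib]
    simp
  have h2 : ∏ j, ENNReal.ofReal (2 * ‖p.2 j‖) = 2 ^ w * ∏ j ∈ Finset.range w, ENNReal.ofReal ‖x2 p (w + j)‖ := by
    rw [← Fin.prod_univ_eq_prod_range (fun j => ENNReal.ofReal ‖x2 p (w + j)‖) w]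
    simp only [x2_second]
    simp only [ENNReal.ofReal_mul (show (0:ℝ) ≤ 2 by norm_num), Finset.prod_mul_distrib]
    simp
  rw [h1, h2]
  have : (4 : ℝ≥0∞) ^ w = 2 ^ w * 2 ^ w := by
    rw [← mul_pow]; norm_num
  rw [this]
  ring

/-- the constant in front of the density bound -/
noncomputable def kW (m w : ℕ) : ℝ≥0∞ :=
  ENNReal.ofReal ((2 * Real.pi) ^ (-((w + w : ℕ) : ℝ) / 2)) * gMom (Vec m) ((w + w : ℕ) : ℝ)

lemma window_pointwise {m : ℕ} {C : Set ((Fin w → Vec d) × (Fin w → ℝ))} (hC : MeasurableSet C)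
    (hd : d = (w + w) + m) (hm : 2 ≤ m) (p : (Fin w → Vec d) × (Fin w → Vec d))
    (hx : ∀ j < w + w, gs (x2 p) j ≠ 0) :
    ∫⁻ ω : Metric.sphere (0 : Vec d) 1, indW C p.1 (lab p.1 ω) * indW C p.2 (lab p.2 ω) ∂(sphereUnif d) ≤
      kW m w * 4 ^ w * (rho (x2 p) (w + w) * (aW C p.1 * aW C p.2)) := by
  set H : (Fin (w + w) → ℝ) → ℝ≥0∞ := fun u =>
    indW C p.1 (fun j => u (Fin.castAdd w j)) * indW C p.2 (fun j => u (Fin.natAdd w j)) with hH
  have hm1 : ∀ A : Fin w → Vec d, Measurable (fun y => indW C A y) := fun A =>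
    (measurable_indW hC).comp measurable_prodMk_left
  have hHm : Measurable H := by
    apply Measurable.mul
    · exact (hm1 p.1).comp (measurable_pi_iff.mpr fun j => measurable_pi_apply _)
    · exact (hm1 p.2).comp (measurable_pi_iff.mpr fun j => measurable_pi_apply _)
  have h1 : ∀ ω : Metric.sphere (0 : Vec d) 1,
      indW C p.1 (lab p.1 ω) * indW C p.2 (lab p.2 ω) =
        H (fun j => inner ℝ (x2 p j) (ω : Vec d)) := by
    intro ω
    simp only [hH]
    congr 2
    · funext j
      simp [lab, x2_first]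
    · funext j
      simp only [lab, Fin.val_natAdd, x2_second]
  simp only [h1]
  refine (sphere_rows_le hd hm (x2 p) hx H hHm).trans ?_
  have h2 : ∫⁻ y, H y = volume (sectW C p.1) * volume (sectW C p.2) := by
    rw [lintegral_halves w _ _ (hm1 p.1) (hm1 p.2), lintegral_indW hC, lintegral_indW hC]
  rw [h2, volume_sectW_eq C p.1, volume_sectW_eq C p.2]
  have h3 : aW C p.1 * volume (boxA p.1) * (aW C p.2 * volume (boxA p.2)) =
      (aW C p.1 * aW C p.2) * (volume (boxA p.1) * volume (boxA p.2)) := by ring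
  rw [h3, prod_volume_box]
  have h4 := rho_eq_div (x2 p) (w + w) hx
  rw [← h4]
  apply le_of_eq
  unfold kW
  ring

/-- the main estimate for one block of rows -/
theorem window_bound {m k : ℕ} {C : Set ((Fin w → Vec d) × (Fin w → ℝ))} (hC : MeasurableSet C)
    (hd : d = (w + w) + m) (hm : 2 ≤ m) (hk0 : 0 < k) (hk : 4 * k < m) :
    ∫⁻ ω : Metric.sphere (0 : Vec d) 1, (gW C ω) ^ 2 ∂(sphereUnif d) ≤
      kW m w * 4 ^ w *
        ((ENNReal.ofReal (((d : ℝ) + 4 * k) ^ k * (((m : ℝ) - 4 * k)⁻¹) ^ k)) ^ (2 * w)) ^ (1 / ((2 * k : ℕ) : ℝ)) *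
        (qW C) ^ ((2 : ℝ) - 1 / (k : ℝ)) := by
  have hd0 : 0 < d := by omega
  have : Fact (0 < d) := ⟨hd0⟩
  set P2 := (PP d w).prod (PP d w) with hP2
  set c := ENNReal.ofReal (((d : ℝ) + 4 * k) ^ k * (((m : ℝ) - 4 * k)⁻¹) ^ k) with hc
  have hm' : d - (w + w) = m := by omega
  have hgfix : ∀ ω : Metric.sphere (0 : Vec d) 1, (gW C ω) ^ 2 =
      ∫⁻ p, indW C p.1 (lab p.1 ω) * indW C p.2 (lab p.2 ω) ∂P2 := by
    intro ω
    have hm2 : Measurable (fun A : Fin w → Vec d => indW C A (lab A ω)) :=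
      (measurable_indW hC).comp (measurable_id.prodMk (measurable_lab.comp (measurable_id.prodMk measurable_const)))
    rw [hP2, lintegral_prod_mul hm2.aemeasurable hm2.aemeasurable, sq, gW_eq_lintegral hC ω]
    rfl
  simp only [hgfix]
  have hG : Measurable (Function.uncurry (fun (ω : Metric.sphere (0 : Vec d) 1)
      (p : (Fin w → Vec d) × (Fin w → Vec d)) => indW C p.1 (lab p.1 ω) * indW C p.2 (lab p.2 ω))) := by
    have hlab1 : Measurable (fun q : Metric.sphere (0 : Vec d) 1 × ((Fin w → Vec d) × (Fin w → Vec d)) =>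
        (q.2.1, lab q.2.1 (q.1 : Vec d))) := by
      apply Measurable.prodMk (by fun_prop)
      exact measurable_lab.comp (Measurable.prodMk (by fun_prop) (measurable_subtype_coe.comp measurable_fst))
    have hlab2 : Measurable (fun q : Metric.sphere (0 : Vec d) 1 × ((Fin w → Vec d) × (Fin w → Vec d)) =>
        (q.2.2, lab q.2.2 (q.1 : Vec d))) := by
      apply Measurable.prodMk (by fun_prop)
      exact measurable_lab.comp (Measurable.prodMk (by fun_prop) (measurable_subtype_coe.comp measurable_fst))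
    exact ((measurable_indW hC).comp hlab1).mul ((measurable_indW hC).comp hlab2)
  rw [lintegral_lintegral_swap hG.aemeasurable]
  -- the moment of `rho`
  set R : (Fin w → Vec d) × (Fin w → Vec d) → ℝ≥0∞ := fun p => rho (x2 p) (w + w) with hR
  have hRm : Measurable R := (measurable_rho _).comp measurable_x2
  have hmom : ∫⁻ p, R p ^ (2 * k) ∂P2 ≤ c ^ (2 * w) := by
    rw [hP2, lintegral_prod _ (hRm.pow_const _).aemeasurable]
    have := rho_double_moment (d := d) (w := w) (k := k) (by omega) (by omega)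
    rw [show d - 2 * w = m by omega] at this
    have h3 : ∀ A A' : Fin w → Vec d, rho (merge (rows A) w (rows A')) (2 * w) = rho (x2 (A, A')) (w + w) := by
      intro A A'
      rw [two_mul]
      rfl
    simp only [h3] at this
    exact this
  have hcT : c ≠ ⊤ := by simp [hc]
  have hcT2 : c ^ (2 * w) ≠ ⊤ := ENNReal.pow_ne_top hcT
  have hae : ∀ᵐ p ∂P2, R p ≠ ⊤ := by
    have h1 := ae_lt_top (hRm.pow_const (2 * k)) (ne_top_of_le_ne_top hcT2 hmom)
    filter_upwards [h1] with p hp hRp
    rw [hRp, ENNReal.top_pow (by omega)] at hp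
    exact lt_irrefl _ hp
  have hstep : ∫⁻ p, ∫⁻ ω : Metric.sphere (0 : Vec d) 1, indW C p.1 (lab p.1 ω) * indW C p.2 (lab p.2 ω) ∂(sphereUnif d) ∂P2
      ≤ ∫⁻ p, kW m w * 4 ^ w * (R p * (aW C p.1 * aW C p.2)) ∂P2 := by
    apply lintegral_mono_ae
    filter_upwards [hae] with p hp
    exact window_pointwise hC hd hm p (gs_ne_zero_of_rho _ _ hp)
  refine hstep.trans ?_
  have hA1 : Measurable (fun p : (Fin w → Vec d) × (Fin w → Vec d) => aW C p.1 * aW C p.2) :=
    ((measurable_aW hC).comp measurable_fst).mul ((measurable_aW hC).comp measurable_snd)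
  have hA3 : Measurable (fun p : (Fin w → Vec d) × (Fin w → Vec d) => R p * (aW C p.1 * aW C p.2)) :=
    hRm.mul hA1
  rw [lintegral_const_mul _ hA3, mul_assoc (kW m w * 4 ^ w)]
  refine mul_le_mul_right ?_ _
  set p0 : ℝ := ((2 * k : ℕ) : ℝ) with hp0
  have hp1 : 1 < p0 := by
    have : 2 ≤ 2 * k := by omega
    have h' : ((2:ℕ):ℝ) ≤ ((2 * k : ℕ) : ℝ) := by exact_mod_cast this
    rw [hp0]
    push_cast at h' ⊢
    linarith
  have hpq := Real.HolderConjugate.conjExponent hp1
  set q0 := p0.conjExponent with hq0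
  have hH := ENNReal.lintegral_mul_le_Lp_mul_Lq P2 hpq hRm.aemeasurable hA1.aemeasurable
  have hq1 : 1 ≤ q0 := hpq.symm.lt.le
  have hq0pos : 0 < q0 := by linarith
  have hp0pos : 0 < p0 := by linarith
  refine (le_trans (le_of_eq ?_) hH).trans ?_
  · rfl
  gcongr ?_ * ?_
  · have h1 : ∫⁻ a, R a ^ p0 ∂P2 = ∫⁻ a, R a ^ (2 * k) ∂P2 := by
      apply lintegral_congr
      intro a
      rw [hp0, ENNReal.rpow_natCast]
    rw [h1]
    exact ENNReal.rpow_le_rpow hmom (by positivity)
  · have h2 : ∫⁻ a, ((fun p : (Fin w → Vec d) × (Fin w → Vec d) => aW C p.1 * aW C p.2) a) ^ q0 ∂P2 ≤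
        ∫⁻ a, aW C a.1 * aW C a.2 ∂P2 := by
      apply lintegral_mono
      intro a
      have ha : aW C a.1 * aW C a.2 ≤ 1 :=
        mul_le_one' (aW_le_one C a.1) (aW_le_one C a.2)
      calc (aW C a.1 * aW C a.2) ^ q0 ≤ (aW C a.1 * aW C a.2) ^ (1:ℝ) :=
            ENNReal.rpow_le_rpow_of_exponent_ge ha hq1
        _ = _ := ENNReal.rpow_one _
    have h3 : ∫⁻ a, aW C a.1 * aW C a.2 ∂P2 = qW C * qW C := by
      rw [hP2, lintegral_prod_mul (measurable_aW hC).aemeasurable (measurable_aW hC).aemeasurable]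
      rfl
    rw [h3] at h2
    refine (ENNReal.rpow_le_rpow h2 (by positivity)).trans (le_of_eq ?_)
    rw [← sq, ← ENNReal.rpow_natCast, ← ENNReal.rpow_mul]
    congr 1
    have h4 := hpq.inv_add_inv_eq_one
    have hk' : (k:ℝ) ≠ 0 := by positivity
    have h5 : q0⁻¹ = 1 - 1 / (2 * k) := by
      have : p0⁻¹ = 1 / (2 * k) := by rw [hp0]; push_cast; rw [one_div]
      rw [this] at h4
      linarith
    rw [one_div, h5]
    push_cast
    field_simp

end Window2

end Vale.Agent.Lib.P309
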