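import Mathlib
import Vale.Agent.Lib.P309.Window
import Vale.Agent.Lib.P309.Chain

open MeasureTheory ProbabilityTheory Set Module InnerProductSpace
open scoped ENNReal
set_option linter.unusedSectionVars false
set_option linter.unusedVariables false
set_option linter.unusedSimpArgs false
set_option linter.unnecessarySimpa false

namespace Vale.Agent.Lib.P309

section Process
variable {d : ℕ} {V : Type*} [Fintype V] [DecidableEq V] [MeasurableSpace V] [MeasurableSingletonClass V]

/-- deterministic streaming rule run on a block of rows and labels -/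
def runY (F : ℕ → V → Vec d → ℝ → V) (t0 : ℕ) :
    (b : ℕ) → V → (Fin b → Vec d) → (Fin b → ℝ) → V
  | 0, v, _, _ => v
  | b + 1, v, A, y => F (t0 + b) (runY F t0 b v (Fin.init A) (Fin.init y)) (A (Fin.last b)) (y (Fin.last b))

lemma measurable_runY (F : ℕ → V → Vec d → ℝ → V)
    (hF : ∀ t, Measurable (fun p : V × Vec d × ℝ => F t p.1 p.2.1 p.2.2)) (t0 b : ℕ) (v : V) :
    Measurable (fun p : (Fin b → Vec d) × (Fin b → ℝ) => runY F t0 b v p.1 p.2) := by
  induction b with
  | zero => exact measurable_const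
  | succ b ih =>
    simp only [runY]
    have h1 : Measurable (fun p : (Fin (b + 1) → Vec d) × (Fin (b + 1) → ℝ) =>
        ((Fin.init p.1 : Fin b → Vec d), (Fin.init p.2 : Fin b → ℝ))) := by
      apply Measurable.prodMk
      · apply measurable_pi_iff.mpr
        intro j
        exact (measurable_pi_apply j.castSucc).comp measurable_fst
      · apply measurable_pi_iff.mpr
        intro j
        exact (measurable_pi_apply j.castSucc).comp measurable_snd
    have h2 := ih.comp h1
    exact (hF (t0 + b)).comp (h2.prodMk (Measurable.prodMk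
      ((measurable_pi_apply (Fin.last b)).comp measurable_fst) ((measurable_pi_apply (Fin.last b)).comp measurable_snd)))

/-- the event of reaching a given state -/
def setC (F : ℕ → V → Vec d → ℝ → V) (t0 b : ℕ) (v v' : V) :
    Set ((Fin b → Vec d) × (Fin b → ℝ)) := {p | runY F t0 b v p.1 p.2 = v'}

lemma measurableSet_setC (F : ℕ → V → Vec d → ℝ → V)
    (hF : ∀ t, Measurable (fun p : V × Vec d × ℝ => F t p.1 p.2.1 p.2.2)) (t0 b : ℕ) (v v' : V) :
    MeasurableSet (setC F t0 b v v') :=
  (measurable_runY F hF t0 b v) (measurableSet_singleton v')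

/-- block transition kernel -/
noncomputable def kerB (F : ℕ → V → Vec d → ℝ → V) (t0 b : ℕ) (v v' : V) (ω : Vec d) : ℝ≥0∞ :=
  gW (setC F t0 b v v') ω

/-- single row transition kernel -/
noncomputable def stepK (F : ℕ → V → Vec d → ℝ → V) (t : ℕ) (u v' : V) (ω : Vec d) : ℝ≥0∞ :=
  stdGaussian (Vec d) {z | F t u z (inner ℝ z ω) = v'}

lemma kerB_eq_measure (F : ℕ → V → Vec d → ℝ → V) (t0 b : ℕ) (v v' : V) (ω : Vec d) :
    kerB F t0 b v v' ω = PP d b {A | runY F t0 b v A (lab A ω) = v'} := rfl

lemma measurable_runLab (F : ℕ → V → Vec d → ℝ → V)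
    (hF : ∀ t, Measurable (fun p : V × Vec d × ℝ => F t p.1 p.2.1 p.2.2)) (t0 b : ℕ) (v : V) (ω : Vec d) :
    Measurable (fun A : Fin b → Vec d => runY F t0 b v A (lab A ω)) :=
  (measurable_runY F hF t0 b v).comp
    (measurable_id.prodMk (measurable_lab.comp (measurable_id.prodMk measurable_const)))

lemma kerB_zero (F : ℕ → V → Vec d → ℝ → V) (t0 : ℕ) (v v' : V) (ω : Vec d) :
    kerB F t0 0 v v' ω = if v' = v then 1 else 0 := by
  rw [kerB_eq_measure]
  simp only [runY]
  by_cases h : v' = v
  · subst h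
    simp
  · have h' : v ≠ v' := fun e => h e.symm
    simp [h, h']

lemma init_lab {b : ℕ} (A : Fin (b + 1) → Vec d) (ω : Vec d) :
    (Fin.init (lab A ω) : Fin b → ℝ) = lab (Fin.init A) ω := rfl

lemma lab_snoc_last {b : ℕ} (A : Fin b → Vec d) (z ω : Vec d) :
    lab (Fin.snoc A z : Fin (b + 1) → Vec d) ω (Fin.last b) = inner ℝ z ω := by
  simp [lab]

lemma init_snoc' {b : ℕ} (A : Fin b → Vec d) (z : Vec d) :
    (Fin.init (Fin.snoc A z : Fin (b + 1) → Vec d) : Fin b → Vec d) = A := by
  simp

lemma runY_snoc (F : ℕ → V → Vec d → ℝ → V) (t0 b : ℕ) (v : V) (A : Fin b → Vec d) (z ω : Vec d) :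
    runY F t0 (b + 1) v (Fin.snoc A z) (lab (Fin.snoc A z : Fin (b + 1) → Vec d) ω) =
      F (t0 + b) (runY F t0 b v A (lab A ω)) z (inner ℝ z ω) := by
  simp only [runY]
  rw [init_lab, init_snoc', lab_snoc_last]
  simp

/-- one step recursion for the block kernel -/
lemma kerB_succ (F : ℕ → V → Vec d → ℝ → V)
    (hF : ∀ t, Measurable (fun p : V × Vec d × ℝ => F t p.1 p.2.1 p.2.2)) (t0 b : ℕ) (v v' : V) (ω : Vec d) :
    kerB F t0 (b + 1) v v' ω = ∑ u, kerB F t0 b v u ω * stepK F (t0 + b) u v' ω := by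
  have hm := measurable_runLab F hF t0 (b + 1) v ω
  have hS : MeasurableSet {A : Fin (b + 1) → Vec d | runY F t0 (b + 1) v A (lab A ω) = v'} :=
    hm (measurableSet_singleton v')
  rw [kerB_eq_measure, ← lintegral_indicator_one hS]
  rw [lintegral_pi_snoc _ b _ (measurable_one.indicator hS)]
  have h1 : ∀ A' : Fin b → Vec d, ∫⁻ z, ({A : Fin (b + 1) → Vec d | runY F t0 (b + 1) v A (lab A ω) = v'}.indicator 1)
      (Fin.snoc A' z : Fin (b + 1) → Vec d) ∂(stdGaussian (Vec d)) =
      stepK F (t0 + b) (runY F t0 b v A' (lab A' ω)) v' ω := by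
    intro A'
    unfold stepK
    have hz : MeasurableSet {z : Vec d | F (t0 + b) (runY F t0 b v A' (lab A' ω)) z (inner ℝ z ω) = v'} := by
      have h3 : Measurable (fun z : Vec d => F (t0 + b) (runY F t0 b v A' (lab A' ω)) z (inner ℝ z ω)) :=
        (hF (t0 + b)).comp (measurable_const.prodMk (measurable_id.prodMk (by fun_prop)))
      exact h3 (measurableSet_singleton v')
    rw [← lintegral_indicator_one hz]
    apply lintegral_congr
    intro z
    simp only [indicator, Set.mem_ofPred_eq, Pi.one_apply, runY_snoc]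
  simp only [h1]
  have h2 : ∀ A' : Fin b → Vec d, stepK F (t0 + b) (runY F t0 b v A' (lab A' ω)) v' ω =
      ∑ u, ({A : Fin b → Vec d | runY F t0 b v A (lab A ω) = u}.indicator 1 A') * stepK F (t0 + b) u v' ω := by
    intro A'
    rw [Finset.sum_eq_single (runY F t0 b v A' (lab A' ω))]
    · simp
    · intro u _ hu
      have : A' ∉ {A : Fin b → Vec d | runY F t0 b v A (lab A ω) = u} := fun h => hu h.symm
      simp [this]
    · simp
  simp only [h2]
  have hS' : ∀ u, MeasurableSet {A : Fin b → Vec d | runY F t0 b v A (lab A ω) = u} := fun u =>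
    (measurable_runLab F hF t0 b v ω) (measurableSet_singleton u)
  rw [lintegral_finsetSum _ (fun u _ => (measurable_one.indicator (hS' u)).mul_const _)]
  apply Finset.sum_congr rfl
  intro u _
  rw [lintegral_mul_const _ (measurable_one.indicator (hS' u)), lintegral_indicator_one (hS' u)]
  rfl

/-- the semigroup property -/
lemma kerB_add (F : ℕ → V → Vec d → ℝ → V)
    (hF : ∀ t, Measurable (fun p : V × Vec d × ℝ => F t p.1 p.2.1 p.2.2)) (t0 a b : ℕ) (v v' : V) (ω : Vec d) :
    kerB F t0 (a + b) v v' ω = ∑ u, kerB F t0 a v u ω * kerB F (t0 + a) b u v' ω := by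
  induction b generalizing v' with
  | zero =>
    simp only [kerB_zero, add_zero]
    rw [Finset.sum_eq_single v']
    · simp
    · intro u _ hu
      simp [hu.symm]
    · simp
  | succ b ih =>
    rw [show a + (b + 1) = (a + b) + 1 by ring, kerB_succ F hF]
    simp only [ih, kerB_succ F hF (t0 + a) b, Finset.sum_mul, Finset.mul_sum]
    rw [Finset.sum_comm]
    apply Finset.sum_congr rfl
    intro u _
    apply Finset.sum_congr rfl
    intro x _
    rw [show t0 + a + b = t0 + (a + b) by ring]
    ring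

lemma kerB_sum (F : ℕ → V → Vec d → ℝ → V)
    (hF : ∀ t, Measurable (fun p : V × Vec d × ℝ => F t p.1 p.2.1 p.2.2)) (t0 b : ℕ) (v : V) (ω : Vec d) :
    ∑ v', kerB F t0 b v v' ω ≤ 1 := by
  simp only [kerB_eq_measure]
  have hm := measurable_runLab F hF t0 b v ω
  have h1 := sum_measure_preimage_singleton (μ := PP d b) (Finset.univ : Finset V) (f := fun A : Fin b → Vec d => runY F t0 b v A (lab A ω))
    (fun u _ => hm (measurableSet_singleton u))
  have h2 : ∀ u, PP d b {A | runY F t0 b v A (lab A ω) = u} =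
      PP d b ((fun A : Fin b → Vec d => runY F t0 b v A (lab A ω)) ⁻¹' {u}) := fun u => rfl
  simp only [h2]
  rw [h1]
  exact prob_le_one

lemma measurable_kerB (F : ℕ → V → Vec d → ℝ → V)
    (hF : ∀ t, Measurable (fun p : V × Vec d × ℝ => F t p.1 p.2.1 p.2.2)) (t0 b : ℕ) (v v' : V) :
    Measurable (kerB F t0 b v v') :=
  measurable_gW (measurableSet_setC F hF t0 b v v')

/-- universal comparison quantity of a block -/
noncomputable def qB (F : ℕ → V → Vec d → ℝ → V) (t0 b : ℕ) (v v' : V) : ℝ≥0∞ :=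
  qW (setC F t0 b v v')

lemma sum_aW_le (F : ℕ → V → Vec d → ℝ → V)
    (hF : ∀ t, Measurable (fun p : V × Vec d × ℝ => F t p.1 p.2.1 p.2.2)) (t0 b : ℕ) (v : V) (A : Fin b → Vec d) :
    ∑ v', aW (setC F t0 b v v') A ≤ 1 := by
  unfold aW
  simp only [div_eq_mul_inv]
  rw [← Finset.sum_mul]
  have hmeas : ∀ v', MeasurableSet (sectW (setC F t0 b v v') A) := fun v' =>
    measurable_prodMk_left (measurableSet_jointS (measurableSet_setC F hF t0 b v v'))
  have hdisj : Set.PairwiseDisjoint (↑(Finset.univ : Finset V)) (fun v' => sectW (setC F t0 b v v') A) := by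
    intro u _ u' _ huu'
    rw [Function.onFun, Set.disjoint_left]
    intro y hy hy'
    exact huu' (hy.1.symm.trans hy'.1)
  have h1 : ∑ v', volume (sectW (setC F t0 b v v') A) ≤ volume (boxA A) := by
    rw [← measure_biUnion_finset hdisj (fun v' _ => hmeas v')]
    apply measure_mono
    intro y hy
    simp only [Set.mem_iUnion] at hy
    obtain ⟨v', _, hv'⟩ := hy
    exact sectW_subset _ A hv'
  calc _ ≤ volume (boxA A) * (volume (boxA A))⁻¹ := by gcongr
    _ ≤ 1 := ENNReal.mul_inv_le_one _

lemma sum_qB_le (F : ℕ → V → Vec d → ℝ → V)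
    (hF : ∀ t, Measurable (fun p : V × Vec d × ℝ => F t p.1 p.2.1 p.2.2)) (t0 b : ℕ) (v : V) :
    ∑ v', qB F t0 b v v' ≤ 1 := by
  unfold qB qW
  rw [← lintegral_finsetSum _ (fun v' _ => measurable_aW (measurableSet_setC F hF t0 b v v'))]
  calc _ ≤ ∫⁻ A, 1 ∂(PP d b) := lintegral_mono (fun A => sum_aW_le F hF t0 b v A)
    _ = 1 := by simp

end Process


end Vale.Agent.Lib.P309
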