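import Mathlib
import Vale.Agent.Lib.P309.Process

open MeasureTheory ProbabilityTheory Set Module InnerProductSpace
open scoped ENNReal
set_option linter.unusedSectionVars false
set_option linter.unusedVariables false
set_option linter.unusedSimpArgs false
set_option linter.unnecessarySimpa false

namespace Vale.Agent.Lib.P309

section Constant

/-- the constant of the window estimate is at most `(2d)^w` -/
lemma xi_le {d w k m : ℕ} (hd : d = (w + w) + m) (hm : 2 ≤ m) (h8 : 8 * w ≤ d) (h16 : 16 * k ≤ d)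
    (hk0 : 0 < k) (hd0 : 0 < d) :
    kW m w * 4 ^ w *
        ((ENNReal.ofReal (((d : ℝ) + 4 * k) ^ k * (((m : ℝ) - 4 * k)⁻¹) ^ k)) ^ (2 * w)) ^ (1 / ((2 * k : ℕ) : ℝ)) ≤
      ENNReal.ofReal ((2 * (d : ℝ)) ^ w) := by
  have hVm : Nontrivial (Vec m) := Module.nontrivial_of_finrank_pos (R := ℝ) (by simp; omega)
  have hdR : (d : ℝ) = (w : ℝ) + w + m := by rw [hd]; push_cast; ring
  have h8R : 8 * (w : ℝ) ≤ d := by exact_mod_cast h8
  have h16R : 16 * (k : ℝ) ≤ d := by exact_mod_cast h16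
  have hdpos : (0:ℝ) < d := by exact_mod_cast hd0
  have hmk : 0 < (m : ℝ) - 4 * k := by nlinarith
  have hkW : kW m w ≤ ENNReal.ofReal (((2 * Real.pi) ^ w)⁻¹ * (d : ℝ) ^ w) := by
    unfold kW
    have h1 : (-((w + w : ℕ) : ℝ) / 2) = -(w : ℝ) := by push_cast; ring
    rw [h1, Real.rpow_neg (by positivity), Real.rpow_natCast, ENNReal.ofReal_mul (by positivity)]
    gcongr
    have h2 := gMom_pos_le (F := Vec m) w
    rw [finrank_euclideanSpace_fin] at h2
    have h3 : ((w + w : ℕ) : ℝ) = 2 * (w : ℝ) := by push_cast; ring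
    rw [h3]
    refine h2.trans (le_of_eq ?_)
    congr 2
    rw [hdR]
    ring
  have hc : ENNReal.ofReal (((d : ℝ) + 4 * k) ^ k * (((m : ℝ) - 4 * k)⁻¹) ^ k) ≤ ENNReal.ofReal ((5 / 2) ^ k) := by
    apply ENNReal.ofReal_le_ofReal
    rw [← mul_pow]
    apply pow_le_pow_left₀ (by positivity)
    rw [← div_eq_mul_inv, div_le_iff₀ hmk]
    nlinarith
  have hroot : ((ENNReal.ofReal ((5 / 2 : ℝ) ^ k)) ^ (2 * w)) ^ (1 / ((2 * k : ℕ) : ℝ)) = ENNReal.ofReal ((5 / 2) ^ w) := by
    rw [← ENNReal.ofReal_pow (by positivity), ENNReal.ofReal_rpow_of_nonneg (by positivity) (by positivity)]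
    congr 1
    rw [← pow_mul, show k * (2 * w) = w * (2 * k) by ring, pow_mul, one_div,
      Real.pow_rpow_inv_natCast (by positivity) (by omega)]
  have h4 : ((4 : ℝ≥0∞)) ^ w = ENNReal.ofReal (4 ^ w) := by
    rw [ENNReal.ofReal_pow (by norm_num)]
    norm_num
  calc _ ≤ ENNReal.ofReal (((2 * Real.pi) ^ w)⁻¹ * (d : ℝ) ^ w) * ENNReal.ofReal (4 ^ w) * ENNReal.ofReal ((5 / 2) ^ w) := by
        rw [h4, ← hroot]
        gcongr
    _ = ENNReal.ofReal (((2 * Real.pi) ^ w)⁻¹ * (d : ℝ) ^ w * 4 ^ w * (5 / 2) ^ w) := by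
        rw [← ENNReal.ofReal_mul (by positivity), ← ENNReal.ofReal_mul (by positivity)]
    _ ≤ _ := by
        apply ENNReal.ofReal_le_ofReal
        have h5 : (((2 * Real.pi)⁻¹ * d * 4 * (5 / 2))) ^ w = ((2 * Real.pi) ^ w)⁻¹ * (d : ℝ) ^ w * 4 ^ w * (5 / 2) ^ w := by
          rw [mul_pow, mul_pow, mul_pow, inv_pow]
        rw [← h5]
        apply pow_le_pow_left₀ (by positivity)
        have hpi := Real.pi_gt_three
        have h6 : (2 * Real.pi)⁻¹ ≤ 1 / 6 := by
          rw [inv_eq_one_div]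
          apply one_div_le_one_div_of_le (by norm_num) (by linarith)
        nlinarith

end Constant

section Det
variable {d : ℕ} {V : Type*} [Fintype V] [DecidableEq V] [MeasurableSpace V] [MeasurableSingletonClass V]

lemma runY_pad (F : ℕ → V → Vec d → ℝ → V) {T : ℕ} (hpad : ∀ t, T ≤ t → ∀ v x y, F t v x y = v)
    (r : ℕ) (u : V) (A : Fin r → Vec d) (y : Fin r → ℝ) : runY F T r u A y = u := by
  induction r with
  | zero => rfl
  | succ r ih =>
    simp only [runY]
    rw [hpad (T + r) (by omega), ih]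

lemma kerB_pad (F : ℕ → V → Vec d → ℝ → V) {T : ℕ} (hpad : ∀ t, T ≤ t → ∀ v x y, F t v x y = v)
    (r : ℕ) (u v' : V) (ω : Vec d) : kerB F T r u v' ω = if v' = u then 1 else 0 := by
  rw [kerB_eq_measure]
  simp only [runY_pad F hpad]
  by_cases h : v' = u
  · subst h
    simp
  · have h' : u ≠ v' := fun e => h e.symm
    simp [h, h']

lemma kerB_extend (F : ℕ → V → Vec d → ℝ → V)
    (hF : ∀ t, Measurable (fun p : V × Vec d × ℝ => F t p.1 p.2.1 p.2.2))
    {T : ℕ} (hpad : ∀ t, T ≤ t → ∀ v x y, F t v x y = v)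
    (r : ℕ) (v0 v' : V) (ω : Vec d) : kerB F 0 (T + r) v0 v' ω = kerB F 0 T v0 v' ω := by
  rw [kerB_add F hF]
  simp only [zero_add, kerB_pad F hpad]
  rw [Finset.sum_eq_single v']
  · simp
  · intro u _ hu
    simp [hu.symm]
  · simp

/-- the amplification bound for deterministic rules -/
theorem det_bound {w k m n T : ℕ} (hd : d = (w + w) + m) (hm : 2 ≤ m) (h8 : 8 * w ≤ d) (h16 : 16 * k ≤ d)
    (hk2 : 2 ≤ k) (hk : 4 * k < m)
    (F : ℕ → V → Vec d → ℝ → V)
    (hF : ∀ t, Measurable (fun p : V × Vec d × ℝ => F t p.1 p.2.1 p.2.2))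
    (hpad : ∀ t, T ≤ t → ∀ v x y, F t v x y = v) (hT : T ≤ n * w)
    (v0 : V) (out : V → Vec d) (ε : ℝ) (κ : ℝ≥0∞)
    (hκ : ∀ c : Vec d, sphereUnif d {ω | ‖(ω : Vec d) - c‖ ≤ ε} ≤ κ)
    (E : ℝ≥0∞) (hE : ENNReal.ofReal ((2 * (d : ℝ)) ^ w) * (Fintype.card V : ℝ≥0∞) ^ (1 / (k : ℝ)) = E)
    (hE0 : E ≠ 0) (hET : E ≠ ⊤) :
    ∫⁻ ω : Metric.sphere (0 : Vec d) 1,
      PP d T {A | ‖(ω : Vec d) - out (runY F 0 T v0 A (lab A ω))‖ ≤ ε} ∂(sphereUnif d) ≤
        (2⁻¹) ^ 2 + Dfun E n * κ := by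
  have hd0 : 0 < d := by omega
  have : Fact (0 < d) := ⟨hd0⟩
  set g : ℕ → V → V → Metric.sphere (0 : Vec d) 1 → ℝ≥0∞ := fun j v v' ω => kerB F (j * w) w v v' ω with hg
  set Q : ℕ → V → V → ℝ≥0∞ := fun j v v' => qB F (j * w) w v v' with hQ
  set B : V → Set (Metric.sphere (0 : Vec d) 1) := fun v => {ω | ‖(ω : Vec d) - out v‖ ≤ ε} with hB
  have hBm : ∀ v, MeasurableSet (B v) := by
    intro v
    apply measurableSet_le
    · fun_prop
    · fun_prop
  have hgm : ∀ j v v', Measurable (g j v v') := fun j v v' =>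
    (measurable_kerB F hF _ _ v v').comp measurable_subtype_coe
  have hgs : ∀ j v ω, ∑ v', g j v v' ω ≤ 1 := fun j v ω => kerB_sum F hF _ _ v _
  have hQs : ∀ j v, ∑ v', Q j v v' ≤ 1 := fun j v => sum_qB_le F hF _ _ v
  have hL2 : ∀ j v v', ∫⁻ ω, g j v v' ω ^ 2 ∂(sphereUnif d) ≤
      ENNReal.ofReal ((2 * (d : ℝ)) ^ w) * Q j v v' ^ ((2 : ℝ) - 1 / (k : ℝ)) := by
    intro j v v'
    refine (window_bound (measurableSet_setC F hF _ _ v v') hd hm (by omega) hk).trans ?_
    exact mul_le_mul' (xi_le hd hm h8 h16 (by omega) hd0) le_rfl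
  have hmain := chain_bound (sphereUnif d) g Q E v0 _ hk2 hgm hgs hQs hL2 hE hE0 hET n B hBm κ (fun v => hκ (out v))
  have hchT : ∀ j v' (ω : Metric.sphere (0 : Vec d) 1), chT g v0 j v' ω = kerB F 0 (j * w) v0 v' ω := by
    intro j
    induction j with
    | zero =>
      intro v' ω
      simp only [chT, Nat.zero_mul, kerB_zero]
    | succ j ih =>
      intro v' ω
      simp only [chT]
      rw [show (j + 1) * w = j * w + w by ring, kerB_add F hF]
      simp only [zero_add]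
      apply Finset.sum_congr rfl
      intro x _
      rw [ih]
  obtain ⟨r, hr⟩ : ∃ r, n * w = T + r := ⟨n * w - T, by omega⟩
  have hfinal : ∀ v' (ω : Metric.sphere (0 : Vec d) 1), chT g v0 n v' ω = kerB F 0 T v0 v' ω := by
    intro v' ω
    rw [hchT, hr, kerB_extend F hF hpad]
  simp only [hfinal] at hmain
  refine le_trans (le_of_eq ?_) hmain
  have h1 : ∀ ω : Metric.sphere (0 : Vec d) 1, PP d T {A | ‖(ω : Vec d) - out (runY F 0 T v0 A (lab A ω))‖ ≤ ε} =
      ∑ v', (B v').indicator (fun ω => kerB F 0 T v0 v' ω) ω := by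
    intro ω
    classical
    set f : (Fin T → Vec d) → V := fun A => runY F 0 T v0 A (lab A (ω : Vec d)) with hf
    have hfm : Measurable f := measurable_runLab F hF 0 T v0 ω
    have h2 := sum_measure_preimage_singleton (μ := PP d T) (Finset.univ.filter (fun v' => ω ∈ B v')) (f := f)
      (fun u _ => hfm (measurableSet_singleton u))
    have h3 : {A | ‖(ω : Vec d) - out (runY F 0 T v0 A (lab A ω))‖ ≤ ε} = f ⁻¹' ↑(Finset.univ.filter (fun v' => ω ∈ B v')) := by
      ext A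
      simp [hf, hB]
    rw [h3, ← h2, Finset.sum_filter]
    apply Finset.sum_congr rfl
    intro v' _
    by_cases h4 : ω ∈ B v'
    · simp only [h4, if_true, indicator_of_mem]
      rfl
    · simp only [h4, if_false, indicator_of_notMem, not_false_eq_true]
  simp only [h1]
  have h5 : ∀ v' ∈ (Finset.univ : Finset V), Measurable (fun ω : Metric.sphere (0 : Vec d) 1 =>
      (B v').indicator (fun ω : Metric.sphere (0 : Vec d) 1 => kerB F 0 T v0 v' ω) ω) := by
    intro v' _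
    exact ((measurable_kerB F hF 0 T v0 v').comp measurable_subtype_coe).indicator (hBm v')
  rw [lintegral_finsetSum _ h5]
  apply Finset.sum_congr rfl
  intro v' _
  rw [lintegral_indicator (hBm v')]

end Det


end Vale.Agent.Lib.P309
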