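import Mathlib

/-! A density estimate: a measure whose mollifications have a bounded moment is controlled by
Lebesgue measure on every set, up to an additive error. -/

open MeasureTheory Set
open scoped ENNReal
set_option linter.unusedSectionVars false
set_option linter.unusedVariables false
set_option linter.unusedSimpArgs false
set_option linter.unnecessarySimpa false

namespace Vale.Agent.Lib.P309

lemma young_enn (a t : ℝ≥0∞) (ht0 : t ≠ 0) (htT : t ≠ ⊤) (m : ℕ) :
    a ≤ t + (t ^ m)⁻¹ * a ^ (m + 1) := by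
  by_cases h : a ≤ t
  · exact le_trans h le_self_add
  · push Not at h
    refine le_trans ?_ le_add_self
    have h1 : t ^ m ≠ 0 := pow_ne_zero _ ht0
    have h2 : t ^ m ≠ ⊤ := ENNReal.pow_ne_top htT
    calc a = (t ^ m)⁻¹ * t ^ m * a := by
          rw [ENNReal.inv_mul_cancel h1 h2, one_mul]
      _ = (t ^ m)⁻¹ * (t ^ m * a) := by rw [mul_assoc]
      _ ≤ (t ^ m)⁻¹ * (a ^ m * a) := by
          gcongr
      _ = _ := by rw [pow_succ]

section Fatou
variable {X S : Type*} [MeasurableSpace X] [MeasurableSpace S] {w : ℕ}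

/-- Fubini in the form used to compute a mollification -/
lemma moll_swap (P : Measure X) [SFinite P] (ν : Measure S) [SFinite ν] (ℓ : X → S → Fin w → ℝ)
    (hℓ : Measurable fun p : X × S => ℓ p.1 p.2) (U : Set (X × (Fin w → ℝ))) (hU : MeasurableSet U)
    (r : ℝ) :
    ∫⁻ p : X × S, volume (Prod.mk p.1 ⁻¹' U ∩ Metric.closedBall (ℓ p.1 p.2) r) ∂(P.prod ν) =
      ∫⁻ z : X × (Fin w → ℝ), U.indicator (fun z => ν {s | dist (ℓ z.1 s) z.2 ≤ r}) z ∂(P.prod volume) := by
  set W : Set ((X × S) × (Fin w → ℝ)) := {q | (q.1.1, q.2) ∈ U ∧ dist q.2 (ℓ q.1.1 q.1.2) ≤ r} with hW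
  have hWm : MeasurableSet W := by
    have h1 : MeasurableSet {q : (X × S) × (Fin w → ℝ) | (q.1.1, q.2) ∈ U} :=
      ((measurable_fst.comp measurable_fst).prodMk measurable_snd) hU
    have h2 : MeasurableSet {q : (X × S) × (Fin w → ℝ) | dist q.2 (ℓ q.1.1 q.1.2) ≤ r} :=
      measurableSet_le (measurable_snd.dist (hℓ.comp measurable_fst)) measurable_const
    exact h1.inter h2
  have hsec : ∀ p : X × S, Prod.mk p.1 ⁻¹' U ∩ Metric.closedBall (ℓ p.1 p.2) r = Prod.mk p ⁻¹' W := by
    intro p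
    ext y
    simp [hW, Metric.mem_closedBall]
  simp only [hsec]
  have hm1 : Measurable (fun p : X × S => volume (Prod.mk p ⁻¹' W)) :=
    measurable_measure_prodMk_left hWm
  rw [lintegral_prod _ hm1.aemeasurable]
  set V : Set ((X × (Fin w → ℝ)) × S) := {q | (q.1.1, q.1.2) ∈ U ∧ dist q.1.2 (ℓ q.1.1 q.2) ≤ r} with hV
  have hVm : MeasurableSet V := by
    have h1 : MeasurableSet {q : (X × (Fin w → ℝ)) × S | (q.1.1, q.1.2) ∈ U} :=
      ((measurable_fst.comp measurable_fst).prodMk (measurable_snd.comp measurable_fst)) hU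
    have h2 : MeasurableSet {q : (X × (Fin w → ℝ)) × S | dist q.1.2 (ℓ q.1.1 q.2) ≤ r} :=
      measurableSet_le ((measurable_snd.comp measurable_fst).dist (hℓ.comp ((measurable_fst.comp measurable_fst).prodMk measurable_snd))) measurable_const
    exact h1.inter h2
  have hsec2 : ∀ z : X × (Fin w → ℝ), U.indicator (fun z => ν {s | dist (ℓ z.1 s) z.2 ≤ r}) z = ν (Prod.mk z ⁻¹' V) := by
    intro z
    by_cases hz : z ∈ U
    · rw [indicator_of_mem hz]
      congr 1
      ext s
      simp [hV, hz, dist_comm]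
    · rw [indicator_of_notMem hz]
      have : Prod.mk z ⁻¹' V = ∅ := by
        ext s
        simp [hV, hz]
      rw [this, measure_empty]
  simp only [hsec2]
  have hm2 : Measurable (fun z : X × (Fin w → ℝ) => ν (Prod.mk z ⁻¹' V)) :=
    measurable_measure_prodMk_left hVm
  rw [lintegral_prod _ hm2.aemeasurable]
  apply lintegral_congr
  intro x
  set W' : Set (S × (Fin w → ℝ)) := {q | ((x, q.1), q.2) ∈ W} with hW'
  have hW'm : MeasurableSet W' := by
    have : Measurable (fun q : S × (Fin w → ℝ) => (((x, q.1), q.2) : (X × S) × (Fin w → ℝ))) := by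
      fun_prop
    exact this hWm
  have h1 := Measure.prod_apply (μ := ν) (ν := (volume : Measure (Fin w → ℝ))) hW'm
  have h2 := Measure.prod_apply_symm (μ := ν) (ν := (volume : Measure (Fin w → ℝ))) hW'm
  rw [h1] at h2
  exact h2

theorem fatou_cover (P : Measure X) [SFinite P] (ν : Measure S) [SFinite ν] (ℓ : X → S → Fin w → ℝ)
    (hℓ : Measurable fun p : X × S => ℓ p.1 p.2) (m : ℕ) (Ξ : ℝ≥0∞)
    (hΞ : ∀ r : ℝ, 0 < r → ∫⁻ z : X × (Fin w → ℝ), (ν {s | dist (ℓ z.1 s) z.2 ≤ r}) ^ (m + 1) ∂(P.prod volume) ≤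
      ENNReal.ofReal (2 * r) ^ (w * (m + 1)) * Ξ)
    (U : Set (X × (Fin w → ℝ))) (hU : MeasurableSet U) (hsec : ∀ x, IsOpen (Prod.mk x ⁻¹' U))
    (t : ℝ≥0∞) (ht0 : t ≠ 0) (htT : t ≠ ⊤) :
    (P.prod ν) {p | (p.1, ℓ p.1 p.2) ∈ U} ≤ t * (P.prod volume) U + (t ^ m)⁻¹ * Ξ := by
  set r : ℕ → ℝ := fun n => 1 / ((n : ℝ) + 1) with hr
  have hrpos : ∀ n, 0 < r n := fun n => by positivity
  set c : ℕ → ℝ≥0∞ := fun n => ENNReal.ofReal (2 * r n) ^ w with hc
  have hc0 : ∀ n, c n ≠ 0 := fun n => by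
    apply pow_ne_zero
    have := hrpos n
    simp only [ne_eq, ENNReal.ofReal_eq_zero, not_le]
    positivity
  have hcT : ∀ n, c n ≠ ⊤ := fun n => ENNReal.pow_ne_top ENNReal.ofReal_ne_top
  have hvol : ∀ (n : ℕ) (y : Fin w → ℝ), volume (Metric.closedBall y (r n)) = c n := by
    intro n y
    rw [Real.volume_pi_closedBall _ (hrpos n).le]
    simp [hc, ENNReal.ofReal_pow (by have := hrpos n; positivity : 0 ≤ 2 * r n)]
  set f : ℕ → (X × (Fin w → ℝ)) → ℝ≥0∞ := fun n z =>
    volume (Prod.mk z.1 ⁻¹' U ∩ Metric.closedBall z.2 (r n)) / c n with hf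
  have hfm : ∀ n, Measurable (f n) := by
    intro n
    apply Measurable.div_const
    set W : Set ((X × (Fin w → ℝ)) × (Fin w → ℝ)) := {q | (q.1.1, q.2) ∈ U ∧ dist q.2 q.1.2 ≤ r n} with hW
    have hWm : MeasurableSet W := by
      have h1 : MeasurableSet {q : (X × (Fin w → ℝ)) × (Fin w → ℝ) | (q.1.1, q.2) ∈ U} :=
        ((measurable_fst.comp measurable_fst).prodMk measurable_snd) hU
      have h2 : MeasurableSet {q : (X × (Fin w → ℝ)) × (Fin w → ℝ) | dist q.2 q.1.2 ≤ r n} :=
        measurableSet_le (measurable_snd.dist (measurable_snd.comp measurable_fst)) measurable_const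
      exact h1.inter h2
    have : (fun z : X × (Fin w → ℝ) => volume (Prod.mk z.1 ⁻¹' U ∩ Metric.closedBall z.2 (r n))) =
        fun z => volume (Prod.mk z ⁻¹' W) := by
      funext z
      congr 1
    rw [this]
    exact measurable_measure_prodMk_left hWm
  -- the mollified indicators eventually dominate the indicator
  have h1 : ∀ z : X × (Fin w → ℝ), U.indicator 1 z ≤ Filter.liminf (fun n => f n z) Filter.atTop := by
    intro z
    by_cases hz : z ∈ U
    · rw [indicator_of_mem hz]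
      refine Filter.le_liminf_of_le (by isBoundedDefault) ?_
      have hmem : z.2 ∈ Prod.mk z.1 ⁻¹' U := by simpa using hz
      obtain ⟨ε, hε, hball⟩ := Metric.isOpen_iff.mp (hsec z.1) z.2 hmem
      have hlim : Filter.Tendsto r Filter.atTop (nhds 0) := tendsto_one_div_add_atTop_nhds_zero_nat
      filter_upwards [hlim.eventually (gt_mem_nhds hε)] with n hn
      have hsub : Metric.closedBall z.2 (r n) ⊆ Prod.mk z.1 ⁻¹' U :=
        (Metric.closedBall_subset_ball hn).trans hball
      have : Prod.mk z.1 ⁻¹' U ∩ Metric.closedBall z.2 (r n) = Metric.closedBall z.2 (r n) :=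
        inter_eq_self_of_subset_right hsub
      simp only [hf, this, hvol]
      rw [ENNReal.div_self (hc0 n) (hcT n)]
      simp
    · rw [indicator_of_notMem hz]
      exact zero_le
  have hmap : Measurable (fun p : X × S => ((p.1, ℓ p.1 p.2) : X × (Fin w → ℝ))) :=
    measurable_fst.prodMk hℓ
  -- the bound for each scale
  have hn : ∀ n, ∫⁻ p : X × S, f n (p.1, ℓ p.1 p.2) ∂(P.prod ν) ≤ t * (P.prod volume) U + (t ^ m)⁻¹ * Ξ := by
    intro n
    have h2 : ∫⁻ p : X × S, f n (p.1, ℓ p.1 p.2) ∂(P.prod ν) =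
        (∫⁻ z : X × (Fin w → ℝ), U.indicator (fun z => ν {s | dist (ℓ z.1 s) z.2 ≤ r n}) z ∂(P.prod volume)) / c n := by
      simp only [hf]
      rw [← moll_swap P ν ℓ hℓ U hU (r n)]
      simp only [div_eq_mul_inv]
      rw [lintegral_mul_const']
      exact ENNReal.inv_ne_top.mpr (hc0 n)
    rw [h2]
    set q : X × (Fin w → ℝ) → ℝ≥0∞ := fun z => ν {s | dist (ℓ z.1 s) z.2 ≤ r n} with hq
    have hqm : Measurable q := by
      set V : Set ((X × (Fin w → ℝ)) × S) := {q | dist q.1.2 (ℓ q.1.1 q.2) ≤ r n} with hV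
      have hVm : MeasurableSet V := by
        apply measurableSet_le
        · exact (measurable_snd.comp measurable_fst).dist (hℓ.comp ((measurable_fst.comp measurable_fst).prodMk measurable_snd))
        · exact measurable_const
      have : q = fun z => ν (Prod.mk z ⁻¹' V) := by
        funext z
        simp only [hq]
        congr 1
        ext s
        simp [hV, dist_comm]
      rw [this]
      exact measurable_measure_prodMk_left hVm
    have h3 : ∀ z, U.indicator q z / c n ≤ U.indicator (fun _ => t) z + (t ^ m)⁻¹ * ((q z / c n) ^ (m + 1)) := by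
      intro z
      by_cases hz : z ∈ U
      · simp only [indicator_of_mem hz]
        exact young_enn _ t ht0 htT m
      · simp only [indicator_of_notMem hz]
        simp
    have h4 : (∫⁻ z, U.indicator q z ∂(P.prod volume)) / c n =
        ∫⁻ z, U.indicator q z / c n ∂(P.prod volume) := by
      simp only [div_eq_mul_inv]
      rw [lintegral_mul_const' _ _ (ENNReal.inv_ne_top.mpr (hc0 n))]
    rw [h4]
    refine (lintegral_mono h3).trans ?_
    rw [lintegral_add_left (measurable_const.indicator hU), lintegral_indicator hU, setLIntegral_const]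
    rw [lintegral_const_mul _ ((hqm.div_const _).pow_const _)]
    gcongr
    have h5 : ∫⁻ z, (q z / c n) ^ (m + 1) ∂(P.prod volume) =
        (∫⁻ z, (q z) ^ (m + 1) ∂(P.prod volume)) / (c n) ^ (m + 1) := by
      simp only [div_eq_mul_inv, mul_pow]
      rw [lintegral_mul_const' _ _ (ENNReal.pow_ne_top (ENNReal.inv_ne_top.mpr (hc0 n)))]
      congr 1
      exact (ENNReal.inv_pow).symm
    rw [h5]
    refine ENNReal.div_le_of_le_mul ?_
    refine (hΞ (r n) (hrpos n)).trans (le_of_eq ?_)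
    simp only [hc]
    rw [← pow_mul, mul_comm]
  calc (P.prod ν) {p | (p.1, ℓ p.1 p.2) ∈ U}
      = ∫⁻ p : X × S, U.indicator 1 (p.1, ℓ p.1 p.2) ∂(P.prod ν) := by
        have hS : MeasurableSet {p : X × S | (p.1, ℓ p.1 p.2) ∈ U} := hmap hU
        rw [← lintegral_indicator_one hS]
        apply lintegral_congr
        intro p
        by_cases hp : (p.1, ℓ p.1 p.2) ∈ U
        · rw [indicator_of_mem hp, indicator_of_mem (by exact hp)]
          rfl
        · rw [indicator_of_notMem hp, indicator_of_notMem (by exact hp)]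
    _ ≤ ∫⁻ p : X × S, Filter.liminf (fun n => f n (p.1, ℓ p.1 p.2)) Filter.atTop ∂(P.prod ν) :=
        lintegral_mono (fun p => h1 _)
    _ ≤ Filter.liminf (fun n => ∫⁻ p : X × S, f n (p.1, ℓ p.1 p.2) ∂(P.prod ν)) Filter.atTop :=
        lintegral_liminf_le (fun n => (hfm n).comp hmap)
    _ ≤ _ := by
        apply Filter.liminf_le_of_frequently_le'
        exact Filter.Frequently.of_forall hn

end Fatou

section Outer
variable {X S : Type*} [MeasurableSpace X] [MeasurableSpace S] [TopologicalSpace X] {w : ℕ}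

theorem fatou_all (P : Measure X) [SFinite P] (ν : Measure S) [SFinite ν] (ℓ : X → S → Fin w → ℝ)
    (hℓ : Measurable fun p : X × S => ℓ p.1 p.2) (m : ℕ) (Ξ : ℝ≥0∞)
    (hΞ : ∀ r : ℝ, 0 < r → ∫⁻ z : X × (Fin w → ℝ), (ν {s | dist (ℓ z.1 s) z.2 ≤ r}) ^ (m + 1) ∂(P.prod volume) ≤
      ENNReal.ofReal (2 * r) ^ (w * (m + 1)) * Ξ)
    [OpensMeasurableSpace (X × (Fin w → ℝ))] [(P.prod (volume : Measure (Fin w → ℝ))).OuterRegular]
    (C : Set (X × (Fin w → ℝ)))
    (t : ℝ≥0∞) (ht0 : t ≠ 0) (htT : t ≠ ⊤) :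
    (P.prod ν) {p | (p.1, ℓ p.1 p.2) ∈ C} ≤ t * (P.prod volume) C + (t ^ m)⁻¹ * Ξ := by
  by_cases hC : (P.prod (volume : Measure (Fin w → ℝ))) C = ⊤
  · rw [hC, ENNReal.mul_top ht0]
    simp
  apply ENNReal.le_of_forall_pos_le_add
  intro η hη hfin
  have hη0 : (η : ℝ≥0∞) ≠ 0 := by simpa using hη.ne'
  have hdiv : (η : ℝ≥0∞) / t ≠ 0 := by
    simp [ENNReal.div_eq_zero_iff, hη0, htT]
  obtain ⟨U, hCU, hUo, hUlt⟩ := C.exists_isOpen_lt_add (μ := P.prod (volume : Measure (Fin w → ℝ))) hC hdiv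
  have hsec : ∀ x, IsOpen (Prod.mk x ⁻¹' U) := fun x =>
    hUo.preimage (Continuous.prodMk_right x)
  have h1 := fatou_cover P ν ℓ hℓ m Ξ hΞ U hUo.measurableSet hsec t ht0 htT
  have hsub : {p : X × S | (p.1, ℓ p.1 p.2) ∈ C} ⊆ {p : X × S | (p.1, ℓ p.1 p.2) ∈ U} := fun p hp => hCU hp
  refine (measure_mono hsub).trans (h1.trans ?_)
  calc t * (P.prod volume) U + (t ^ m)⁻¹ * Ξ
      ≤ t * ((P.prod volume) C + (η : ℝ≥0∞) / t) + (t ^ m)⁻¹ * Ξ := by
        gcongr
    _ = t * (P.prod volume) C + (t ^ m)⁻¹ * Ξ + η := by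
        rw [mul_add, ENNReal.mul_div_cancel ht0 htT]
        ring

end Outer

end Vale.Agent.Lib.P309
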