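import Mathlib
import Vale.Agent.Lib.P309.Det

/-! Frostman densities on the sphere and the capacity functional they define. -/

open MeasureTheory ProbabilityTheory Set Module InnerProductSpace
open scoped ENNReal
set_option linter.unusedSectionVars false
set_option linter.unusedVariables false
set_option linter.unusedSimpArgs false
set_option linter.unnecessarySimpa false

namespace Vale.Agent.Lib.P309

section Frost
variable {d D : ℕ}

/-- the uniform measure on the sphere, as a measure on the ambient space -/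
noncomputable def sig (d : ℕ) : Measure (Vec d) := (sphereUnif d).map Subtype.val

lemma lintegral_sig {f : Vec d → ℝ≥0∞} (hf : Measurable f) :
    ∫⁻ x, f x ∂(sig d) = ∫⁻ ω : Metric.sphere (0 : Vec d) 1, f ω ∂(sphereUnif d) := by
  unfold sig
  rw [lintegral_map hf measurable_subtype_coe]

lemma sig_apply {E : Set (Vec d)} (hE : MeasurableSet E) :
    sig d E = sphereUnif d {ω | (ω : Vec d) ∈ E} := by
  unfold sig
  rw [Measure.map_apply measurable_subtype_coe hE]
  rfl

instance sig_prob [Fact (0 < d)] : IsProbabilityMeasure (sig d) := by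
  unfold sig
  exact Measure.isProbabilityMeasure_map measurable_subtype_coe.aemeasurable

/-- the measure `sig` is carried by the unit sphere -/
lemma sig_compl_closedBall [Fact (0 < d)] : sig d (Metric.closedBall (0 : Vec d) 1)ᶜ = 0 := by
  rw [sig_apply Metric.isClosed_closedBall.measurableSet.compl]
  have : {ω : Metric.sphere (0 : Vec d) 1 | (ω : Vec d) ∈ (Metric.closedBall (0 : Vec d) 1)ᶜ} = ∅ := by
    ext ω
    simp only [mem_compl_iff, Metric.mem_closedBall, dist_zero_right, Set.mem_ofPred_eq, Set.mem_empty_iff_false,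
      iff_false, not_not]
    have : ‖(ω : Vec d)‖ = 1 := by simpa using ω.2
    exact this.le
  rw [this, measure_empty]

/-- a density whose mass on every ball of radius `t` is at most `t ^ D` -/
def IsFrost (d D : ℕ) (g : Vec d → ℝ≥0∞) : Prop :=
  Measurable g ∧ ∀ (x : Vec d) (t : ℝ), 0 < t →
    ∫⁻ S in Metric.closedBall x t, g S ∂(sig d) ≤ ENNReal.ofReal t ^ D

/-- the capacity of a function: the largest integral against a Frostman density -/
noncomputable def capW (d D : ℕ) (f : Vec d → ℝ≥0∞) : ℝ≥0∞ :=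
  ⨆ (g : Vec d → ℝ≥0∞) (_ : IsFrost d D g), ∫⁻ S, f S * g S ∂(sig d)

lemma le_capW {f g : Vec d → ℝ≥0∞} (hg : IsFrost d D g) :
    ∫⁻ S, f S * g S ∂(sig d) ≤ capW d D f :=
  le_iSup₂ (f := fun (g : Vec d → ℝ≥0∞) (_ : IsFrost d D g) => ∫⁻ S, f S * g S ∂(sig d)) g hg

lemma capW_le {f : Vec d → ℝ≥0∞} {B : ℝ≥0∞}
    (h : ∀ g, IsFrost d D g → ∫⁻ S, f S * g S ∂(sig d) ≤ B) : capW d D f ≤ B :=
  iSup₂_le h

lemma capW_mono {f f' : Vec d → ℝ≥0∞} (h : ∀ S, f S ≤ f' S) : capW d D f ≤ capW d D f' := by
  apply capW_le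
  intro g hg
  refine le_trans ?_ (le_capW hg)
  apply lintegral_mono
  intro S
  exact mul_le_mul_left (h S) _

lemma capW_const_mul {f : Vec d → ℝ≥0∞} (hf : Measurable f) (c : ℝ≥0∞) :
    capW d D (fun S => c * f S) ≤ c * capW d D f := by
  apply capW_le
  intro g hg
  simp only [mul_assoc]
  rw [lintegral_const_mul c (f := fun S => f S * g S) (hf.mul hg.1)]
  gcongr
  exact le_capW hg

lemma capW_tsum {ι : Type*} [Countable ι] {h : ι → Vec d → ℝ≥0∞} (hm : ∀ i, Measurable (h i)) :
    capW d D (fun S => ∑' i, h i S) ≤ ∑' i, capW d D (h i) := by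
  apply capW_le
  intro g hg
  simp only [← ENNReal.tsum_mul_right]
  rw [lintegral_tsum (f := fun i S => h i S * g S) (fun i => ((hm i).mul hg.1).aemeasurable)]
  exact ENNReal.tsum_le_tsum (fun i => le_capW hg)

lemma capW_sum {ι : Type*} (s : Finset ι) {h : ι → Vec d → ℝ≥0∞} (hm : ∀ i, Measurable (h i)) :
    capW d D (fun S => ∑ i ∈ s, h i S) ≤ ∑ i ∈ s, capW d D (h i) := by
  apply capW_le
  intro g hg
  simp only [Finset.sum_mul]
  rw [lintegral_finsetSum (f := fun i S => h i S * g S) _ (fun i _ => (hm i).mul hg.1)]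
  exact Finset.sum_le_sum (fun i _ => le_capW hg)

lemma IsFrost.indicator {g : Vec d → ℝ≥0∞} (hg : IsFrost d D g) {E : Set (Vec d)} (hE : MeasurableSet E) :
    IsFrost d D (E.indicator g) := by
  refine ⟨hg.1.indicator hE, ?_⟩
  intro x t ht
  refine le_trans ?_ (hg.2 x t ht)
  apply lintegral_mono
  intro S
  exact indicator_le_self _ _ _

/-- the mass of a Frostman density -/
lemma IsFrost.mass_le [Fact (0 < d)] {g : Vec d → ℝ≥0∞} (hg : IsFrost d D g) : ∫⁻ S, g S ∂(sig d) ≤ 1 := by
  have h1 := hg.2 0 1 one_pos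
  simp only [ENNReal.ofReal_one, one_pow] at h1
  refine le_trans (le_of_eq ?_) h1
  have h2 : (sig d).restrict (Metric.closedBall (0 : Vec d) 1) = sig d := by
    apply Measure.restrict_eq_self_of_ae_mem
    rw [ae_iff]
    exact sig_compl_closedBall
  rw [h2]

lemma capW_one_le [Fact (0 < d)] : capW d D (fun _ => 1) ≤ 1 := by
  apply capW_le
  intro g hg
  simp only [one_mul]
  exact hg.mass_le

end Frost

end Vale.Agent.Lib.P309
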