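import Mathlib
import Vale.Agent.Lib.P309.HFrost

/-! Measure of tubes around affine subspaces for Frostman measures. -/

open MeasureTheory ProbabilityTheory Set Module InnerProductSpace
open scoped ENNReal
set_option linter.unusedSectionVars false
set_option linter.unusedVariables false
set_option linter.unusedSimpArgs false
set_option linter.unnecessarySimpa false

namespace Vale.Agent.Lib.P309

section Tube
variable {d D : ℕ}

lemma tube_measure {ν : Measure (Vec d)} [IsFiniteMeasure ν] (x₀ : Vec d) (R : ℝ) (hR : 0 < R)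
    (W : Submodule ℝ (Vec d)) (z : Vec d) (r : Vec d → Vec d) (hr : Measurable r)
    (hrW : ∀ S, S - z - r S ∈ W) (t : ℝ) (ht : 0 < t) (B : ℝ≥0∞)
    (hB : ∀ x, ν (Metric.closedBall x (2 * t)) ≤ B) :
    ν (Metric.closedBall x₀ R ∩ {S | ‖r S‖ ≤ t}) ≤
      ENNReal.ofReal ((2 * (R + 2 * t) / t) ^ (finrank ℝ W)) * B := by
  classical
  set E := Metric.closedBall x₀ R ∩ {S | ‖r S‖ ≤ t} with hE
  have hEm : MeasurableSet E :=
    Metric.isClosed_closedBall.measurableSet.inter (measurableSet_le hr.norm measurable_const)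
  by_cases hne : E.Nonempty
  swap
  · rw [not_nonempty_iff_eq_empty.mp hne, measure_empty]
    exact zero_le
  obtain ⟨S₁, hS₁⟩ := hne
  set n := finrank ℝ W with hn
  let μ : Measure W := volume
  set p₁ : W := ⟨S₁ - z - r S₁, hrW S₁⟩ with hp₁
  set ρ : ℝ := 2 * (R + 2 * t) with hρ
  have hρ0 : 0 < ρ := by positivity
  set Q : Set W := Metric.closedBall p₁ ρ with hQ
  have hbpos : μ (Metric.ball 0 1) ≠ 0 := (Metric.measure_ball_pos μ 0 one_pos).ne'
  have hbtop : μ (Metric.ball 0 1) ≠ ⊤ := measure_ball_lt_top.ne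
  set b := μ (Metric.ball 0 1) with hb
  have hμQ : μ Q = ENNReal.ofReal (ρ ^ n) * b := by
    rw [hQ, Measure.addHaar_closedBall μ _ hρ0.le]
  have hμt : ∀ p : W, μ (Metric.closedBall p t) = ENNReal.ofReal (t ^ n) * b := by
    intro p
    rw [Measure.addHaar_closedBall μ _ ht.le]
  set Z : Set (Vec d × W) := {q | ‖q.1 - (z + (q.2 : Vec d))‖ ≤ 2 * t ∧ q.2 ∈ Q} with hZ
  have hZm : MeasurableSet Z := by
    have h0 : Z = {q : Vec d × W | ‖q.1 - (z + (q.2 : Vec d))‖ ≤ 2 * t} ∩ (Prod.snd ⁻¹' Q) := rfl
    rw [h0]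
    apply MeasurableSet.inter
    · apply measurableSet_le
      · apply Measurable.norm
        apply Measurable.sub measurable_fst
        exact measurable_const.add (measurable_subtype_coe.comp measurable_snd)
      · exact measurable_const
    · exact (Metric.isClosed_closedBall.measurableSet).preimage measurable_snd
  have h1 : ν E * (ENNReal.ofReal (t ^ n) * b) ≤ (ν.prod μ) Z := by
    rw [Measure.prod_apply hZm]
    calc ν E * (ENNReal.ofReal (t ^ n) * b)
        = ∫⁻ S in E, ENNReal.ofReal (t ^ n) * b ∂ν := by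
          rw [setLIntegral_const, mul_comm]
      _ ≤ ∫⁻ S in E, μ (Prod.mk S ⁻¹' Z) ∂ν := by
          apply setLIntegral_mono' hEm
          intro S hS
          rw [← hμt ⟨S - z - r S, hrW S⟩]
          apply measure_mono
          intro p hp
          have hS1 : ‖S - x₀‖ ≤ R := by simpa [dist_eq_norm] using hS.1
          have hS2 : ‖r S‖ ≤ t := hS.2
          have hS3 : ‖S₁ - x₀‖ ≤ R := by simpa [dist_eq_norm] using hS₁.1
          have hS4 : ‖r S₁‖ ≤ t := hS₁.2
          have hp' : ‖(p : Vec d) - (S - z - r S)‖ ≤ t := by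
            have := Metric.mem_closedBall.mp hp
            rw [dist_eq_norm] at this
            simpa using this
          have h3 : S - (z + (p : Vec d)) = r S - ((p : Vec d) - (S - z - r S)) := by abel
          have h4 : ‖S - (z + (p : Vec d))‖ ≤ 2 * t := by
            rw [h3]
            refine (norm_sub_le _ _).trans ?_
            linarith
          refine ⟨h4, ?_⟩
          rw [hQ, Metric.mem_closedBall, dist_eq_norm]
          have h6 : ‖(p - p₁ : W)‖ = ‖((p - p₁ : W) : Vec d)‖ := rfl
          have h7 : ‖S₁ - (z + (p₁ : Vec d))‖ ≤ t := by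
            have : S₁ - (z + (p₁ : Vec d)) = r S₁ := by
              simp only [hp₁]
              abel
            rw [this]
            exact hS4
          have h8 : ((p - p₁ : W) : Vec d) = (S - x₀) - (S₁ - x₀) - (S - (z + (p : Vec d))) + (S₁ - (z + (p₁ : Vec d))) := by
            push_cast
            abel
          rw [h6, h8]
          have h9 := norm_add_le ((S - x₀) - (S₁ - x₀) - (S - (z + (p : Vec d)))) (S₁ - (z + (p₁ : Vec d)))
          have h10 := norm_sub_le ((S - x₀) - (S₁ - x₀)) (S - (z + (p : Vec d)))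
          have h11 := norm_sub_le (S - x₀) (S₁ - x₀)
          rw [hρ]
          linarith
      _ ≤ ∫⁻ S, μ (Prod.mk S ⁻¹' Z) ∂ν := setLIntegral_le_lintegral _ _
  have h2 : (ν.prod μ) Z ≤ B * (ENNReal.ofReal (ρ ^ n) * b) := by
    rw [Measure.prod_apply_symm hZm, ← hμQ]
    calc ∫⁻ p, ν ((fun S => (S, p)) ⁻¹' Z) ∂μ ≤ ∫⁻ p, Q.indicator (fun _ => B) p ∂μ := by
          apply lintegral_mono
          intro p
          by_cases hp : p ∈ Q
          · rw [indicator_of_mem hp]
            refine le_trans (measure_mono ?_) (hB (z + (p : Vec d)))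
            intro S hS
            rw [Metric.mem_closedBall, dist_eq_norm]
            exact hS.1
          · rw [indicator_of_notMem hp]
            have : (fun S => (S, p)) ⁻¹' Z = ∅ := by
              ext S
              simp only [hZ, mem_preimage, Set.mem_ofPred_eq, mem_empty_iff_false, iff_false, not_and]
              intro _
              exact hp
            simp only [this, measure_empty]
            exact le_rfl
      _ = B * μ Q := by
          rw [lintegral_indicator Metric.isClosed_closedBall.measurableSet, setLIntegral_const]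
  have h3 := h1.trans h2
  have htn : 0 < t ^ n := by positivity
  have h4 : ν E * ENNReal.ofReal (t ^ n) ≤ B * ENNReal.ofReal (ρ ^ n) := by
    have h5 : ν E * ENNReal.ofReal (t ^ n) * b ≤ B * ENNReal.ofReal (ρ ^ n) * b := by
      rw [mul_assoc, mul_assoc]
      exact h3
    exact (ENNReal.mul_le_mul_iff_left hbpos hbtop).mp h5
  have h6 : ENNReal.ofReal ((2 * (R + 2 * t) / t) ^ n) = ENNReal.ofReal (ρ ^ n) / ENNReal.ofReal (t ^ n) := by
    rw [div_pow, ENNReal.ofReal_div_of_pos htn]
  rw [h6, mul_comm, ← mul_div_assoc]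
  rw [ENNReal.le_div_iff_mul_le (Or.inl (by simpa using htn)) (Or.inl ENNReal.ofReal_ne_top)]
  exact h4

/-- the integrated singular weight against a Frostman measure -/
lemma potential_bound {ν : Measure (Vec d)} [IsFiniteMeasure ν] (x₀ : Vec d) {R : ℝ} (hR : 0 < R)
    (hν1 : ν univ ≤ 1) (hν2 : ν (Metric.closedBall x₀ R)ᶜ = 0)
    (hν3 : ∀ (x : Vec d) (t : ℝ), 0 < t → ν (Metric.closedBall x t) ≤ ENNReal.ofReal (t / R) ^ D)
    {k w : ℕ} (hk : 5 * k ≤ 2 * D) (hw : k + w + 1 ≤ D)
    (W : Submodule ℝ (Vec d)) (hW : finrank ℝ W ≤ k) (z : Vec d) (r : Vec d → Vec d) (hr : Measurable r)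
    (hrW : ∀ S, S - z - r S ∈ W) :
    ∫⁻ S, ((ENNReal.ofReal ‖r S‖)⁻¹) ^ w ∂ν ≤ 3 * (ENNReal.ofReal (16 / R)) ^ w := by
  classical
  set τ : ℕ → ℝ := fun i => R * (1 / 2) ^ (i + 3) with hτ
  have hτpos : ∀ i, 0 < τ i := fun i => by positivity
  set E : ℕ → Set (Vec d) := fun i => Metric.closedBall x₀ R ∩ {S | ‖r S‖ ≤ τ i} with hE
  have hEm : ∀ i, MeasurableSet (E i) := fun i =>
    Metric.isClosed_closedBall.measurableSet.inter (measurableSet_le hr.norm measurable_const)
  set c : ℕ → ℝ≥0∞ := fun i => (ENNReal.ofReal (2 ^ (i + 4) / R)) ^ w with hc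
  have hae : ∀ᵐ S ∂ν, S ∈ Metric.closedBall x₀ R := by
    rw [ae_iff]
    exact hν2
  have hpt : ∀ S ∈ Metric.closedBall x₀ R, ((ENNReal.ofReal ‖r S‖)⁻¹) ^ w ≤
      (ENNReal.ofReal (8 / R)) ^ w + ∑' i, (E i).indicator (fun _ => c i) S := by
    intro S hS
    by_cases h0 : ‖r S‖ = 0
    · by_cases hw0 : w = 0
      · subst hw0
        simp
      · have h1 : ∀ i, S ∈ E i := fun i => ⟨hS, by
          simp only [Set.mem_ofPred_eq]
          rw [h0]
          exact (hτpos i).le⟩
        have h2 : ∀ i, (ENNReal.ofReal (16 / R)) ^ w ≤ (E i).indicator (fun _ => c i) S := by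
          intro i
          rw [indicator_of_mem (h1 i)]
          apply pow_le_pow_left₀ (zero_le)
          apply ENNReal.ofReal_le_ofReal
          apply div_le_div_of_nonneg_right _ hR.le
          calc (16:ℝ) = 2 ^ 4 := by norm_num
            _ ≤ 2 ^ (i + 4) := pow_le_pow_right₀ (by norm_num) (by omega)
        have h3 : ∑' i, (E i).indicator (fun _ => c i) S = ⊤ := by
          apply top_le_iff.mp
          calc ⊤ = ∑' i : ℕ, (ENNReal.ofReal (16 / R)) ^ w := by
                symm
                apply ENNReal.tsum_const_eq_top_of_ne_zero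
                apply pow_ne_zero
                simp only [ne_eq, ENNReal.ofReal_eq_zero, not_le]
                positivity
            _ ≤ _ := ENNReal.tsum_le_tsum h2
        rw [h3]
        simp
    · have hpos : 0 < ‖r S‖ := lt_of_le_of_ne (norm_nonneg _) (Ne.symm h0)
      by_cases hbig : R / 8 < ‖r S‖
      · refine le_trans ?_ le_self_add
        apply pow_le_pow_left₀ (zero_le)
        rw [← ENNReal.ofReal_inv_of_pos hpos]
        apply ENNReal.ofReal_le_ofReal
        rw [inv_le_comm₀ hpos (by positivity)]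
        rw [inv_div]
        exact hbig.le
      · push Not at hbig
        refine le_trans ?_ le_add_self
        set x := ‖r S‖ * 8 / R with hx
        have hx0 : 0 < x := by positivity
        have hx1 : x ≤ 1 := by
          rw [hx, div_le_one hR]
          linarith
        obtain ⟨i, hi1, hi2⟩ : ∃ i : ℕ, (1 / 2 : ℝ) ^ (i + 1) < x ∧ x ≤ (1 / 2) ^ i := by
          exact exists_nat_pow_near_of_lt_one hx0 hx1 (by norm_num) (by norm_num)
        refine le_trans ?_ (ENNReal.le_tsum i)
        have hRne : R ≠ 0 := hR.ne'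
        have hmem : S ∈ E i := by
          refine ⟨hS, ?_⟩
          simp only [Set.mem_ofPred_eq, hτ]
          have : ‖r S‖ = x * R / 8 := by
            rw [hx]
            field_simp
          rw [this]
          have h2 : x * R / 8 ≤ (1 / 2) ^ i * R / 8 := by gcongr
          refine h2.trans (le_of_eq ?_)
          rw [pow_add]
          ring
        rw [indicator_of_mem hmem]
        apply pow_le_pow_left₀ (zero_le)
        rw [← ENNReal.ofReal_inv_of_pos hpos]
        apply ENNReal.ofReal_le_ofReal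
        rw [inv_le_comm₀ hpos (by positivity), inv_div]
        have : ‖r S‖ = x * R / 8 := by
          rw [hx]
          field_simp
        rw [this]
        have h3 : R / 2 ^ (i + 4) = (1 / 2) ^ (i + 1) * R / 8 := by
          rw [one_div, inv_pow]
          field_simp
          ring
        rw [h3]
        gcongr
  have hmeasc : ∀ i, Measurable ((E i).indicator (fun _ : Vec d => c i)) := fun i =>
    measurable_const.indicator (hEm i)
  have hνE : ∀ i, ν (E i) ≤ ENNReal.ofReal (((2:ℝ) ^ (i + 5)) ^ k * ((1 / 2 : ℝ) ^ (i + 2)) ^ D) := by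
    intro i
    have h1 := tube_measure x₀ R hR W z r hr hrW (τ i) (hτpos i) (ENNReal.ofReal ((1 / 2 : ℝ) ^ (i + 2)) ^ D) (by
      intro x
      refine (hν3 x _ (by have := hτpos i; positivity)).trans ?_
      apply pow_le_pow_left₀ (zero_le)
      apply ENNReal.ofReal_le_ofReal
      simp only [hτ]
      rw [pow_add, pow_add]
      field_simp
      norm_num)
    refine h1.trans ?_
    rw [ENNReal.ofReal_mul (by positivity), ENNReal.ofReal_pow (by positivity) D]
    gcongr ?_ * _
    apply ENNReal.ofReal_le_ofReal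
    have hbase : 2 * (R + 2 * τ i) / τ i ≤ 2 ^ (i + 5) := by
      simp only [hτ]
      have h2 : (0:ℝ) < (1 / 2) ^ (i + 3) := by positivity
      rw [div_le_iff₀ (by positivity)]
      have h3 : ((2:ℝ)) ^ (i + 5) * (1 / 2) ^ (i + 3) = 4 := by
        rw [show i + 5 = (i + 3) + 2 by ring, pow_add, mul_right_comm, ← mul_pow]
        norm_num
      have h4 : (1 / 2 : ℝ) ^ (i + 3) ≤ 1 / 8 := by
        rw [pow_add]
        have : (1 / 2 : ℝ) ^ i ≤ 1 := pow_le_one₀ (by norm_num) (by norm_num)
        nlinarith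
      calc 2 * (R + 2 * (R * (1 / 2) ^ (i + 3))) = R * (2 + 4 * (1 / 2) ^ (i + 3)) := by ring
        _ ≤ R * 4 := by
          apply mul_le_mul_of_nonneg_left _ hR.le
          linarith
        _ = _ := by rw [show (2:ℝ) ^ (i + 5) * (R * (1 / 2) ^ (i + 3)) = R * ((2:ℝ) ^ (i + 5) * (1 / 2) ^ (i + 3)) by ring, h3]
    have hbase0 : 0 ≤ 2 * (R + 2 * τ i) / τ i := by
      have := hτpos i
      positivity
    calc (2 * (R + 2 * τ i) / τ i) ^ finrank ℝ W ≤ ((2:ℝ) ^ (i + 5)) ^ finrank ℝ W :=
          pow_le_pow_left₀ hbase0 hbase _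
      _ ≤ _ := pow_le_pow_right₀ (one_le_pow₀ (by norm_num)) hW
  have hterm : ∀ i, c i * ν (E i) ≤ (ENNReal.ofReal (16 / R)) ^ w * (2⁻¹) ^ i := by
    intro i
    have h2 : (2⁻¹ : ℝ≥0∞) = ENNReal.ofReal (1 / 2) := by
      rw [one_div, ENNReal.ofReal_inv_of_pos (by norm_num)]
      simp
    rw [h2]
    simp only [hc]
    refine (mul_le_mul' le_rfl (hνE i)).trans ?_
    rw [← ENNReal.ofReal_pow (by positivity), ← ENNReal.ofReal_mul (by positivity),
      ← ENNReal.ofReal_pow (by positivity), ← ENNReal.ofReal_pow (by norm_num),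
      ← ENNReal.ofReal_mul (by positivity)]
    apply ENNReal.ofReal_le_ofReal
    have h3 : ((2:ℝ) ^ (i + 4) / R) ^ w = (16 / R) ^ w * (2 ^ i) ^ w := by
      rw [pow_add]
      rw [show ((2:ℝ) ^ i * 2 ^ 4 / R) = (16 / R) * 2 ^ i by ring, mul_pow]
    rw [h3, mul_assoc]
    apply mul_le_mul_of_nonneg_left _ (by positivity)
    have h4 : ((2:ℝ) ^ i) ^ w * (((2:ℝ) ^ (i + 5)) ^ k * ((1 / 2 : ℝ) ^ (i + 2)) ^ D) =
        (2:ℝ) ^ (i * w + (i + 5) * k) * (1 / 2 : ℝ) ^ ((i + 2) * D) := by
      rw [← pow_mul, ← pow_mul, ← pow_mul, ← mul_assoc, ← pow_add]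
    rw [h4]
    have h9 : i * w + (i + 5) * k + i ≤ (i + 2) * D := by
      have h6 : i * (k + w + 1) ≤ i * D := Nat.mul_le_mul_left _ hw
      nlinarith
    set a := i * w + (i + 5) * k with ha
    set b := (i + 2) * D with hb
    calc (2:ℝ) ^ a * (1 / 2) ^ b = (2 * (1 / 2)) ^ a * (1 / 2) ^ (b - a) := by
          rw [mul_pow, mul_assoc, ← pow_add]
          congr 2
          omega
      _ = (1 / 2) ^ (b - a) := by norm_num
      _ ≤ (1 / 2) ^ i := pow_le_pow_of_le_one (by norm_num) (by norm_num) (by omega)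
  calc ∫⁻ S, ((ENNReal.ofReal ‖r S‖)⁻¹) ^ w ∂ν
      ≤ ∫⁻ S, (ENNReal.ofReal (8 / R)) ^ w + ∑' i, (E i).indicator (fun _ => c i) S ∂ν := by
        apply lintegral_mono_ae
        filter_upwards [hae] with S hS
        exact hpt S hS
    _ = (ENNReal.ofReal (8 / R)) ^ w * ν univ + ∑' i, c i * ν (E i) := by
        rw [lintegral_add_left measurable_const, lintegral_tsum (fun i => (hmeasc i).aemeasurable)]
        congr 1
        · simp
        · congr 1
          funext i
          rw [lintegral_indicator (hEm i), setLIntegral_const]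
    _ ≤ (ENNReal.ofReal (16 / R)) ^ w * 1 + ∑' i : ℕ, (ENNReal.ofReal (16 / R)) ^ w * (2⁻¹) ^ i := by
        refine add_le_add (mul_le_mul' ?_ hν1) (ENNReal.tsum_le_tsum hterm)
        apply pow_le_pow_left₀ (zero_le)
        apply ENNReal.ofReal_le_ofReal
        apply div_le_div_of_nonneg_right _ hR.le
        norm_num
    _ = _ := by
        rw [ENNReal.tsum_mul_left, ENNReal.tsum_geometric]
        have : (1 - (2⁻¹ : ℝ≥0∞))⁻¹ = 2 := by
          rw [ENNReal.one_sub_inv_two, inv_inv]
        rw [this, mul_one, mul_comm _ 2, show (3 : ℝ≥0∞) = 1 + 2 by norm_num, add_mul, one_mul]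

end Tube

end Vale.Agent.Lib.P309
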