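import Mathlib
import Vale.Agent.Lib.P309.HTube

/-! Small ball estimates for the labels of several rows under the Gaussian measure. -/

open MeasureTheory ProbabilityTheory Set Module InnerProductSpace
open scoped ENNReal
set_option linter.unusedSectionVars false
set_option linter.unusedVariables false
set_option linter.unusedSimpArgs false
set_option linter.unnecessarySimpa false

namespace Vale.Agent.Lib.P309

section GaussRows
variable {d : ℕ}

lemma gauss_proj_le {n : ℕ} (e : Fin n → Vec d) (he : Orthonormal ℝ e) (H : Vec n → ℝ≥0∞)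
    (hH : Measurable H) :
    ∫⁻ z, H (coordsE e z) ∂(stdGaussian (Vec d)) ≤
      ENNReal.ofReal ((2 * Real.pi) ^ (-(n : ℝ) / 2)) * ∫⁻ u : Vec n, H u := by
  have hm : Measurable (fun x : Vec n => ENNReal.ofReal (gDens (Vec n) x)) := by
    unfold gDens; fun_prop
  rw [← lintegral_map hH (measurable_coordsE e), map_coordsE_stdGaussian e he,
    stdGaussian_eq_withDensity, lintegral_withDensity_eq_lintegral_mul _ hm hH,
    ← lintegral_const_mul _ hH]
  apply lintegral_mono
  intro u
  simp only [Pi.mul_apply]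
  gcongr
  simp only [gDens, finrank_euclideanSpace_fin]
  have h1 : Real.exp (-‖u‖ ^ 2 / 2) ≤ 1 := by
    apply Real.exp_le_one_iff.mpr
    have := sq_nonneg ‖u‖
    linarith
  have h2 : (0:ℝ) < (2 * Real.pi) ^ (-(n : ℝ) / 2) := by positivity
  nlinarith

/-- density bound for the joint law of the labels of several rows against a Gaussian signal -/
theorem gauss_rows_le {n : ℕ} (x : ℕ → Vec d)
    (hx : ∀ j < n, gs x j ≠ 0) (H : (Fin n → ℝ) → ℝ≥0∞) (hH : Measurable H) :
    ∫⁻ z, H (fun j => inner ℝ (x j) z) ∂(stdGaussian (Vec d)) ≤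
      ENNReal.ofReal ((2 * Real.pi) ^ (-(n : ℝ) / 2)) *
        ((∏ j ∈ Finset.range n, ENNReal.ofReal ‖gs x j‖)⁻¹ * ∫⁻ y, H y) := by
  classical
  set e : Fin n → Vec d := fun j => gsN x j with he
  have heo : Orthonormal ℝ e := gsN_orthonormal n x hx
  set L := gsL n x with hL
  have hdet : L.det = ∏ j ∈ Finset.range n, ‖gs x j‖ := gsL_det n x hx
  have hdetpos : 0 < L.det := by
    rw [hdet]
    apply Finset.prod_pos
    intro j hj
    exact norm_pos_iff.mpr (hx j (Finset.mem_range.mp hj))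
  set H' : Vec n → ℝ≥0∞ := fun u => H (L.mulVec (WithLp.ofLp u)) with hH'
  have hLc : Continuous (fun v : Fin n → ℝ => L.mulVec v) := by fun_prop
  have hH'm : Measurable H' := by
    apply hH.comp
    exact hLc.measurable.comp (by fun_prop)
  have h1 : ∀ z : Vec d, H (fun j => inner ℝ (x j) z) = H' (coordsE e z) := by
    intro ω
    simp only [hH', coordsE]
    congr 1
    funext j
    rw [inner_row_expand n x hx j]
    simp only [Matrix.mulVec, dotProduct]
    rfl
  simp only [h1]
  refine (gauss_proj_le e heo H' hH'm).trans ?_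
  gcongr
  have h2 : ∫⁻ u : Vec n, H' u = ∫⁻ v : Fin n → ℝ, H (L.mulVec v) := by
    have := (PiLp.volume_preserving_ofLp (Fin n)).lintegral_comp (hH.comp hLc.measurable)
    simpa using this
  rw [h2]
  have h3 : ∫⁻ v : Fin n → ℝ, H (L.mulVec v) = ∫⁻ y, H y ∂(Measure.map (Matrix.toLin' L) volume) := by
    rw [lintegral_map hH (by
      have : (⇑(Matrix.toLin' L)) = fun v => L.mulVec v := by
        funext v; simp
      rw [this]
      exact hLc.measurable)]
    simp
  rw [h3, Real.map_matrix_volume_pi_eq_smul_volume_pi hdetpos.ne', lintegral_smul_measure]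
  apply le_of_eq
  rw [smul_eq_mul]
  congr 1
  rw [abs_of_pos (inv_pos.mpr hdetpos), ENNReal.ofReal_inv_of_pos hdetpos, hdet,
    ENNReal.ofReal_prod_of_nonneg (fun j _ => norm_nonneg _)]

/-- the inverse of the residual norm, as an extended number -/
noncomputable def ginv (x : ℕ → Vec d) (j : ℕ) : ℝ≥0∞ := (ENNReal.ofReal ‖gs x j‖)⁻¹

lemma measurable_ginv (j : ℕ) : Measurable (fun x : ℕ → Vec d => ginv x j) := by
  unfold ginv
  exact ((measurable_gs j).norm.ennreal_ofReal).inv

lemma ginv_ne_zero (x : ℕ → Vec d) (j : ℕ) : ginv x j ≠ 0 := by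
  simp [ginv]

/-- the small ball estimate for a Gaussian signal -/
lemma gauss_box_le (m : ℕ) (u : ℕ → Vec d) {ρ : ℝ} (hρ : 0 < ρ) :
    stdGaussian (Vec d) {z | ∀ j : Fin m, |inner ℝ (u j) z| ≤ ρ} ≤
      ENNReal.ofReal ρ ^ m * ∏ j ∈ Finset.range m, ginv u j := by
  classical
  by_cases hu : ∀ j < m, gs u j ≠ 0
  swap
  · push Not at hu
    obtain ⟨j, hj, h0⟩ := hu
    have hjm : j ∈ Finset.range m := Finset.mem_range.mpr hj
    have h1 : ∏ j ∈ Finset.range m, ginv u j = ⊤ := by
      rw [← Finset.mul_prod_erase _ _ hjm]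
      have h2 : ginv u j = ⊤ := by simp [ginv, h0]
      rw [h2, ENNReal.top_mul]
      rw [Finset.prod_ne_zero_iff]
      intro i _
      exact ginv_ne_zero u i
    rw [h1, ENNReal.mul_top]
    · exact le_top
    · apply pow_ne_zero
      simpa using hρ
  set H : (Fin m → ℝ) → ℝ≥0∞ := (Metric.closedBall (0 : Fin m → ℝ) ρ).indicator 1 with hH
  have hHm : Measurable H := measurable_one.indicator Metric.isClosed_closedBall.measurableSet
  have h1 := gauss_rows_le u hu H hHm
  have h2 : ∫⁻ y, H y = ENNReal.ofReal ((2 * ρ) ^ m) := by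
    rw [hH, lintegral_indicator_one Metric.isClosed_closedBall.measurableSet,
      Real.volume_pi_closedBall _ hρ.le]
    simp
  have h3 : stdGaussian (Vec d) {z | ∀ j : Fin m, |inner ℝ (u j) z| ≤ ρ} ≤
      ∫⁻ z, H (fun j => inner ℝ (u j) z) ∂(stdGaussian (Vec d)) := by
    have hS : MeasurableSet {z : Vec d | ∀ j : Fin m, |inner ℝ (u j) z| ≤ ρ} := by
      have : {z : Vec d | ∀ j : Fin m, |inner ℝ (u j) z| ≤ ρ} =
          ⋂ j : Fin m, {z : Vec d | |inner ℝ (u j) z| ≤ ρ} := by
        ext z; simp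
      rw [this]
      apply MeasurableSet.iInter
      intro j
      apply measurableSet_le
      · fun_prop
      · fun_prop
    rw [← lintegral_indicator_one hS]
    apply lintegral_mono
    intro z
    by_cases hz : z ∈ {z : Vec d | ∀ j : Fin m, |inner ℝ (u j) z| ≤ ρ}
    · rw [indicator_of_mem hz]
      have h4 : (fun j : Fin m => inner ℝ (u j) z) ∈ Metric.closedBall (0 : Fin m → ℝ) ρ := by
        rw [mem_closedBall_zero_iff, pi_norm_le_iff_of_nonneg hρ.le]
        intro j
        simpa using hz j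
      simp [hH, h4]
    · rw [indicator_of_notMem hz]
      exact zero_le
  refine h3.trans (h1.trans ?_)
  rw [h2]
  have h5 : (∏ j ∈ Finset.range m, ENNReal.ofReal ‖gs u j‖)⁻¹ = ∏ j ∈ Finset.range m, ginv u j := by
    simp only [ginv]
    rw [ENNReal.prod_inv_distrib]
    intro i _ j _ _
    exact Or.inr ENNReal.ofReal_ne_top
  rw [h5, mul_comm (∏ j ∈ Finset.range m, ginv u j), ← mul_assoc]
  gcongr
  rw [← ENNReal.ofReal_mul (by positivity), ← ENNReal.ofReal_pow hρ.le]
  apply ENNReal.ofReal_le_ofReal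
  have h6 : (2 * Real.pi) ^ (-(m : ℝ) / 2) = (((2 * Real.pi) ^ (-(1 / 2) : ℝ))) ^ m := by
    rw [← Real.rpow_natCast, ← Real.rpow_mul (by positivity)]
    congr 1
    ring
  rw [h6, mul_pow, ← mul_assoc, ← mul_pow]
  have h7 : (2 * Real.pi) ^ (-(1 / 2) : ℝ) * 2 ≤ 1 := by
    have h8 : (0:ℝ) < (2 * Real.pi) ^ (1 / 2 : ℝ) := by positivity
    have h9 : (2:ℝ) ≤ (2 * Real.pi) ^ (1 / 2 : ℝ) := by
      rw [← Real.sqrt_eq_rpow]
      apply Real.le_sqrt_of_sq_le
      have := Real.pi_gt_three
      nlinarith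
    rw [Real.rpow_neg (by positivity)]
    rw [inv_mul_le_iff₀ h8]
    linarith
  have h10 : (0:ℝ) ≤ (2 * Real.pi) ^ (-(1 / 2) : ℝ) * 2 := by positivity
  have h11 := pow_le_one₀ (n := m) h10 h7
  have h12 : 0 ≤ ρ ^ m := by positivity
  nlinarith

end GaussRows

end Vale.Agent.Lib.P309
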