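import Mathlib
import Vale.Agent.Lib.P309.HGaussBox
import Vale.Agent.Lib.P309.HFatou

/-! The replica moment bound: the moment of the mass of label boxes for a Frostman measure. -/

open MeasureTheory ProbabilityTheory Set Module InnerProductSpace
open scoped ENNReal
set_option linter.unusedSectionVars false
set_option linter.unusedVariables false
set_option linter.unusedSimpArgs false
set_option linter.unnecessarySimpa false

namespace Vale.Agent.Lib.P309

section Replica
variable {d D : ℕ}

/-- differences of a family with a base point, as an `ℕ`-indexed sequence -/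
noncomputable def diffRows {m : ℕ} (T : Fin m → Vec d) (S₀ : Vec d) : ℕ → Vec d :=
  rows (fun j => T j - S₀)

lemma diffRows_snoc {m : ℕ} (T : Fin m → Vec d) (z S₀ : Vec d) :
    diffRows (Fin.snoc T z : Fin (m + 1) → Vec d) S₀ = Function.update (diffRows T S₀) m (z - S₀) := by
  unfold diffRows
  rw [← rows_snoc]
  congr 1
  funext j
  refine Fin.lastCases ?_ (fun i => ?_) j
  · simp
  · simp

lemma measurable_diffRows {m : ℕ} (S₀ : Vec d) :
    Measurable (fun T : Fin m → Vec d => diffRows T S₀) := by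
  unfold diffRows
  apply (measurable_rows m).comp
  apply measurable_pi_iff.mpr
  intro j
  exact (measurable_pi_apply j).sub measurable_const

/-- the integrated singular weight of a frame of differences -/
theorem tbound {ν : Measure (Vec d)} [IsFiniteMeasure ν] (x₀ : Vec d) {R : ℝ} (hR : 0 < R)
    (hν1 : ν univ ≤ 1) (hν2 : ν (Metric.closedBall x₀ R)ᶜ = 0)
    (hν3 : ∀ (x : Vec d) (t : ℝ), 0 < t → ν (Metric.closedBall x t) ≤ ENNReal.ofReal (t / R) ^ D)
    {k w : ℕ} (hk : 5 * k ≤ 2 * D) (hw : k + w + 1 ≤ D) (m : ℕ) (hm : m ≤ k) (S₀ : Vec d) :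
    ∫⁻ T : Fin m → Vec d, (∏ j ∈ Finset.range m, ginv (diffRows T S₀) j) ^ w
        ∂(Measure.pi fun _ => ν) ≤ (3 * (ENNReal.ofReal (16 / R)) ^ w) ^ m := by
  classical
  induction m with
  | zero =>
    simp only [Finset.range_zero, Finset.prod_empty, one_pow, lintegral_const, pow_zero]
    rw [Measure.pi_of_empty _ (fun i => i.elim0)]
    simp
  | succ m ih =>
    have hm' := ih (by omega)
    have hmeas : Measurable (fun T : Fin (m + 1) → Vec d =>
        (∏ j ∈ Finset.range (m + 1), ginv (diffRows T S₀) j) ^ w) := by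
      apply Measurable.pow_const
      apply Finset.measurable_prod
      intro j _
      exact (measurable_ginv j).comp (measurable_diffRows S₀)
    rw [lintegral_pi_snoc _ m _ hmeas]
    have hstep : ∀ T : Fin m → Vec d,
        ∫⁻ z, (∏ j ∈ Finset.range (m + 1), ginv (diffRows (Fin.snoc T z : Fin (m + 1) → Vec d) S₀) j) ^ w ∂ν ≤
          (∏ j ∈ Finset.range m, ginv (diffRows T S₀) j) ^ w * (3 * (ENNReal.ofReal (16 / R)) ^ w) := by
      intro T
      set x := diffRows T S₀ with hx
      have h1 : ∀ z, (∏ j ∈ Finset.range (m + 1), ginv (diffRows (Fin.snoc T z : Fin (m + 1) → Vec d) S₀) j) ^ w =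
          (∏ j ∈ Finset.range m, ginv x j) ^ w * ((ENNReal.ofReal ‖gs (Function.update x m (z - S₀)) m‖)⁻¹) ^ w := by
        intro z
        rw [diffRows_snoc, ← hx, Finset.prod_range_succ, mul_pow]
        congr 2
        apply Finset.prod_congr rfl
        intro j hj
        have hj' : j < m := Finset.mem_range.mp hj
        unfold ginv
        rw [gs_congr (Function.update x m (z - S₀)) x j]
        intro i hi
        rw [Function.update_of_ne (by omega)]
      simp only [h1]
      set r : Vec d → Vec d := fun z => gs (Function.update x m (z - S₀)) m with hr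
      have hrm : Measurable r := by
        apply (measurable_gs m).comp
        exact (measurable_update x).comp (measurable_id.sub measurable_const)
      have hm1 : Measurable (fun z => ((ENNReal.ofReal ‖r z‖)⁻¹) ^ w) :=
        ((hrm.norm.ennreal_ofReal).inv).pow_const w
      rw [lintegral_const_mul _ hm1]
      gcongr
      set U : Submodule ℝ (Vec d) := Submodule.span ℝ (((Finset.Iio m).image (gs x) : Finset (Vec d)) : Set (Vec d)) with hU
      have hUdim : finrank ℝ U ≤ k := by
        refine (finrank_span_finset_le_card _).trans ?_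
        refine Finset.card_image_le.trans ?_
        simp only [Nat.card_Iio]
        omega
      have hrU : ∀ z, z - S₀ - r z ∈ U := by
        intro z
        have h1 := gramSchmidt_def'' ℝ (Function.update x m (z - S₀)) m
        simp only [Function.update_self, RCLike.ofReal_real_eq_id, id] at h1
        have h2 : z - S₀ - r z = ∑ i ∈ Finset.Iio m,
          (inner ℝ (gs (Function.update x m (z - S₀)) i) (z - S₀) / (‖gs (Function.update x m (z - S₀)) i‖) ^ 2) • gs (Function.update x m (z - S₀)) i := by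
          rw [sub_eq_iff_eq_add']
          simpa [hr, gs] using h1
        rw [h2]
        apply Submodule.sum_mem
        intro i hi
        apply Submodule.smul_mem
        have hi' : i < m := Finset.mem_Iio.mp hi
        have h3 : gs (Function.update x m (z - S₀)) i = gs x i := by
          apply gs_congr
          intro l hl
          rw [Function.update_of_ne (by omega)]
        rw [h3, hU]
        apply Submodule.subset_span
        simp only [Finset.coe_image, Set.mem_image]
        exact ⟨i, by simpa using hi', rfl⟩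
      exact potential_bound x₀ hR hν1 hν2 hν3 hk hw U hUdim S₀ r hrm hrU
    have hm2 : Measurable (fun T : Fin m → Vec d => (∏ j ∈ Finset.range m, ginv (diffRows T S₀) j) ^ w) := by
      apply Measurable.pow_const
      apply Finset.measurable_prod
      intro j _
      exact (measurable_ginv j).comp (measurable_diffRows S₀)
    calc _ ≤ ∫⁻ T : Fin m → Vec d, (∏ j ∈ Finset.range m, ginv (diffRows T S₀) j) ^ w * (3 * (ENNReal.ofReal (16 / R)) ^ w)
          ∂(Measure.pi fun _ => ν) := lintegral_mono hstep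
      _ = (∫⁻ T : Fin m → Vec d, (∏ j ∈ Finset.range m, ginv (diffRows T S₀) j) ^ w ∂(Measure.pi fun _ => ν)) *
            (3 * (ENNReal.ofReal (16 / R)) ^ w) := by
          rw [lintegral_mul_const _ hm2]
      _ ≤ (3 * (ENNReal.ofReal (16 / R)) ^ w) ^ m * (3 * (ENNReal.ofReal (16 / R)) ^ w) := by gcongr
      _ = _ := by rw [pow_succ]

/-- the mass of a box of labels -/
noncomputable def qR {w : ℕ} (ν : Measure (Vec d)) (r : ℝ) (z : (Fin w → Vec d) × (Fin w → ℝ)) : ℝ≥0∞ :=
  ν {S | dist (lab z.1 S) z.2 ≤ r}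

/-- the estimate for a fixed frame of signals -/
lemma frame_bound {w m : ℕ} {r : ℝ} (hr : 0 < r) (S₀ : Vec d) (T : Fin m → Vec d) :
    ((PP d w).prod (volume : Measure (Fin w → ℝ)))
      {z | dist (lab z.1 S₀) z.2 ≤ r ∧ ∀ j, dist (lab z.1 (T j)) z.2 ≤ r} ≤
    ENNReal.ofReal (2 * r) ^ w * (ENNReal.ofReal (2 * r) ^ m * ∏ j ∈ Finset.range m, ginv (diffRows T S₀) j) ^ w := by
  classical
  set B₁ : Set (Vec d) := {z | ∀ j : Fin m, |inner ℝ (diffRows T S₀ j) z| ≤ 2 * r} with hB₁
  have hB₁m : MeasurableSet B₁ := by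
    have : B₁ = ⋂ j : Fin m, {z : Vec d | |inner ℝ (diffRows T S₀ j) z| ≤ 2 * r} := by
      ext z; simp [hB₁]
    rw [this]
    apply MeasurableSet.iInter
    intro j
    apply measurableSet_le
    · fun_prop
    · fun_prop
  set B₀ : Set (Fin w → Vec d) := Set.pi univ (fun _ => B₁) with hB₀
  have hB₀m : MeasurableSet B₀ := MeasurableSet.univ_pi (fun _ => hB₁m)
  have hPP : PP d w B₀ = (stdGaussian (Vec d) B₁) ^ w := by
    rw [hB₀, PP, Measure.pi_pi]
    simp
  have hdiff : ∀ j : Fin m, diffRows T S₀ j = T j - S₀ := by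
    intro j
    simp [diffRows, rows]
  have hZ : MeasurableSet {z : (Fin w → Vec d) × (Fin w → ℝ) | dist (lab z.1 S₀) z.2 ≤ r ∧ ∀ j, dist (lab z.1 (T j)) z.2 ≤ r} := by
    have h1 : MeasurableSet {z : (Fin w → Vec d) × (Fin w → ℝ) | dist (lab z.1 S₀) z.2 ≤ r} := by
      apply measurableSet_le _ measurable_const
      exact (measurable_lab.comp (measurable_fst.prodMk measurable_const)).dist measurable_snd
    have h2 : MeasurableSet {z : (Fin w → Vec d) × (Fin w → ℝ) | ∀ j, dist (lab z.1 (T j)) z.2 ≤ r} := by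
      have : {z : (Fin w → Vec d) × (Fin w → ℝ) | ∀ j, dist (lab z.1 (T j)) z.2 ≤ r} =
          ⋂ j, {z | dist (lab z.1 (T j)) z.2 ≤ r} := by
        ext z; simp
      rw [this]
      apply MeasurableSet.iInter
      intro j
      apply measurableSet_le _ measurable_const
      exact (measurable_lab.comp (measurable_fst.prodMk measurable_const)).dist measurable_snd
    exact h1.inter h2
  rw [Measure.prod_apply hZ]
  have hsec : ∀ A : Fin w → Vec d, volume (Prod.mk A ⁻¹'
      {z : (Fin w → Vec d) × (Fin w → ℝ) | dist (lab z.1 S₀) z.2 ≤ r ∧ ∀ j, dist (lab z.1 (T j)) z.2 ≤ r}) ≤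
      B₀.indicator (fun _ => ENNReal.ofReal (2 * r) ^ w) A := by
    intro A
    by_cases hA : A ∈ B₀
    · rw [indicator_of_mem hA]
      have h1 : volume (Metric.closedBall (lab A S₀) r) = ENNReal.ofReal (2 * r) ^ w := by
        rw [Real.volume_pi_closedBall _ hr.le]
        simp [ENNReal.ofReal_pow (by positivity : 0 ≤ 2 * r)]
      rw [← h1]
      apply measure_mono
      intro y hy
      rw [Metric.mem_closedBall, dist_comm]
      exact hy.1
    · rw [indicator_of_notMem hA]
      have : Prod.mk A ⁻¹' {z : (Fin w → Vec d) × (Fin w → ℝ) | dist (lab z.1 S₀) z.2 ≤ r ∧ ∀ j, dist (lab z.1 (T j)) z.2 ≤ r} = ∅ := by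
        ext y
        simp only [mem_preimage, Set.mem_ofPred_eq, mem_empty_iff_false, iff_false, not_and]
        intro h1 h2
        apply hA
        intro l _ j
        rw [hdiff j]
        have h3 : dist (lab A (T j)) (lab A S₀) ≤ 2 * r := by
          have := dist_triangle_right (lab A (T j)) (lab A S₀) y
          linarith [h2 j]
        have h4 : |lab A (T j) l - lab A S₀ l| ≤ 2 * r := by
          rw [← Real.dist_eq]
          exact (dist_le_pi_dist _ _ l).trans h3
        have h5 : lab A (T j) l - lab A S₀ l = inner ℝ (T j - S₀) (A l) := by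
          simp only [lab]
          rw [inner_sub_left, real_inner_comm, real_inner_comm S₀]
        rw [← h5]
        exact h4
      rw [this, measure_empty]
  calc _ ≤ ∫⁻ A, B₀.indicator (fun _ => ENNReal.ofReal (2 * r) ^ w) A ∂(PP d w) := lintegral_mono hsec
    _ = ENNReal.ofReal (2 * r) ^ w * PP d w B₀ := by
        rw [lintegral_indicator hB₀m, setLIntegral_const]
    _ ≤ _ := by
        rw [hPP]
        gcongr
        exact gauss_box_le m (diffRows T S₀) (by positivity)

/-- the replica moment bound -/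
theorem replica {ν : Measure (Vec d)} [IsFiniteMeasure ν] (x₀ : Vec d) {R : ℝ} (hR : 0 < R)
    (hν1 : ν univ ≤ 1) (hν2 : ν (Metric.closedBall x₀ R)ᶜ = 0)
    (hν3 : ∀ (x : Vec d) (t : ℝ), 0 < t → ν (Metric.closedBall x t) ≤ ENNReal.ofReal (t / R) ^ D)
    {k w : ℕ} (hk : 5 * k ≤ 2 * D) (hw : k + w + 1 ≤ D) (m : ℕ) (hm : m ≤ k) {r : ℝ} (hr : 0 < r) :
    ∫⁻ z : (Fin w → Vec d) × (Fin w → ℝ), (ν {S | dist (lab z.1 S) z.2 ≤ r}) ^ (m + 1) ∂((PP d w).prod volume) ≤
      ENNReal.ofReal (2 * r) ^ (w * (m + 1)) * (3 * (ENNReal.ofReal (16 / R)) ^ w) ^ m := by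
  classical
  set P₁ : Measure ((Fin w → Vec d) × (Fin w → ℝ)) := (PP d w).prod volume with hP₁
  set νm : Measure (Fin m → Vec d) := Measure.pi fun _ => ν with hνm
  set P₂ : Measure (Vec d × (Fin m → Vec d)) := ν.prod νm with hP₂
  set Z₃ : Set (((Fin w → Vec d) × (Fin w → ℝ)) × (Vec d × (Fin m → Vec d))) :=
    {q | dist (lab q.1.1 q.2.1) q.1.2 ≤ r ∧ ∀ j, dist (lab q.1.1 (q.2.2 j)) q.1.2 ≤ r} with hZ₃
  have hZ₃m : MeasurableSet Z₃ := by
    have h1 : MeasurableSet {q : ((Fin w → Vec d) × (Fin w → ℝ)) × (Vec d × (Fin m → Vec d)) |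
        dist (lab q.1.1 q.2.1) q.1.2 ≤ r} := by
      apply measurableSet_le _ measurable_const
      apply Measurable.dist
      · exact measurable_lab.comp ((measurable_fst.comp measurable_fst).prodMk (measurable_fst.comp measurable_snd))
      · exact measurable_snd.comp measurable_fst
    have h2 : MeasurableSet {q : ((Fin w → Vec d) × (Fin w → ℝ)) × (Vec d × (Fin m → Vec d)) |
        ∀ j, dist (lab q.1.1 (q.2.2 j)) q.1.2 ≤ r} := by
      have : {q : ((Fin w → Vec d) × (Fin w → ℝ)) × (Vec d × (Fin m → Vec d)) |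
          ∀ j, dist (lab q.1.1 (q.2.2 j)) q.1.2 ≤ r} =
          ⋂ j, {q | dist (lab q.1.1 (q.2.2 j)) q.1.2 ≤ r} := by
        ext q; simp
      rw [this]
      apply MeasurableSet.iInter
      intro j
      apply measurableSet_le _ measurable_const
      apply Measurable.dist
      · exact measurable_lab.comp ((measurable_fst.comp measurable_fst).prodMk
          ((measurable_pi_apply j).comp (measurable_snd.comp measurable_snd)))
      · exact measurable_snd.comp measurable_fst
    exact h1.inter h2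
  have hE : ∀ z : (Fin w → Vec d) × (Fin w → ℝ), MeasurableSet {S : Vec d | dist (lab z.1 S) z.2 ≤ r} := by
    intro z
    apply measurableSet_le _ measurable_const
    exact (measurable_lab.comp (measurable_const.prodMk measurable_id)).dist measurable_const
  have ha : ∀ z : (Fin w → Vec d) × (Fin w → ℝ), (ν {S | dist (lab z.1 S) z.2 ≤ r}) ^ (m + 1) = P₂ (Prod.mk z ⁻¹' Z₃) := by
    intro z
    have : Prod.mk z ⁻¹' Z₃ = {S | dist (lab z.1 S) z.2 ≤ r} ×ˢ (Set.pi univ fun _ : Fin m => {S | dist (lab z.1 S) z.2 ≤ r}) := by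
      ext p
      simp [hZ₃]
    rw [this, hP₂, Measure.prod_prod, hνm, Measure.pi_pi]
    simp [pow_succ, mul_comm]
  simp only [ha]
  rw [← Measure.prod_apply hZ₃m, Measure.prod_apply_symm hZ₃m]
  have hsec : ∀ p : Vec d × (Fin m → Vec d), P₁ ((fun z => (z, p)) ⁻¹' Z₃) ≤
      ENNReal.ofReal (2 * r) ^ w * (ENNReal.ofReal (2 * r) ^ m * ∏ j ∈ Finset.range m, ginv (diffRows p.2 p.1) j) ^ w := by
    intro p
    exact frame_bound hr p.1 p.2
  have hm1 : Measurable (fun p : Vec d × (Fin m → Vec d) =>
      (∏ j ∈ Finset.range m, ginv (diffRows p.2 p.1) j) ^ w) := by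
    apply Measurable.pow_const
    apply Finset.measurable_prod
    intro j _
    apply (measurable_ginv j).comp
    apply (measurable_rows m).comp
    apply measurable_pi_iff.mpr
    intro i
    exact ((measurable_pi_apply i).comp measurable_snd).sub measurable_fst
  have h3 : ∫⁻ p : Vec d × (Fin m → Vec d), (∏ j ∈ Finset.range m, ginv (diffRows p.2 p.1) j) ^ w ∂P₂ ≤
      (3 * (ENNReal.ofReal (16 / R)) ^ w) ^ m := by
    rw [hP₂, lintegral_prod _ hm1.aemeasurable]
    calc _ ≤ ∫⁻ S₀ : Vec d, (3 * (ENNReal.ofReal (16 / R)) ^ w) ^ m ∂ν := by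
          apply lintegral_mono
          intro S₀
          exact tbound x₀ hR hν1 hν2 hν3 hk hw m hm S₀
      _ = (3 * (ENNReal.ofReal (16 / R)) ^ w) ^ m * ν univ := by simp
      _ ≤ (3 * (ENNReal.ofReal (16 / R)) ^ w) ^ m * 1 := by gcongr
      _ = _ := mul_one _
  calc _ ≤ ∫⁻ p : Vec d × (Fin m → Vec d), ENNReal.ofReal (2 * r) ^ w *
        (ENNReal.ofReal (2 * r) ^ m * ∏ j ∈ Finset.range m, ginv (diffRows p.2 p.1) j) ^ w ∂P₂ :=
        lintegral_mono hsec
    _ = ENNReal.ofReal (2 * r) ^ (w * (m + 1)) * ∫⁻ p : Vec d × (Fin m → Vec d), (∏ j ∈ Finset.range m, ginv (diffRows p.2 p.1) j) ^ w ∂P₂ := by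
        simp only [mul_pow, ← mul_assoc]
        rw [lintegral_const_mul _ hm1]
        congr 1
        rw [← pow_mul, ← pow_add]
        congr 1
        ring
    _ ≤ _ := by gcongr

/-- the main density estimate for a Frostman measure -/
theorem lambda_le {ν : Measure (Vec d)} [IsFiniteMeasure ν] (x₀ : Vec d) {R : ℝ} (hR : 0 < R)
    (hν1 : ν univ ≤ 1) (hν2 : ν (Metric.closedBall x₀ R)ᶜ = 0)
    (hν3 : ∀ (x : Vec d) (t : ℝ), 0 < t → ν (Metric.closedBall x t) ≤ ENNReal.ofReal (t / R) ^ D)
    {k w : ℕ} (hk : 5 * k ≤ 2 * D) (hw : k + w + 1 ≤ D) (m : ℕ) (hm : m ≤ k)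
    (C : Set ((Fin w → Vec d) × (Fin w → ℝ))) (t : ℝ≥0∞) (ht0 : t ≠ 0) (htT : t ≠ ⊤) :
    ((PP d w).prod ν) {p | (p.1, lab p.1 p.2) ∈ C} ≤
      t * ((PP d w).prod volume) C + (t ^ m)⁻¹ * (3 * (ENNReal.ofReal (16 / R)) ^ w) ^ m := by
  apply fatou_all (PP d w) ν (fun A S => lab A S) measurable_lab m _ _ C t ht0 htT
  intro r hr
  exact replica x₀ hR hν1 hν2 hν3 hk hw m hm hr

end Replica

end Vale.Agent.Lib.P309
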