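import Mathlib
import Vale.Agent.Lib.P309.HReplica

/-! The truncation to a bounded set of labels: its volume and the tail estimate. -/

open MeasureTheory ProbabilityTheory Set Module InnerProductSpace
open scoped ENNReal
set_option linter.unusedSectionVars false
set_option linter.unusedVariables false
set_option linter.unusedSimpArgs false
set_option linter.unnecessarySimpa false

namespace Vale.Agent.Lib.P309

section Trunc
variable {d : ℕ}

lemma lintegral_quarterWeight {F : Type*} [NormedAddCommGroup F] [InnerProductSpace ℝ F] [FiniteDimensional ℝ F]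
    [MeasurableSpace F] [BorelSpace F] :
    ∫⁻ x : F, ENNReal.ofReal (Real.exp (-‖x‖ ^ 2 / 4)) =
      ENNReal.ofReal ((4 * Real.pi) ^ ((finrank ℝ F : ℝ) / 2)) := by
  have hint : Integrable (fun x : F => Real.exp (-‖x‖ ^ 2 / 4)) := by
    have h := GaussianFourier.integrable_cexp_neg_mul_sq_norm_add (V := F) (b := (1/4 : ℂ))
      (by simp) 0 0
    have h2 := h.re
    refine h2.congr (Filter.Eventually.of_forall fun x => ?_)
    simp only [RCLike.re_to_complex, zero_mul, add_zero]
    have : -(1 / 4 : ℂ) * (‖x‖ : ℂ) ^ 2 = ((-‖x‖ ^ 2 / 4 : ℝ) : ℂ) := by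
      push_cast; ring
    rw [this, Complex.exp_ofReal_re]
  rw [← ofReal_integral_eq_lintegral_ofReal hint
    (Filter.Eventually.of_forall fun x => (Real.exp_pos _).le)]
  have h := GaussianFourier.integral_rexp_neg_mul_sq_norm (V := F) (b := (1/4 : ℝ)) (by norm_num)
  have e : ∀ x : F, Real.exp (-(1/4 : ℝ) * ‖x‖ ^ 2) = Real.exp (-‖x‖ ^ 2 / 4) := by
    intro x; congr 1; ring
  simp only [e] at h
  rw [h]
  congr 2
  field_simp

/-- the exponential moment of the square of one coordinate -/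
lemma row_unit_moment (e : Vec d) (he : ‖e‖ = 1) :
    ∫⁻ z, ENNReal.ofReal (Real.exp ((inner ℝ z e) ^ 2 / 4)) ∂(stdGaussian (Vec d)) = ENNReal.ofReal (√2) := by
  set E : Fin 1 → Vec d := fun _ => e with hE
  have hEo : Orthonormal ℝ E := by
    rw [orthonormal_iff_ite]
    intro i j
    have : i = j := Subsingleton.elim _ _
    subst this
    simp [hE, he]
  have h1 : ∀ z : Vec d, ‖coordsE E z‖ ^ 2 = (inner ℝ z e) ^ 2 := by
    intro z
    rw [EuclideanSpace.real_norm_sq_eq]
    simp [coordsE, hE, real_inner_comm]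
  have h2 : ∀ z : Vec d, ENNReal.ofReal (Real.exp ((inner ℝ z e) ^ 2 / 4)) =
      (fun v : Vec 1 => ENNReal.ofReal (Real.exp (‖v‖ ^ 2 / 4))) (coordsE E z) := by
    intro z
    simp only [h1]
  simp only [h2]
  have hm : Measurable (fun v : Vec 1 => ENNReal.ofReal (Real.exp (‖v‖ ^ 2 / 4))) := by fun_prop
  have hgm : Measurable (fun x : Vec 1 => ENNReal.ofReal (gDens (Vec 1) x)) := by
    unfold gDens; fun_prop
  rw [← lintegral_map hm (measurable_coordsE E), map_coordsE_stdGaussian E hEo,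
    stdGaussian_eq_withDensity, lintegral_withDensity_eq_lintegral_mul _ hgm hm]
  have h3 : ∀ v : Vec 1, ((fun x : Vec 1 => ENNReal.ofReal (gDens (Vec 1) x)) * fun v : Vec 1 => ENNReal.ofReal (Real.exp (‖v‖ ^ 2 / 4))) v =
      ENNReal.ofReal ((2 * Real.pi) ^ (-(1:ℝ) / 2)) * ENNReal.ofReal (Real.exp (-‖v‖ ^ 2 / 4)) := by
    intro v
    simp only [Pi.mul_apply, gDens, finrank_euclideanSpace_fin, Fintype.card_fin, Nat.cast_one]
    rw [← ENNReal.ofReal_mul (by positivity), ← ENNReal.ofReal_mul (by positivity), mul_assoc,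
      ← Real.exp_add]
    congr 3
    ring
  simp only [h3]
  rw [lintegral_const_mul _ (by fun_prop), lintegral_quarterWeight, ← ENNReal.ofReal_mul (by positivity)]
  congr 1
  simp only [finrank_euclideanSpace_fin, Fintype.card_fin, Nat.cast_one]
  have h4 : (4 * Real.pi) ^ ((1:ℝ) / 2) = (2:ℝ) ^ ((1:ℝ) / 2) * (2 * Real.pi) ^ ((1:ℝ) / 2) := by
    rw [← Real.mul_rpow (by norm_num) (by positivity)]
    congr 1
    ring
  rw [h4, mul_comm ((2:ℝ) ^ ((1:ℝ) / 2)), ← mul_assoc, ← Real.rpow_add (by positivity)]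
  norm_num
  rw [Real.sqrt_eq_rpow]

/-- the exponential moment for one row -/
lemma row_moment (u : Vec d) {R : ℝ} (hR : 0 < R) (hu : ‖u‖ ≤ R) :
    ∫⁻ z, ENNReal.ofReal (Real.exp ((inner ℝ z u) ^ 2 / (4 * R ^ 2))) ∂(stdGaussian (Vec d)) ≤ ENNReal.ofReal (√2) := by
  by_cases h0 : u = 0
  · subst h0
    simp only [inner_zero_right]
    simp
  have hupos : 0 < ‖u‖ := norm_pos_iff.mpr h0
  set e : Vec d := (‖u‖)⁻¹ • u with he
  have hen : ‖e‖ = 1 := by
    rw [he, norm_smul, norm_inv, norm_norm]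
    field_simp
  rw [← row_unit_moment e hen]
  apply lintegral_mono
  intro z
  apply ENNReal.ofReal_le_ofReal
  apply Real.exp_le_exp.mpr
  have h1 : inner ℝ z u = ‖u‖ * inner ℝ z e := by
    rw [he, inner_smul_right]
    field_simp
  rw [h1, div_le_div_iff₀ (by positivity) (by norm_num)]
  have h2 : 0 ≤ (inner ℝ z e) ^ 2 := sq_nonneg _
  have h3 : ‖u‖ ^ 2 ≤ R ^ 2 := by gcongr
  nlinarith

lemma lintegral_prod_pi {X : Type*} [MeasurableSpace X] (μ : Measure X) [SigmaFinite μ]
    (h : X → ℝ≥0∞) (hm : Measurable h) (n : ℕ) :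
    ∫⁻ A : Fin n → X, ∏ l, h (A l) ∂(Measure.pi fun _ => μ) = (∫⁻ z, h z ∂μ) ^ n := by
  induction n with
  | zero =>
    rw [Measure.pi_of_empty _ (fun i => i.elim0)]
    simp
  | succ n ih =>
    have hmeas : Measurable (fun A : Fin (n + 1) → X => ∏ l, h (A l)) :=
      Finset.measurable_prod _ (fun l _ => hm.comp (measurable_pi_apply l))
    rw [lintegral_pi_snoc _ n _ hmeas]
    have h1 : ∀ (A' : Fin n → X) (z : X), ∏ l, h ((Fin.snoc A' z : Fin (n + 1) → X) l) =
        (∏ l, h (A' l)) * h z := by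
      intro A' z
      rw [Fin.prod_univ_castSucc]
      simp
    simp only [h1]
    have hmeas' : Measurable (fun A : Fin n → X => ∏ l, h (A l)) :=
      Finset.measurable_prod _ (fun l _ => hm.comp (measurable_pi_apply l))
    simp only [lintegral_const_mul _ hm]
    rw [lintegral_mul_const _ hmeas', ih, pow_succ]

/-- the bounded set of labels around the prediction from a centre -/
def gset {w : ℕ} (x : Vec d) (R : ℝ) : Set ((Fin w → Vec d) × (Fin w → ℝ)) :=
  {p | ∑ l, (p.2 l - inner ℝ (p.1 l) x) ^ 2 ≤ 4 * w * R ^ 2}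

lemma measurableSet_gset {w : ℕ} (x : Vec d) (R : ℝ) : MeasurableSet (gset (w := w) x R) := by
  unfold gset
  apply measurableSet_le
  · apply Finset.measurable_sum
    intro l _
    fun_prop
  · exact measurable_const

/-- the tail estimate: exact labels from a signal close to the centre stay in the bounded set -/
lemma gset_tail {w : ℕ} (hw : 0 < w) (x S : Vec d) {R : ℝ} (hR : 0 < R) (hS : S ∈ Metric.closedBall x R) :
    PP d w {A | (A, lab A S) ∉ gset x R} ≤ ENNReal.ofReal (3 / 5) ^ w := by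
  set u := S - x with hu
  have hun : ‖u‖ ≤ R := by simpa [dist_eq_norm] using hS
  set h : Vec d → ℝ≥0∞ := fun z => ENNReal.ofReal (Real.exp ((inner ℝ z u) ^ 2 / (4 * R ^ 2))) with hh
  have hm : Measurable h := by
    rw [hh]
    fun_prop
  set Φ : (Fin w → Vec d) → ℝ≥0∞ := fun A => ∏ l, h (A l) with hΦ
  have hΦm : Measurable Φ := Finset.measurable_prod _ (fun l _ => hm.comp (measurable_pi_apply l))
  have hint : ∫⁻ A, Φ A ∂(PP d w) ≤ ENNReal.ofReal (√2) ^ w := by
    rw [hΦ, PP, lintegral_prod_pi _ h hm]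
    gcongr
    exact row_moment u hR hun
  have hΦval : ∀ A, Φ A = ENNReal.ofReal (Real.exp ((∑ l, (inner ℝ (A l) u) ^ 2) / (4 * R ^ 2))) := by
    intro A
    simp only [hΦ, hh]
    rw [← ENNReal.ofReal_prod_of_nonneg (fun l _ => (Real.exp_pos _).le), ← Real.exp_sum, Finset.sum_div]
  have hsub : {A | (A, lab A S) ∉ gset x R} ⊆ {A | ENNReal.ofReal (Real.exp w) ≤ Φ A} := by
    intro A hA
    simp only [Set.mem_ofPred_eq]
    rw [hΦval]
    apply ENNReal.ofReal_le_ofReal
    apply Real.exp_le_exp.mpr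
    rw [le_div_iff₀ (by positivity)]
    have h1 : ¬ (∑ l, (lab A S l - inner ℝ (A l) x) ^ 2 ≤ 4 * w * R ^ 2) := hA
    push Not at h1
    have h2 : ∀ l, lab A S l - inner ℝ (A l) x = inner ℝ (A l) u := by
      intro l
      simp only [lab, hu]
      rw [inner_sub_right]
    simp only [h2] at h1
    linarith
  have hmul := mul_meas_ge_le_lintegral (μ := PP d w) hΦm (ENNReal.ofReal (Real.exp w))
  have hpos : ENNReal.ofReal (Real.exp w) ≠ 0 := by
    simp [Real.exp_pos]
  have hfin : ENNReal.ofReal (Real.exp w) ≠ ⊤ := ENNReal.ofReal_ne_top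
  have h3 : ENNReal.ofReal (Real.exp w) * PP d w {A | (A, lab A S) ∉ gset x R} ≤ ENNReal.ofReal (√2) ^ w :=
    (mul_le_mul' le_rfl (measure_mono hsub)).trans (hmul.trans hint)
  have h4 : ENNReal.ofReal (√2) ^ w ≤ ENNReal.ofReal (Real.exp w) * ENNReal.ofReal (3 / 5) ^ w := by
    rw [← ENNReal.ofReal_pow (by positivity), ← ENNReal.ofReal_pow (by positivity),
      ← ENNReal.ofReal_mul (by positivity)]
    apply ENNReal.ofReal_le_ofReal
    have h5 : Real.exp w = (Real.exp 1) ^ w := by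
      rw [← Real.exp_nat_mul, mul_one]
    rw [h5, ← mul_pow]
    apply pow_le_pow_left₀ (by positivity)
    have h6 : √2 ≤ 1.42 := by
      rw [Real.sqrt_le_left (by norm_num)]
      norm_num
    have h7 := Real.exp_one_gt_d9
    nlinarith
  exact (ENNReal.mul_le_mul_iff_right hpos hfin).mp (h3.trans h4)

/-- volume of a large ball -/
lemma volume_sqrt_ball (w : ℕ) :
    volume (Metric.closedBall (0 : Vec w) (√w)) ≤
      ENNReal.ofReal (Real.exp ((w : ℝ) / 2)) * ENNReal.ofReal ((2 * Real.pi) ^ ((w : ℝ) / 2)) := by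
  have h1 := lintegral_gaussWeight (F := Vec w)
  rw [finrank_euclideanSpace_fin] at h1
  rw [← h1, ← lintegral_const_mul _ (by fun_prop)]
  rw [← lintegral_indicator_one Metric.isClosed_closedBall.measurableSet]
  apply lintegral_mono
  intro x
  by_cases hx : x ∈ Metric.closedBall (0 : Vec w) (√w)
  · rw [indicator_of_mem hx]
    simp only [Pi.one_apply]
    rw [← ENNReal.ofReal_mul (by positivity), ← Real.exp_add]
    rw [← ENNReal.ofReal_one]
    apply ENNReal.ofReal_le_ofReal
    apply Real.one_le_exp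
    have h2 : ‖x‖ ≤ √w := by simpa using hx
    have h3 : ‖x‖ ^ 2 ≤ (w : ℝ) := by
      calc ‖x‖ ^ 2 ≤ (√(w : ℝ)) ^ 2 := by gcongr
        _ = (w : ℝ) := Real.sq_sqrt (by positivity)
    linarith
  · rw [indicator_of_notMem hx]
    exact zero_le

/-- the section of the bounded set has bounded volume -/
lemma volume_gset_sect {w : ℕ} (hw : 0 < w) (x : Vec d) {R : ℝ} (hR : 0 < R) (A : Fin w → Vec d) :
    volume (Prod.mk A ⁻¹' gset x R) ≤ ENNReal.ofReal (9 * R) ^ w := by
  set a : Fin w → ℝ := fun l => inner ℝ (A l) x with ha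
  have hwR : (0:ℝ) < w := by exact_mod_cast hw
  set ρ : ℝ := 2 * √w * R with hρ
  have hρpos : 0 < ρ := by positivity
  set a' : Vec w := WithLp.toLp 2 a with ha'
  have hS : (WithLp.ofLp : Vec w → Fin w → ℝ) ⁻¹' (Prod.mk A ⁻¹' gset x R) = Metric.closedBall a' ρ := by
    ext u
    simp only [mem_preimage, gset, Set.mem_ofPred_eq, Metric.mem_closedBall]
    rw [dist_eq_norm, ← pow_le_pow_iff_left₀ (norm_nonneg _) hρpos.le (two_ne_zero),
      EuclideanSpace.real_norm_sq_eq]
    simp only [ha', PiLp.sub_apply, hρ, Real.norm_eq_abs, sq_abs, mul_pow, Real.sq_sqrt hwR.le]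
    have : (2:ℝ) ^ 2 * (w:ℝ) * R ^ 2 = 4 * w * R ^ 2 := by ring
    rw [this]
  have hmp := PiLp.volume_preserving_ofLp (ι := Fin w)
  have hmeas : MeasurableSet (Prod.mk A ⁻¹' gset (w := w) x R) :=
    measurable_prodMk_left (measurableSet_gset x R)
  have h1 := hmp.measure_preimage hmeas.nullMeasurableSet
  rw [← h1, hS]
  let μ : Measure (Vec w) := volume
  have h2 : volume (Metric.closedBall a' ρ) = ENNReal.ofReal (ρ ^ w) * μ (Metric.ball 0 1) := by
    have := Measure.addHaar_closedBall μ a' hρpos.le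
    simpa using this
  have hsq : 0 ≤ √(w:ℝ) := Real.sqrt_nonneg _
  have h3 : volume (Metric.closedBall (0 : Vec w) (√w)) = ENNReal.ofReal ((√w) ^ w) * μ (Metric.ball 0 1) := by
    have := Measure.addHaar_closedBall μ (0 : Vec w) hsq
    simpa using this
  have hsqpos : 0 < √(w:ℝ) := Real.sqrt_pos.mpr hwR
  have h4 : ENNReal.ofReal (ρ ^ w) = ENNReal.ofReal ((2 * R) ^ w) * ENNReal.ofReal ((√w) ^ w) := by
    rw [← ENNReal.ofReal_mul (by positivity), ← mul_pow]
    congr 2
    rw [hρ]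
    ring
  rw [h2, h4, mul_assoc, ← h3]
  refine (mul_le_mul' le_rfl (volume_sqrt_ball w)).trans ?_
  rw [← ENNReal.ofReal_mul (by positivity), ← ENNReal.ofReal_mul (by positivity),
    ← ENNReal.ofReal_pow (by positivity)]
  apply ENNReal.ofReal_le_ofReal
  set s := Real.exp (1 / 2) with hs
  set q := (2 * Real.pi) ^ ((1:ℝ) / 2) with hq
  have hs0 : 0 < s := Real.exp_pos _
  have hq0 : 0 < q := by positivity
  have hs2 : s ^ 2 = Real.exp 1 := by
    rw [hs, ← Real.exp_nat_mul]
    norm_num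
  have hq2 : q ^ 2 = 2 * Real.pi := by
    rw [hq, ← Real.rpow_natCast, ← Real.rpow_mul (by positivity)]
    norm_num
  have h5 : Real.exp ((w : ℝ) / 2) = s ^ w := by
    rw [hs, ← Real.exp_nat_mul]
    congr 1
    ring
  have h6 : (2 * Real.pi) ^ ((w : ℝ) / 2) = q ^ w := by
    rw [hq, ← Real.rpow_natCast, ← Real.rpow_mul (by positivity)]
    congr 1
    ring
  rw [h5, h6, ← mul_pow, ← mul_pow]
  apply pow_le_pow_left₀ (by positivity)
  have h7 : 2 * (s * q) ≤ 9 := by
    have h8 : (2 * (s * q)) ^ 2 ≤ 9 ^ 2 := by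
      have h9 : (2 * (s * q)) ^ 2 = 4 * (s ^ 2 * q ^ 2) := by ring
      rw [h9, hs2, hq2]
      have h10 := Real.exp_one_lt_d9
      have h11 := Real.pi_lt_d2
      have h12 : 0 < Real.exp 1 := Real.exp_pos 1
      nlinarith
    exact (pow_le_pow_iff_left₀ (by positivity) (by norm_num) two_ne_zero).mp h8
  nlinarith

lemma volume_gset {w : ℕ} (hw : 0 < w) (x : Vec d) {R : ℝ} (hR : 0 < R) :
    ((PP d w).prod (volume : Measure (Fin w → ℝ))) (gset x R) ≤ ENNReal.ofReal (9 * R) ^ w := by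
  rw [Measure.prod_apply (measurableSet_gset x R)]
  calc _ ≤ ∫⁻ A, ENNReal.ofReal (9 * R) ^ w ∂(PP d w) := lintegral_mono (fun A => volume_gset_sect hw x hR A)
    _ = _ := by simp

end Trunc

end Vale.Agent.Lib.P309
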