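import Mathlib
import Vale.Agent.Lib.P309.HTrunc

/-! The key lemma: partitions of the bounded set of labels have small total capacity. -/

open MeasureTheory ProbabilityTheory Set Module InnerProductSpace
open scoped ENNReal
set_option linter.unusedSectionVars false
set_option linter.unusedVariables false
set_option linter.unusedSimpArgs false
set_option linter.unnecessarySimpa false

namespace Vale.Agent.Lib.P309

section Key
variable {d D : ℕ}

lemma isFrost_zero : IsFrost d D (fun _ => 0) := by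
  refine ⟨measurable_const, ?_⟩
  intro x t ht
  simp

/-- a sum of capacities is attained along families of Frostman densities -/
lemma sum_capW_le {V : Type*} [Fintype V] (f : V → Vec d → ℝ≥0∞) (X : ℝ≥0∞)
    (h : ∀ g : V → Vec d → ℝ≥0∞, (∀ v, IsFrost d D (g v)) →
      ∑ v, ∫⁻ S, f v S * g v S ∂(sig d) ≤ X) :
    ∑ v, capW d D (f v) ≤ X := by
  classical
  by_cases hX : X = ⊤
  · rw [hX]; exact le_top
  have key : ∀ s : Finset V, ∀ g : V → Vec d → ℝ≥0∞, (∀ v, IsFrost d D (g v)) →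
      ∑ v ∈ s, capW d D (f v) + ∑ v ∈ Finset.univ \ s, ∫⁻ S, f v S * g v S ∂(sig d) ≤ X := by
    intro s
    induction s using Finset.induction_on with
    | empty =>
      intro g hg
      simpa using h g hg
    | insert a s ha ih =>
      intro g hg
      rw [Finset.sum_insert ha]
      set Y := ∑ v ∈ s, capW d D (f v) + ∑ v ∈ Finset.univ \ insert a s, ∫⁻ S, f v S * g v S ∂(sig d) with hY
      have h1 : ∀ g', IsFrost d D g' → ∫⁻ S, f a S * g' S ∂(sig d) + Y ≤ X := by
        intro g' hg'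
        have h2 := ih (Function.update g a g') (by
          intro v
          by_cases hv : v = a
          · subst hv
            simpa using hg'
          · rw [Function.update_of_ne hv]
            exact hg v)
        refine le_trans (le_of_eq ?_) h2
        have h3 : Finset.univ \ s = insert a (Finset.univ \ insert a s) := by
          ext v
          by_cases hv : v = a
          · subst hv
            simp [ha]
          · simp [hv]
        rw [h3, Finset.sum_insert (by simp)]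
        simp only [Function.update_self]
        have h4 : ∑ v ∈ Finset.univ \ insert a s, ∫⁻ S, f v S * Function.update g a g' v S ∂(sig d) =
            ∑ v ∈ Finset.univ \ insert a s, ∫⁻ S, f v S * g v S ∂(sig d) := by
          apply Finset.sum_congr rfl
          intro v hv
          have hva : v ≠ a := by
            intro e
            subst e
            simp at hv
          rw [Function.update_of_ne hva]
        rw [h4, hY]
        ring
      have hYX : Y ≤ X := le_trans le_add_self (h1 _ isFrost_zero)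
      have hYT : Y ≠ ⊤ := ne_top_of_le_ne_top hX hYX
      have h5 : capW d D (f a) ≤ X - Y := by
        apply capW_le
        intro g' hg'
        exact ENNReal.le_sub_of_add_le_right hYT (h1 g' hg')
      calc _ = capW d D (f a) + Y := by rw [hY, add_assoc]
        _ ≤ (X - Y) + Y := by gcongr
        _ = X := tsub_add_cancel_of_le hYX
  have := key Finset.univ (fun _ _ => 0) (fun _ => isFrost_zero)
  simpa using this

/-- the key estimate against a family of Frostman densities -/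
theorem key_sum {w k : ℕ} {V : Type*} [Fintype V] (hw0 : 0 < w) (x₀ : Vec d) {R : ℝ} (hR : 0 < R)
    (C : V → Set ((Fin w → Vec d) × (Fin w → ℝ))) (hCm : ∀ v, MeasurableSet (C v))
    (hdisj : Pairwise (Function.onFun Disjoint C)) (hsub : ∀ v, C v ⊆ gset x₀ R)
    (g : V → Vec d → ℝ≥0∞) (hg : ∀ v, IsFrost d D (g v))
    (hk : 5 * k ≤ 2 * D) (hw : k + w + 1 ≤ D) (m : ℕ) (hm : m ≤ k)
    (τ : ℝ≥0∞) (hτ0 : τ ≠ 0) (hτT : τ ≠ ⊤) (hN : (Fintype.card V : ℝ≥0∞) ≤ τ ^ (m + 1)) :
    ∑ v, ∫⁻ S, (Metric.closedBall x₀ R).indicator (gW (C v)) S * g v S ∂(sig d) ≤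
      ENNReal.ofReal R ^ D * (τ * (3 * ENNReal.ofReal 144 ^ w + 1)) := by
  classical
  set B := Metric.closedBall x₀ R with hB
  have hBm : MeasurableSet B := Metric.isClosed_closedBall.measurableSet
  set a : ℝ≥0∞ := ENNReal.ofReal R ^ D with ha
  have ha0 : a ≠ 0 := pow_ne_zero _ (by simpa using hR)
  have haT : a ≠ ⊤ := ENNReal.pow_ne_top ENNReal.ofReal_ne_top
  have hgBm : ∀ v, Measurable (B.indicator (g v)) := fun v => (hg v).1.indicator hBm
  set ν : V → Measure (Vec d) := fun v => a⁻¹ • (sig d).withDensity (B.indicator (g v)) with hν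
  have hνapp : ∀ v (E : Set (Vec d)), MeasurableSet E → ν v E = a⁻¹ * ∫⁻ S in E, B.indicator (g v) S ∂(sig d) := by
    intro v E hE
    simp only [hν, Measure.smul_apply, smul_eq_mul]
    rw [withDensity_apply _ hE]
  have hν1 : ∀ v, ν v univ ≤ 1 := by
    intro v
    rw [hνapp v univ MeasurableSet.univ, Measure.restrict_univ, lintegral_indicator hBm]
    have := (hg v).2 x₀ R hR
    calc a⁻¹ * ∫⁻ S in B, g v S ∂(sig d) ≤ a⁻¹ * a := by gcongr
      _ = 1 := ENNReal.inv_mul_cancel ha0 haT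
  have hνfin : ∀ v, IsFiniteMeasure (ν v) := fun v => ⟨lt_of_le_of_lt (hν1 v) ENNReal.one_lt_top⟩
  have hν2 : ∀ v, ν v Bᶜ = 0 := by
    intro v
    rw [hνapp v _ hBm.compl]
    have : ∫⁻ S in Bᶜ, B.indicator (g v) S ∂(sig d) = ∫⁻ S in Bᶜ, 0 ∂(sig d) :=
      setLIntegral_congr_fun hBm.compl (fun S hS => indicator_of_notMem hS _)
    rw [this]
    simp
  have hν3 : ∀ v (x : Vec d) (t : ℝ), 0 < t → ν v (Metric.closedBall x t) ≤ ENNReal.ofReal (t / R) ^ D := by
    intro v x t ht
    rw [hνapp v _ Metric.isClosed_closedBall.measurableSet]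
    have h1 : ∫⁻ S in Metric.closedBall x t, B.indicator (g v) S ∂(sig d) ≤ ENNReal.ofReal t ^ D := by
      refine le_trans (lintegral_mono fun S => indicator_le_self _ _ _) ((hg v).2 x t ht)
    calc a⁻¹ * ∫⁻ S in Metric.closedBall x t, B.indicator (g v) S ∂(sig d) ≤ a⁻¹ * ENNReal.ofReal t ^ D := by gcongr
      _ = _ := by
        rw [ha, ENNReal.ofReal_div_of_pos hR, div_eq_mul_inv, mul_pow, ENNReal.inv_pow, mul_comm]
  have hint : ∀ v, ∫⁻ S, B.indicator (gW (C v)) S * g v S ∂(sig d) =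
      a * ((PP d w).prod (ν v)) {p | (p.1, lab p.1 p.2) ∈ C v} := by
    intro v
    have hS : MeasurableSet {p : (Fin w → Vec d) × Vec d | (p.1, lab p.1 p.2) ∈ C v} :=
      (measurable_fst.prodMk measurable_lab) (hCm v)
    haveI := hνfin v
    rw [Measure.prod_apply_symm hS]
    have h1 : ∀ S : Vec d, PP d w ((fun A => (A, S)) ⁻¹' {p : (Fin w → Vec d) × Vec d | (p.1, lab p.1 p.2) ∈ C v}) = gW (C v) S := fun S => rfl
    simp only [h1]
    simp only [hν]
    rw [lintegral_smul_measure, lintegral_withDensity_eq_lintegral_mul _ (hgBm v) (measurable_gW (hCm v))]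
    rw [smul_eq_mul, ← mul_assoc, ENNReal.mul_inv_cancel ha0 haT, one_mul]
    apply lintegral_congr
    intro S
    by_cases hSB : S ∈ B
    · simp [hSB, mul_comm]
    · simp [hSB]
  simp only [hint]
  set Ξ₁ : ℝ≥0∞ := 3 * ENNReal.ofReal (16 / R) ^ w with hΞ₁
  have hΞ0 : Ξ₁ ≠ 0 := by
    apply mul_ne_zero (by norm_num)
    apply pow_ne_zero
    simp only [ne_eq, ENNReal.ofReal_eq_zero, not_le]
    positivity
  have hΞT : Ξ₁ ≠ ⊤ := ENNReal.mul_ne_top (by norm_num) (ENNReal.pow_ne_top ENNReal.ofReal_ne_top)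
  set t : ℝ≥0∞ := τ * Ξ₁ with ht
  have ht0 : t ≠ 0 := mul_ne_zero hτ0 hΞ0
  have htT : t ≠ ⊤ := ENNReal.mul_ne_top hτT hΞT
  set μZ : Measure ((Fin w → Vec d) × (Fin w → ℝ)) := (PP d w).prod volume with hμZ
  have hl : ∀ v, ((PP d w).prod (ν v)) {p | (p.1, lab p.1 p.2) ∈ C v} ≤ t * μZ (C v) + (t ^ m)⁻¹ * Ξ₁ ^ m := by
    intro v
    haveI := hνfin v
    exact lambda_le x₀ hR (hν1 v) (hν2 v) (hν3 v) hk hw m hm (C v) t ht0 htT
  have hsum : ∑ v, μZ (C v) ≤ ENNReal.ofReal (9 * R) ^ w := by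
    have h1 : ∑ v, μZ (C v) = μZ (⋃ v ∈ (Finset.univ : Finset V), C v) := by
      rw [measure_biUnion_finset]
      · intro u _ v _ huv
        exact hdisj huv
      · intro v _
        exact hCm v
    rw [h1]
    refine le_trans (measure_mono ?_) (volume_gset hw0 x₀ hR)
    intro p hp
    simp only [Set.mem_iUnion] at hp
    obtain ⟨v, _, hv⟩ := hp
    exact hsub v hv
  have hnum1 : t * ENNReal.ofReal (9 * R) ^ w = τ * (3 * ENNReal.ofReal 144 ^ w) := by
    rw [ht, mul_assoc, hΞ₁, mul_assoc, ← mul_pow, ← ENNReal.ofReal_mul (by positivity)]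
    congr 4
    field_simp
    norm_num
  have hnum2 : (t ^ m)⁻¹ * Ξ₁ ^ m = (τ ^ m)⁻¹ := by
    rw [ht, mul_pow, ENNReal.mul_inv (Or.inl (pow_ne_zero _ hτ0)) (Or.inl (ENNReal.pow_ne_top hτT)), mul_assoc,
      ENNReal.inv_mul_cancel (pow_ne_zero _ hΞ0) (ENNReal.pow_ne_top hΞT), mul_one]
  have hnum3 : (Fintype.card V : ℝ≥0∞) * (τ ^ m)⁻¹ ≤ τ := by
    calc (Fintype.card V : ℝ≥0∞) * (τ ^ m)⁻¹ ≤ τ ^ (m + 1) * (τ ^ m)⁻¹ := by gcongr
      _ = τ * (τ ^ m * (τ ^ m)⁻¹) := by rw [pow_succ']; ring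
      _ = τ := by rw [ENNReal.mul_inv_cancel (pow_ne_zero _ hτ0) (ENNReal.pow_ne_top hτT), mul_one]
  calc ∑ v, a * ((PP d w).prod (ν v)) {p | (p.1, lab p.1 p.2) ∈ C v}
      ≤ ∑ v, a * (t * μZ (C v) + (τ ^ m)⁻¹) := by
        apply Finset.sum_le_sum
        intro v _
        rw [← hnum2]
        gcongr
        exact hl v
    _ = a * (t * ∑ v, μZ (C v) + (Fintype.card V : ℝ≥0∞) * (τ ^ m)⁻¹) := by
        rw [← Finset.mul_sum, Finset.sum_add_distrib, ← Finset.mul_sum]
        simp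
    _ ≤ a * (t * ENNReal.ofReal (9 * R) ^ w + τ) := by gcongr
    _ = _ := by
        rw [hnum1]
        ring

/-- the key estimate for capacities -/
theorem key_cap {w k : ℕ} {V : Type*} [Fintype V] (hw0 : 0 < w) (x₀ : Vec d) {R : ℝ} (hR : 0 < R)
    (C : V → Set ((Fin w → Vec d) × (Fin w → ℝ))) (hCm : ∀ v, MeasurableSet (C v))
    (hdisj : Pairwise (Function.onFun Disjoint C)) (hsub : ∀ v, C v ⊆ gset x₀ R)
    (hk : 5 * k ≤ 2 * D) (hw : k + w + 1 ≤ D) (m : ℕ) (hm : m ≤ k)
    (τ : ℝ≥0∞) (hτ0 : τ ≠ 0) (hτT : τ ≠ ⊤) (hN : (Fintype.card V : ℝ≥0∞) ≤ τ ^ (m + 1)) :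
    ∑ v, capW d D ((Metric.closedBall x₀ R).indicator (gW (C v))) ≤
      ENNReal.ofReal R ^ D * (τ * (3 * ENNReal.ofReal 144 ^ w + 1)) := by
  apply sum_capW_le
  intro g hg
  exact key_sum hw0 x₀ hR C hCm hdisj hsub g hg hk hw m hm τ hτ0 hτT hN

end Key

end Vale.Agent.Lib.P309
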