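import Mathlib
import Vale.Agent.Lib.P309.HKey

/-! A covering lemma dual to the capacity: sets of small capacity are covered by balls of small
total `D`-dimensional content, up to a set of small measure. -/

open MeasureTheory ProbabilityTheory Set Module InnerProductSpace
open scoped ENNReal
set_option linter.unusedSectionVars false
set_option linter.unusedVariables false
set_option linter.unusedSimpArgs false
set_option linter.unnecessarySimpa false
set_option linter.style.haveILetI false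

namespace Vale.Agent.Lib.P309

section Cover
variable {d D : ℕ}

lemma isFrost_const {C' : ℝ≥0∞}
    (hC : ∀ (x : Vec d) (t : ℝ), 0 < t → sig d (Metric.closedBall x t) ≤ C' * ENNReal.ofReal t ^ D) :
    IsFrost d D (fun _ => C'⁻¹) := by
  refine ⟨measurable_const, ?_⟩
  intro x t ht
  rw [setLIntegral_const]
  calc C'⁻¹ * sig d (Metric.closedBall x t) ≤ C'⁻¹ * (C' * ENNReal.ofReal t ^ D) := by gcongr; exact hC x t ht
    _ = C'⁻¹ * C' * ENNReal.ofReal t ^ D := by rw [mul_assoc]
    _ ≤ 1 * ENNReal.ofReal t ^ D := by gcongr; exact ENNReal.inv_mul_le_one _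
    _ = _ := one_mul _

/-- a nearly optimal Frostman density -/
lemma exists_near_max {f : Vec d → ℝ≥0∞} (hfT : capW d D f ≠ ⊤) {δ : ℝ≥0∞} (hδ0 : δ ≠ 0) (hδT : δ ≠ ⊤) :
    ∃ g, IsFrost d D g ∧ capW d D f ≤ ∫⁻ S, f S * g S ∂(sig d) + δ := by
  by_contra h
  push Not at h
  have h1 : capW d D f ≤ capW d D f - δ :=
    capW_le (fun g hg => ENNReal.le_sub_of_add_le_right hδT (h g hg).le)
  have h2 : capW d D f ≠ 0 := by
    have h3 := h _ isFrost_zero
    intro h4
    rw [h4] at h3
    simp at h3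
  exact absurd (ENNReal.sub_lt_self hfT h2 hδ0) (not_lt.mpr h1)

lemma measurable_ball_mass (ν : Measure (Vec d)) [IsFiniteMeasure ν] (t : ℝ) :
    Measurable (fun S : Vec d => ν (Metric.closedBall S t)) := by
  set Z : Set (Vec d × Vec d) := {q | dist q.2 q.1 ≤ t} with hZ
  have hZm : MeasurableSet Z :=
    measurableSet_le (measurable_snd.dist measurable_fst) measurable_const
  have : (fun S : Vec d => ν (Metric.closedBall S t)) = fun S => ν (Prod.mk S ⁻¹' Z) := by
    funext S
    congr 1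
  rw [this]
  exact measurable_measure_prodMk_left hZm

/-- the covering lemma -/
theorem cover_set [Fact (0 < d)] (hD : 0 < D) {C' : ℝ≥0∞} (hC'T : C' ≠ ⊤) (hC'0 : C' ≠ 0)
    (hC : ∀ (x : Vec d) (t : ℝ), 0 < t → sig d (Metric.closedBall x t) ≤ C' * ENNReal.ofReal t ^ D)
    {E : Set (Vec d)} (hE : MeasurableSet E) {δ₁ : ℝ≥0∞} (hδ0 : δ₁ ≠ 0) (hδT : δ₁ ≠ ⊤) :
    ∃ (ι : Type) (_ : Countable ι) (x : ι → Vec d) (R : ι → ℝ), (∀ b, 0 < R b) ∧
      sig d (E \ ⋃ b, Metric.closedBall (x b) (R b)) ≤ δ₁ ∧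
      ∑' b, ENNReal.ofReal (R b) ^ D ≤ 2 * 16 ^ D * capW d D (E.indicator 1) := by
  classical
  set f : Vec d → ℝ≥0∞ := E.indicator 1 with hf
  have hfm : Measurable f := measurable_one.indicator hE
  set cap := capW d D f with hcap
  have hcap1 : cap ≤ 1 := by
    refine le_trans (capW_mono ?_) capW_one_le
    intro S
    by_cases hS : S ∈ E <;> simp [hf, hS]
  have hcapT : cap ≠ ⊤ := ne_top_of_le_ne_top ENNReal.one_ne_top hcap1
  have h2C0 : 2 * C' ≠ 0 := mul_ne_zero (by norm_num) hC'0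
  have h2CT : 2 * C' ≠ ⊤ := ENNReal.mul_ne_top (by norm_num) hC'T
  set δ₂ := δ₁ / (2 * C') with hδ₂
  have hδ₂0 : δ₂ ≠ 0 := by
    simp [hδ₂, ENNReal.div_eq_zero_iff, hδ0, h2CT]
  have hδ₂T : δ₂ ≠ ⊤ := by
    simp only [hδ₂, ne_eq]
    rw [ENNReal.div_eq_top]
    rintro (⟨-, h⟩ | ⟨h, -⟩)
    · exact h2C0 h
    · exact hδT h
  obtain ⟨g, hg, hgmax⟩ := exists_near_max hcapT hδ₂0 hδ₂T
  set g₀ : Vec d → ℝ≥0∞ := E.indicator g with hg₀
  have hg₀m : Measurable g₀ := hg.1.indicator hE
  have hfg : ∀ S, f S * g S = g₀ S := by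
    intro S
    by_cases hS : S ∈ E <;> simp [hf, hg₀, hS]
  set ν₀ := (sig d).withDensity g₀ with hν₀
  have hν₀univ : ν₀ univ = ∫⁻ S, g₀ S ∂(sig d) := by
    rw [hν₀, withDensity_apply _ MeasurableSet.univ, Measure.restrict_univ]
  have hg₀int : ∫⁻ S, g₀ S ∂(sig d) ≤ cap := by
    have := le_capW (f := f) hg
    simpa only [hfg] using this
  have hν₀cap : ν₀ univ ≤ cap := by rw [hν₀univ]; exact hg₀int
  have hν₀1 : ν₀ univ ≤ 1 := hν₀cap.trans hcap1
  haveI : IsFiniteMeasure ν₀ := ⟨lt_of_le_of_lt hν₀1 ENNReal.one_lt_top⟩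
  have hg₀T : ∫⁻ S, g₀ S ∂(sig d) ≠ ⊤ := ne_top_of_le_ne_top hcapT hg₀int
  set K : ℝ≥0∞ := 2 * 4 ^ D with hK
  have hK0 : K ≠ 0 := mul_ne_zero (by norm_num) (pow_ne_zero _ (by norm_num))
  have hKT : K ≠ ⊤ := ENNReal.mul_ne_top (by norm_num) (ENNReal.pow_ne_top (by norm_num))
  set κ : ℝ≥0∞ := K⁻¹ with hκ
  have hκK : κ * K = 1 := ENNReal.inv_mul_cancel hK0 hKT
  have hκ4 : κ * 4 ^ D = 2⁻¹ := by
    rw [hκ, hK, ENNReal.mul_inv (Or.inl (by norm_num)) (Or.inl (by norm_num)), mul_assoc,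
      ENNReal.inv_mul_cancel (pow_ne_zero _ (by norm_num)) (ENNReal.pow_ne_top (by norm_num)), mul_one]
  set U : Set (Vec d) := {S | ∀ n : ℤ, ν₀ (Metric.closedBall S ((2:ℝ) ^ n)) ≤ κ * ENNReal.ofReal ((2:ℝ) ^ n) ^ D} with hU
  have hUm : MeasurableSet U := by
    have : U = ⋂ n : ℤ, {S | ν₀ (Metric.closedBall S ((2:ℝ) ^ n)) ≤ κ * ENNReal.ofReal ((2:ℝ) ^ n) ^ D} := by
      ext S; simp [hU]
    rw [this]
    apply MeasurableSet.iInter
    intro n
    exact measurableSet_le (measurable_ball_mass ν₀ _) measurable_const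
  have hUbd : ∀ S ∈ U, ∀ t : ℝ, 0 < t → ν₀ (Metric.closedBall S t) ≤ κ * (2 ^ D * ENNReal.ofReal t ^ D) := by
    intro S hS t ht
    obtain ⟨n, hn1, hn2⟩ := exists_mem_Ioc_zpow ht (one_lt_two (α := ℝ))
    calc ν₀ (Metric.closedBall S t) ≤ ν₀ (Metric.closedBall S ((2:ℝ) ^ (n + 1))) :=
          measure_mono (Metric.closedBall_subset_closedBall hn2)
      _ ≤ κ * ENNReal.ofReal ((2:ℝ) ^ (n + 1)) ^ D := hS (n + 1)
      _ ≤ κ * (2 ^ D * ENNReal.ofReal t ^ D) := by
          gcongr
          rw [← mul_pow]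
          gcongr
          have h1 : (2:ℝ) ^ (n + 1) ≤ 2 * t := by
            rw [zpow_add_one₀ (by norm_num)]
            nlinarith
          calc ENNReal.ofReal ((2:ℝ) ^ (n + 1)) ≤ ENNReal.ofReal (2 * t) := ENNReal.ofReal_le_ofReal h1
            _ = 2 * ENNReal.ofReal t := by
              rw [ENNReal.ofReal_mul (by norm_num)]
              simp
  -- any Frostman density has small mass on the good part
  have hgood : ∀ g', IsFrost d D g' → 2⁻¹ * ∫⁻ S in E ∩ U, g' S ∂(sig d) ≤ δ₂ := by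
    intro g' hg'
    have hEU : MeasurableSet (E ∩ U) := hE.inter hUm
    set h : Vec d → ℝ≥0∞ := fun S => g₀ S + 2⁻¹ * (E ∩ U).indicator g' S with hh
    have hhm : Measurable h := hg₀m.add (measurable_const.mul (hg'.1.indicator hEU))
    have hfrost : IsFrost d D h := by
      refine ⟨hhm, ?_⟩
      intro x t ht
      set B := Metric.closedBall x t with hB
      have hBm : MeasurableSet B := Metric.isClosed_closedBall.measurableSet
      have h1 : ∫⁻ S in B, h S ∂(sig d) = ν₀ B + 2⁻¹ * ∫⁻ S in B, (E ∩ U).indicator g' S ∂(sig d) := by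
        simp only [hh]
        rw [lintegral_add_left hg₀m, lintegral_const_mul _ (hg'.1.indicator hEU), hν₀, withDensity_apply _ hBm]
      rw [h1]
      by_cases hne : (B ∩ (E ∩ U)).Nonempty
      · obtain ⟨S, hS1, hS2⟩ := hne
        have h2 : ν₀ B ≤ 2⁻¹ * ENNReal.ofReal t ^ D := by
          have hsub : B ⊆ Metric.closedBall S (2 * t) := by
            intro y hy
            rw [Metric.mem_closedBall] at hy hS1 ⊢
            have := dist_triangle_right y S x
            linarith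
          refine (measure_mono hsub).trans ((hUbd S hS2.2 (2 * t) (by positivity)).trans ?_)
          rw [ENNReal.ofReal_mul (by norm_num)]
          simp only [ENNReal.ofReal_ofNat]
          have h24 : (2:ℝ≥0∞) ^ D * 2 ^ D = 4 ^ D := by
            rw [← mul_pow]
            norm_num
          rw [mul_pow, ← mul_assoc (2 ^ D) (2 ^ D), h24, ← mul_assoc, hκ4]
        have h3 : ∫⁻ S in B, (E ∩ U).indicator g' S ∂(sig d) ≤ ENNReal.ofReal t ^ D :=
          (lintegral_mono fun S => indicator_le_self _ _ _).trans (hg'.2 x t ht)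
        calc ν₀ B + 2⁻¹ * ∫⁻ S in B, (E ∩ U).indicator g' S ∂(sig d)
            ≤ 2⁻¹ * ENNReal.ofReal t ^ D + 2⁻¹ * ENNReal.ofReal t ^ D := by gcongr
          _ = _ := by
            rw [← add_mul, ENNReal.inv_two_add_inv_two, one_mul]
      · have h2 : ∫⁻ S in B, (E ∩ U).indicator g' S ∂(sig d) = ∫⁻ S in B, 0 ∂(sig d) := by
          apply setLIntegral_congr_fun hBm
          intro S hS
          apply indicator_of_notMem
          intro hS2
          exact hne ⟨S, hS, hS2⟩
        rw [h2]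
        simp only [lintegral_const, zero_mul, mul_zero, add_zero]
        rw [hν₀, withDensity_apply _ hBm]
        exact (lintegral_mono fun S => indicator_le_self _ _ _).trans (hg.2 x t ht)
    have h4 := le_capW (f := f) hfrost
    have h5 : ∫⁻ S, f S * h S ∂(sig d) = ∫⁻ S, g₀ S ∂(sig d) + 2⁻¹ * ∫⁻ S in E ∩ U, g' S ∂(sig d) := by
      rw [← lintegral_indicator hEU, ← lintegral_const_mul _ (hg'.1.indicator hEU),
        ← lintegral_add_left hg₀m]
      apply lintegral_congr
      intro S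
      by_cases hS : S ∈ E
      · simp [hf, hh, hS]
      · have hS' : S ∉ E ∩ U := fun h => hS h.1
        simp [hf, hh, hg₀, hS, hS']
    rw [h5] at h4
    have h6 := h4.trans hgmax
    simp only [hfg] at h6
    exact (ENNReal.add_le_add_iff_left hg₀T).mp h6
  -- hence the good part has small measure
  have hgood2 : sig d (E ∩ U) ≤ δ₁ := by
    have h1 := hgood _ (isFrost_const hC)
    rw [setLIntegral_const] at h1
    have h2 : 2 * C' * δ₂ = δ₁ := ENNReal.mul_div_cancel h2C0 h2CT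
    calc sig d (E ∩ U) = 2 * C' * (2⁻¹ * (C'⁻¹ * sig d (E ∩ U))) := by
          have h3 : (2 * C') * (2⁻¹ * C'⁻¹) = 1 := by
            rw [← ENNReal.mul_inv (Or.inl (by norm_num)) (Or.inl (by norm_num))]
            exact ENNReal.mul_inv_cancel h2C0 h2CT
          calc sig d (E ∩ U) = (2 * C') * (2⁻¹ * C'⁻¹) * sig d (E ∩ U) := by rw [h3, one_mul]
            _ = _ := by ring
      _ ≤ 2 * C' * δ₂ := by gcongr
      _ = δ₁ := h2
  -- the radii
  have hrad : ∀ S, ∃ ρ : ℝ, 0 < ρ ∧ (S ∈ E \ U → κ * ENNReal.ofReal ρ ^ D < ν₀ (Metric.closedBall S ρ)) := by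
    intro S
    by_cases hS : S ∈ E \ U
    · have h1 := hS.2
      simp only [hU, Set.mem_ofPred_eq, not_forall, not_le] at h1
      obtain ⟨n, hn⟩ := h1
      exact ⟨(2:ℝ) ^ n, by positivity, fun _ => hn⟩
    · exact ⟨1, one_pos, fun h => absurd h hS⟩
  choose rad hrad0 hradlt using hrad
  set R₀ : ℝ := 2 * 4 ^ D with hR₀
  have hR₀1 : 1 ≤ R₀ := by
    have : (1:ℝ) ≤ 4 ^ D := one_le_pow₀ (by norm_num)
    rw [hR₀]; linarith
  have hbdd : ∀ S ∈ E \ U, rad S ≤ R₀ := by
    intro S hS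
    by_contra hlt
    push Not at hlt
    have h1 := hradlt S hS
    have h2 : K ≤ ENNReal.ofReal (rad S) ^ D := by
      rw [← ENNReal.ofReal_pow (hrad0 S).le]
      have h3 : R₀ ≤ rad S ^ D := by
        have h4 : 1 ≤ rad S := hR₀1.trans hlt.le
        calc R₀ ≤ rad S := hlt.le
          _ = rad S ^ 1 := (pow_one _).symm
          _ ≤ rad S ^ D := pow_le_pow_right₀ h4 hD
      calc K = ENNReal.ofReal R₀ := by
            rw [hK, hR₀, ENNReal.ofReal_mul (by norm_num), ENNReal.ofReal_pow (by norm_num)]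
            simp
        _ ≤ _ := ENNReal.ofReal_le_ofReal h3
    have h5 : (1:ℝ≥0∞) ≤ κ * ENNReal.ofReal (rad S) ^ D := by
      rw [← hκK]
      gcongr
    have h6 : ν₀ (Metric.closedBall S (rad S)) ≤ 1 := (measure_mono (subset_univ _)).trans hν₀1
    exact absurd (h5.trans_lt h1) (not_lt.mpr h6)
  obtain ⟨u, hut, hdisj, hcov⟩ := Vitali.exists_disjoint_subfamily_covering_enlargement_closedBall
    (E \ U) (fun S : Vec d => S) rad R₀ hbdd 4 (by norm_num)
  have hucount : u.Countable := by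
    apply hdisj.countable_of_nonempty_interior
    intro a _
    exact ⟨a, Metric.ball_subset_interior_closedBall (Metric.mem_ball_self (hrad0 a))⟩
  haveI : Countable u := hucount.to_subtype
  refine ⟨u, inferInstance, fun b => b, fun b => 4 * rad b, fun b => by have := hrad0 b; positivity, ?_, ?_⟩
  · refine le_trans (measure_mono ?_) hgood2
    rintro S ⟨hSE, hS⟩
    refine ⟨hSE, ?_⟩
    by_contra hSU
    obtain ⟨b, hb, hsub⟩ := hcov S ⟨hSE, hSU⟩
    apply hS
    simp only [Set.mem_iUnion]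
    exact ⟨⟨b, hb⟩, hsub (Metric.mem_closedBall_self (hrad0 S).le)⟩
  · have h1 : ∀ b : u, ENNReal.ofReal (4 * rad b) ^ D ≤ (2 * 16 ^ D) * ν₀ (Metric.closedBall b (rad b)) := by
      intro b
      have h2 := (hradlt b (hut b.2)).le
      have h3 : ENNReal.ofReal (rad b) ^ D ≤ K * ν₀ (Metric.closedBall b (rad b)) := by
        calc ENNReal.ofReal (rad b) ^ D = K * (κ * ENNReal.ofReal (rad b) ^ D) := by
              rw [← mul_assoc, mul_comm K κ, hκK, one_mul]
          _ ≤ _ := by gcongr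
      rw [ENNReal.ofReal_mul (by norm_num), mul_pow]
      simp only [ENNReal.ofReal_ofNat]
      calc (4:ℝ≥0∞) ^ D * ENNReal.ofReal (rad b) ^ D ≤ 4 ^ D * (K * ν₀ (Metric.closedBall b (rad b))) := by gcongr
        _ = _ := by
          rw [hK, ← mul_assoc, ← mul_assoc]
          congr 1
          have : (16:ℝ≥0∞) = 4 * 4 := by norm_num
          rw [this, mul_pow]
          ring
    have h2 : ∑' b : u, ν₀ (Metric.closedBall (b : Vec d) (rad b)) ≤ cap := by
      rw [← measure_iUnion]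
      · exact (measure_mono (subset_univ _)).trans hν₀cap
      · intro a b hab
        exact hdisj a.2 b.2 (fun h => hab (Subtype.ext h))
      · intro b
        exact Metric.isClosed_closedBall.measurableSet
    calc ∑' b : u, ENNReal.ofReal (4 * rad b) ^ D ≤ ∑' b : u, (2 * 16 ^ D) * ν₀ (Metric.closedBall (b : Vec d) (rad b)) :=
          ENNReal.tsum_le_tsum h1
      _ = (2 * 16 ^ D) * ∑' b : u, ν₀ (Metric.closedBall (b : Vec d) (rad b)) := ENNReal.tsum_mul_left
      _ ≤ _ := by gcongr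

end Cover

end Vale.Agent.Lib.P309
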