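import Mathlib
import Vale.Agent.Lib.P309.HCover

/-! Decomposition of a bounded function into pieces localized on balls of small total content. -/

open MeasureTheory ProbabilityTheory Set Module InnerProductSpace
open scoped ENNReal
set_option linter.unusedSectionVars false
set_option linter.unusedVariables false
set_option linter.unusedSimpArgs false
set_option linter.unnecessarySimpa false
set_option linter.style.haveILetI false

namespace Vale.Agent.Lib.P309

section Disj
variable {X : Type*} [MeasurableSpace X]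

lemma disjointify {ι : Type} [Countable ι] (B : ι → Set X) (hB : ∀ b, MeasurableSet (B b)) :
    ∃ P : ι → Set X, (∀ b, MeasurableSet (P b)) ∧ (∀ b, P b ⊆ B b) ∧
      (∀ a b, ∀ S, S ∈ P a → S ∈ P b → a = b) ∧ ∀ S, (∃ b, S ∈ B b) → ∃ b, S ∈ P b := by
  classical
  obtain ⟨e, he⟩ := exists_injective_nat ι
  refine ⟨fun b => B b \ ⋃ (b' : ι) (_ : e b' < e b), B b', ?_, ?_, ?_, ?_⟩
  · intro b
    apply (hB b).diff
    apply MeasurableSet.iUnion
    intro b'
    by_cases h : e b' < e b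
    · simpa [h] using hB b'
    · simp [h]
  · intro b
    exact sdiff_subset
  · intro a b S ha hb
    by_contra hab
    have hne : e a ≠ e b := fun h => hab (he h)
    rcases lt_or_gt_of_ne hne with h | h
    · exact hb.2 (by simp only [mem_iUnion]; exact ⟨a, h, ha.1⟩)
    · exact ha.2 (by simp only [mem_iUnion]; exact ⟨b, h, hb.1⟩)
  · intro S hS
    have hex : ∃ n, ∃ b, e b = n ∧ S ∈ B b := by
      obtain ⟨b, hb⟩ := hS
      exact ⟨e b, b, rfl, hb⟩
    obtain ⟨b, hb1, hb2⟩ := Nat.find_spec hex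
    refine ⟨b, hb2, ?_⟩
    simp only [mem_iUnion, not_exists, not_and]
    intro b' hb' hmem
    have := Nat.find_min hex (m := e b') (by rw [← hb1]; exact hb')
    exact this ⟨b', rfl, hmem⟩

end Disj

section Decomp
variable {d D : ℕ}

/-- the dyadic level sets of a function -/
def levelSet (f : Vec d → ℝ≥0∞) (a : ℕ) : Set (Vec d) :=
  {S | (2⁻¹ : ℝ≥0∞) ^ (a + 1) < f S ∧ f S ≤ (2⁻¹ : ℝ≥0∞) ^ a}

lemma measurableSet_levelSet {f : Vec d → ℝ≥0∞} (hf : Measurable f) (a : ℕ) :
    MeasurableSet (levelSet f a) := by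
  have h1 : MeasurableSet {S : Vec d | (2⁻¹ : ℝ≥0∞) ^ (a + 1) < f S} := measurableSet_lt measurable_const hf
  have h2 : MeasurableSet {S : Vec d | f S ≤ (2⁻¹ : ℝ≥0∞) ^ a} := measurableSet_le hf measurable_const
  exact h1.inter h2

lemma exists_level {f : Vec d → ℝ≥0∞} (hf1 : ∀ S, f S ≤ 1) (S : Vec d) (A : ℕ)
    (h : (2⁻¹ : ℝ≥0∞) ^ A < f S) : ∃ a < A, S ∈ levelSet f a := by
  induction A with
  | zero =>
    simp only [pow_zero] at h
    exact absurd (hf1 S) (not_le.mpr h)
  | succ A ih =>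
    by_cases h2 : (2⁻¹ : ℝ≥0∞) ^ A < f S
    · obtain ⟨a, ha, hS⟩ := ih h2
      exact ⟨a, by omega, hS⟩
    · exact ⟨A, by omega, h, not_lt.mp h2⟩

lemma capW_level {f : Vec d → ℝ≥0∞} (hf : Measurable f) (a : ℕ) :
    capW d D ((levelSet f a).indicator 1) ≤ 2 ^ (a + 1) * capW d D f := by
  refine le_trans (capW_mono ?_) (capW_const_mul hf _)
  intro S
  by_cases hS : S ∈ levelSet f a
  · rw [indicator_of_mem hS]
    have h1 := hS.1
    have h2 : (2:ℝ≥0∞) ^ (a + 1) * (2⁻¹ : ℝ≥0∞) ^ (a + 1) = 1 := by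
      rw [← mul_pow, ENNReal.mul_inv_cancel (by norm_num) (by norm_num), one_pow]
    simp only [Pi.one_apply]
    rw [← h2]
    gcongr
  · rw [indicator_of_notMem hS]
    exact zero_le

/-- the decomposition -/
theorem decomp [Fact (0 < d)] (hD : 0 < D) {C' : ℝ≥0∞} (hC'T : C' ≠ ⊤) (hC'0 : C' ≠ 0)
    (hC : ∀ (x : Vec d) (t : ℝ), 0 < t → sig d (Metric.closedBall x t) ≤ C' * ENNReal.ofReal t ^ D)
    {f : Vec d → ℝ≥0∞} (hfm : Measurable f) (hf1 : ∀ S, f S ≤ 1) (A : ℕ)
    {δ : ℝ≥0∞} (hδ0 : δ ≠ 0) (hδT : δ ≠ ⊤) :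
    ∃ (ι : Type) (_ : Countable ι) (φ : ι → Vec d → ℝ≥0∞) (c : ι → ℝ≥0∞) (x : ι → Vec d) (R : ι → ℝ),
      (∀ b, Measurable (φ b)) ∧ (∀ b, 0 < R b) ∧
      (∀ b S, φ b S ≤ (Metric.closedBall (x b) (R b)).indicator (fun _ => c b) S) ∧
      (∀ S, ∑' b, φ b S ≤ f S) ∧
      (∫⁻ S, f S ∂(sig d) ≤ ∑' b, ∫⁻ S, φ b S ∂(sig d) + ((2⁻¹ : ℝ≥0∞) ^ A + A * δ)) ∧
      (∑' b, c b * ENNReal.ofReal (R b) ^ D ≤ A * (4 * 16 ^ D) * capW d D f) := by
  classical
  have hEm : ∀ a, MeasurableSet (levelSet f a) := measurableSet_levelSet hfm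
  have hcov := fun a : Fin A => cover_set hD hC'T hC'0 hC (hEm a) hδ0 hδT
  choose κ hκc x R hR hres hcost using hcov
  haveI := hκc
  have hP := fun a : Fin A => disjointify (fun b => Metric.closedBall (x a b) (R a b))
    (fun b => Metric.isClosed_closedBall.measurableSet)
  choose P hPm hPsub hPinj hPcov using hP
  set Q : (Σ a : Fin A, κ a) → Set (Vec d) := fun p => levelSet f p.1 ∩ P p.1 p.2 with hQ
  have hQm : ∀ p, MeasurableSet (Q p) := fun p => (hEm p.1).inter (hPm p.1 p.2)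
  refine ⟨Σ a : Fin A, κ a, inferInstance, fun p => (Q p).indicator f, fun p => (2⁻¹ : ℝ≥0∞) ^ (p.1 : ℕ),
    fun p => x p.1 p.2, fun p => R p.1 p.2, fun p => hfm.indicator (hQm p), fun p => hR p.1 p.2, ?_, ?_, ?_, ?_⟩
  · rintro ⟨a, b⟩ S
    by_cases hS : S ∈ Q ⟨a, b⟩
    · show (Q ⟨a, b⟩).indicator f S ≤ (Metric.closedBall (x a b) (R a b)).indicator (fun _ => (2⁻¹ : ℝ≥0∞) ^ (a : ℕ)) S
      rw [indicator_of_mem hS, indicator_of_mem (hPsub a b hS.2)]
      exact hS.1.2
    · show (Q ⟨a, b⟩).indicator f S ≤ (Metric.closedBall (x a b) (R a b)).indicator (fun _ => (2⁻¹ : ℝ≥0∞) ^ (a : ℕ)) S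
      rw [indicator_of_notMem hS]
      exact zero_le
  · intro S
    by_cases hex : ∃ p, S ∈ Q p
    · obtain ⟨p₀, hp₀⟩ := hex
      rw [tsum_eq_single p₀]
      · show (Q p₀).indicator f S ≤ f S
        rw [indicator_of_mem hp₀]
      · intro p hp
        apply indicator_of_notMem
        intro hS
        apply hp
        rcases p with ⟨a, b⟩
        rcases p₀ with ⟨a₀, b₀⟩
        have haa : (a : ℕ) = a₀ := by
          by_contra hne
          rcases lt_or_gt_of_ne hne with h | h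
          · have h1 := hS.1.1
            have h2 := hp₀.1.2
            have h3 : (2⁻¹ : ℝ≥0∞) ^ (a₀ : ℕ) ≤ (2⁻¹ : ℝ≥0∞) ^ ((a : ℕ) + 1) :=
              pow_le_pow_of_le_one zero_le (ENNReal.inv_le_one.mpr (by norm_num)) (by omega)
            exact absurd (h2.trans h3) (not_le.mpr h1)
          · have h1 := hS.1.2
            have h2 := hp₀.1.1
            have h3 : (2⁻¹ : ℝ≥0∞) ^ (a : ℕ) ≤ (2⁻¹ : ℝ≥0∞) ^ ((a₀ : ℕ) + 1) :=
              pow_le_pow_of_le_one zero_le (ENNReal.inv_le_one.mpr (by norm_num)) (by omega)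
            exact absurd (h1.trans h3) (not_le.mpr h2)
        have ha' : a = a₀ := Fin.ext haa
        subst ha'
        have := hPinj a b b₀ S hS.2 hp₀.2
        rw [this]
    · push Not at hex
      have : ∀ p, (Q p).indicator f S = 0 := fun p => indicator_of_notMem (hex p) _
      simp only [this, tsum_zero]
      exact zero_le
  · set G : Fin A → Set (Vec d) := fun a => levelSet f a \ ⋃ b, Metric.closedBall (x a b) (R a b) with hG
    have hGm : ∀ a, MeasurableSet (G a) := fun a =>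
      (hEm a).diff (MeasurableSet.iUnion fun b => Metric.isClosed_closedBall.measurableSet)
    have hpt : ∀ S, f S ≤ ∑' p, (Q p).indicator f S + (∑ a, (G a).indicator 1 S + (2⁻¹ : ℝ≥0∞) ^ A) := by
      intro S
      by_cases hlow : f S ≤ (2⁻¹ : ℝ≥0∞) ^ A
      · exact hlow.trans (le_add_self.trans le_add_self)
      push Not at hlow
      obtain ⟨a, ha, hSa⟩ := exists_level hf1 S A hlow
      by_cases hc : ∃ b, S ∈ Metric.closedBall (x ⟨a, ha⟩ b) (R ⟨a, ha⟩ b)
      · obtain ⟨b, hb⟩ := hPcov ⟨a, ha⟩ S hc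
        have hmem : S ∈ Q ⟨⟨a, ha⟩, b⟩ := ⟨hSa, hb⟩
        refine le_trans ?_ le_self_add
        refine le_trans ?_ (ENNReal.le_tsum ⟨⟨a, ha⟩, b⟩)
        rw [indicator_of_mem hmem]
      · have hmem : S ∈ G ⟨a, ha⟩ := by
          refine ⟨hSa, ?_⟩
          simp only [mem_iUnion]
          exact hc
        refine le_trans ?_ le_add_self
        refine le_trans ?_ le_self_add
        refine le_trans ?_ (Finset.single_le_sum (f := fun a => (G a).indicator 1 S) (fun _ _ => zero_le) (Finset.mem_univ ⟨a, ha⟩))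
        simp only [indicator_of_mem hmem, Pi.one_apply]
        exact hf1 S
    have hmφ : ∀ p, Measurable ((Q p).indicator f) := fun p => hfm.indicator (hQm p)
    have hmG : Measurable (fun S => ∑ a, (G a).indicator (1 : Vec d → ℝ≥0∞) S) :=
      Finset.measurable_sum _ (fun a _ => measurable_one.indicator (hGm a))
    calc ∫⁻ S, f S ∂(sig d) ≤ ∫⁻ S, ∑' p, (Q p).indicator f S + (∑ a, (G a).indicator 1 S + (2⁻¹ : ℝ≥0∞) ^ A) ∂(sig d) :=
          lintegral_mono hpt
      _ = ∑' p, ∫⁻ S, (Q p).indicator f S ∂(sig d) + (∑ a, sig d (G a) + (2⁻¹ : ℝ≥0∞) ^ A) := by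
          rw [lintegral_add_left (Measurable.tsum hmφ), lintegral_tsum (fun p => (hmφ p).aemeasurable),
            lintegral_add_left hmG, lintegral_finsetSum _ (fun a _ => measurable_one.indicator (hGm a))]
          congr 2
          · apply Finset.sum_congr rfl
            intro a _
            rw [lintegral_indicator_one (hGm a)]
          · simp
      _ ≤ _ := by
          rw [add_comm ((2⁻¹ : ℝ≥0∞) ^ A)]
          gcongr
          calc ∑ a, sig d (G a) ≤ ∑ a : Fin A, δ := Finset.sum_le_sum (fun a _ => hres a)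
            _ = _ := by simp
  · rw [ENNReal.tsum_sigma']
    simp only [ENNReal.tsum_mul_left]
    rw [tsum_fintype]
    calc ∑ a : Fin A, (2⁻¹ : ℝ≥0∞) ^ (a : ℕ) * ∑' b, ENNReal.ofReal (R a b) ^ D
        ≤ ∑ a : Fin A, (4 * 16 ^ D) * capW d D f := by
          apply Finset.sum_le_sum
          intro a _
          calc (2⁻¹ : ℝ≥0∞) ^ (a : ℕ) * ∑' b, ENNReal.ofReal (R a b) ^ D
              ≤ (2⁻¹ : ℝ≥0∞) ^ (a : ℕ) * (2 * 16 ^ D * (2 ^ ((a : ℕ) + 1) * capW d D f)) := by
                gcongr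
                refine (hcost a).trans ?_
                gcongr
                exact capW_level hfm a
            _ = ((2⁻¹ : ℝ≥0∞) ^ (a : ℕ) * 2 ^ (a : ℕ)) * (4 * 16 ^ D * capW d D f) := by
                rw [pow_succ]
                have h4 : (4:ℝ≥0∞) = 2 * 2 := by norm_num
                rw [h4]
                ring
            _ = _ := by
                rw [← mul_pow, ENNReal.inv_mul_cancel (by norm_num) (by norm_num), one_pow, one_mul]
      _ = _ := by
          simp
          ring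

end Decomp

end Vale.Agent.Lib.P309
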