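import Mathlib
import Vale.Agent.Lib.P309.HDecomp

/-! One step of the capacity recursion along a block of rows. -/

open MeasureTheory ProbabilityTheory Set Module InnerProductSpace
open scoped ENNReal
set_option linter.unusedSectionVars false
set_option linter.unusedVariables false
set_option linter.unusedSimpArgs false
set_option linter.unnecessarySimpa false
set_option linter.style.haveILetI false

namespace Vale.Agent.Lib.P309

section Step
variable {d D w k : ℕ} {V : Type*} [Fintype V] [DecidableEq V]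

lemma gW_mono {C C' : Set ((Fin w → Vec d) × (Fin w → ℝ))} (h : C ⊆ C') (S : Vec d) :
    gW C S ≤ gW C' S := by
  unfold gW
  apply measure_mono
  intro A hA
  exact h hA

/-- the events of a partition of the labels, intersected with the bounded set, leave only a small
probability -/
lemma cover_prob (hw0 : 0 < w) (C : V → Set ((Fin w → Vec d) × (Fin w → ℝ)))
    (hcov : ∀ p, ∃ v', p ∈ C v') (x S : Vec d) {R : ℝ} (hR : 0 < R) (hS : S ∈ Metric.closedBall x R) :
    1 ≤ ∑ v', gW (C v' ∩ gset x R) S + ENNReal.ofReal (3 / 5) ^ w := by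
  have h1 : (univ : Set (Fin w → Vec d)) ⊆ (⋃ v' ∈ (Finset.univ : Finset V), {A | (A, lab A S) ∈ C v' ∩ gset x R}) ∪
      {A | (A, lab A S) ∉ gset x R} := by
    intro A _
    by_cases hA : (A, lab A S) ∈ gset x R
    · left
      obtain ⟨v', hv'⟩ := hcov (A, lab A S)
      simp only [mem_iUnion]
      exact ⟨v', Finset.mem_univ _, hv', hA⟩
    · right
      exact hA
  calc (1:ℝ≥0∞) = PP d w univ := by simp
    _ ≤ PP d w ((⋃ v' ∈ (Finset.univ : Finset V), {A | (A, lab A S) ∈ C v' ∩ gset x R}) ∪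
      {A | (A, lab A S) ∉ gset x R}) := measure_mono h1
    _ ≤ PP d w (⋃ v' ∈ (Finset.univ : Finset V), {A | (A, lab A S) ∈ C v' ∩ gset x R}) +
        PP d w {A | (A, lab A S) ∉ gset x R} := measure_union_le _ _
    _ ≤ ∑ v', PP d w {A | (A, lab A S) ∈ C v' ∩ gset x R} + ENNReal.ofReal (3 / 5) ^ w := by
        gcongr
        · exact measure_biUnion_finset_le _ _
        · exact gset_tail hw0 x S hR hS

/-- the step lemma -/
theorem step_lemma [Fact (0 < d)] (hD : 0 < D) {C' : ℝ≥0∞} (hC'T : C' ≠ ⊤) (hC'0 : C' ≠ 0)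
    (hC : ∀ (x : Vec d) (t : ℝ), 0 < t → sig d (Metric.closedBall x t) ≤ C' * ENNReal.ofReal t ^ D)
    (hw0 : 0 < w) (hk : 5 * k ≤ 2 * D) (hw : k + w + 1 ≤ D) (m : ℕ) (hm : m ≤ k)
    (τ : ℝ≥0∞) (hτ0 : τ ≠ 0) (hτT : τ ≠ ⊤) (hN : (Fintype.card V : ℝ≥0∞) ≤ τ ^ (m + 1))
    (C : V → V → Set ((Fin w → Vec d) × (Fin w → ℝ))) (hCm : ∀ v v', MeasurableSet (C v v'))
    (hdisj : ∀ v, Pairwise (Function.onFun Disjoint (C v))) (hcov : ∀ v p, ∃ v', p ∈ C v v')
    (F : V → Vec d → ℝ≥0∞) (hFm : ∀ v, Measurable (F v)) (hF1 : ∀ v S, F v S ≤ 1)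
    (A : ℕ) {δ : ℝ≥0∞} (hδ0 : δ ≠ 0) (hδT : δ ≠ ⊤) :
    ∃ F' : V → Vec d → ℝ≥0∞, (∀ v', Measurable (F' v')) ∧
      (∀ v' S, F' v' S ≤ ∑ v, F v S * gW (C v v') S) ∧
      (∑ v', capW d D (F' v') ≤
        (A * (4 * 16 ^ D) * (τ * (3 * ENNReal.ofReal 144 ^ w + 1))) * ∑ v, capW d D (F v)) ∧
      (∑ v, ∫⁻ S, F v S ∂(sig d) ≤ ∑ v', ∫⁻ S, F' v' S ∂(sig d) +
        (ENNReal.ofReal (3 / 5) ^ w * ∑ v, ∫⁻ S, F v S ∂(sig d) +
          (Fintype.card V : ℝ≥0∞) * ((2⁻¹ : ℝ≥0∞) ^ A + A * δ))) := by
  classical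
  have hdec := fun v => decomp hD hC'T hC'0 hC (hFm v) (hF1 v) A hδ0 hδT
  choose ι hι φ c x R hφm hR hφc hφs hφmass hφcost using hdec
  haveI := hι
  set K : ℝ≥0∞ := τ * (3 * ENNReal.ofReal 144 ^ w + 1) with hK
  set G : (v : V) → ι v → Set ((Fin w → Vec d) × (Fin w → ℝ)) := fun v b => gset (x v b) (R v b) with hG
  have hGm : ∀ v b, MeasurableSet (G v b) := fun v b => measurableSet_gset _ _
  set ψ : (v : V) → ι v → V → Vec d → ℝ≥0∞ := fun v b v' => gW (C v v' ∩ G v b) with hψ
  have hψm : ∀ v b v', Measurable (ψ v b v') := fun v b v' => measurable_gW ((hCm v v').inter (hGm v b))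
  have hm1 : ∀ v b v', Measurable (fun S => φ v b S * ψ v b v' S) := fun v b v' => (hφm v b).mul (hψm v b v')
  refine ⟨fun v' S => ∑ v, ∑' b, φ v b S * ψ v b v' S, ?_, ?_, ?_, ?_⟩
  · intro v'
    apply Finset.measurable_sum
    intro v _
    exact Measurable.tsum (fun b => hm1 v b v')
  · intro v' S
    apply Finset.sum_le_sum
    intro v _
    calc ∑' b, φ v b S * ψ v b v' S ≤ ∑' b, φ v b S * gW (C v v') S := by
          apply ENNReal.tsum_le_tsum
          intro b
          gcongr
          exact gW_mono inter_subset_left S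
      _ = (∑' b, φ v b S) * gW (C v v') S := ENNReal.tsum_mul_right
      _ ≤ _ := by gcongr; exact hφs v S
  · -- the capacity bound
    have h1 : ∀ v', capW d D (fun S => ∑ v, ∑' b, φ v b S * ψ v b v' S) ≤
        ∑ v, ∑' b, c v b * capW d D ((Metric.closedBall (x v b) (R v b)).indicator (ψ v b v')) := by
      intro v'
      refine (capW_sum _ (fun v => Measurable.tsum (fun b => hm1 v b v'))).trans ?_
      apply Finset.sum_le_sum
      intro v _
      refine (capW_tsum (fun b => hm1 v b v')).trans ?_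
      apply ENNReal.tsum_le_tsum
      intro b
      have h2 : capW d D (fun S => φ v b S * ψ v b v' S) ≤
          capW d D (fun S => c v b * (Metric.closedBall (x v b) (R v b)).indicator (ψ v b v') S) := by
        apply capW_mono
        intro S
        by_cases hS : S ∈ Metric.closedBall (x v b) (R v b)
        · rw [indicator_of_mem hS]
          gcongr
          have := hφc v b S
          rwa [indicator_of_mem hS] at this
        · have := hφc v b S
          rw [indicator_of_notMem hS] at this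
          have h0 : φ v b S = 0 := le_antisymm this zero_le
          rw [h0, zero_mul]
          exact zero_le
      refine h2.trans (capW_const_mul ?_ _)
      exact (hψm v b v').indicator Metric.isClosed_closedBall.measurableSet
    calc ∑ v', capW d D (fun S => ∑ v, ∑' b, φ v b S * ψ v b v' S)
        ≤ ∑ v', ∑ v, ∑' b, c v b * capW d D ((Metric.closedBall (x v b) (R v b)).indicator (ψ v b v')) :=
          Finset.sum_le_sum (fun v' _ => h1 v')
      _ = ∑ v, ∑' b, c v b * ∑ v', capW d D ((Metric.closedBall (x v b) (R v b)).indicator (ψ v b v')) := by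
          rw [Finset.sum_comm]
          apply Finset.sum_congr rfl
          intro v _
          rw [← Summable.tsum_finsetSum (fun _ _ => ENNReal.summable)]
          congr 1
          funext b
          rw [Finset.mul_sum]
      _ ≤ ∑ v, ∑' b, c v b * (ENNReal.ofReal (R v b) ^ D * K) := by
          apply Finset.sum_le_sum
          intro v _
          apply ENNReal.tsum_le_tsum
          intro b
          gcongr
          refine key_cap hw0 (x v b) (hR v b) (fun v' => C v v' ∩ G v b)
            (fun v' => (hCm v v').inter (hGm v b)) ?_ (fun v' => inter_subset_right)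
            hk hw m hm τ hτ0 hτT hN
          intro u u' huu'
          exact ((hdisj v huu').mono inter_subset_left inter_subset_left)
      _ = ∑ v, (∑' b, c v b * ENNReal.ofReal (R v b) ^ D) * K := by
          apply Finset.sum_congr rfl
          intro v _
          rw [← ENNReal.tsum_mul_right]
          congr 1
          funext b
          rw [mul_assoc]
      _ ≤ ∑ v, (A * (4 * 16 ^ D) * capW d D (F v)) * K := by
          apply Finset.sum_le_sum
          intro v _
          gcongr
          exact hφcost v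
      _ = _ := by
          rw [Finset.mul_sum]
          apply Finset.sum_congr rfl
          intro v _
          ring
  · -- the mass bound
    have hpt : ∀ v b S, φ v b S ≤ ∑ v', φ v b S * ψ v b v' S + ENNReal.ofReal (3 / 5) ^ w * φ v b S := by
      intro v b S
      by_cases hS : S ∈ Metric.closedBall (x v b) (R v b)
      · have h1 := cover_prob hw0 (C v) (hcov v) (x v b) S (hR v b) hS
        calc φ v b S = φ v b S * 1 := (mul_one _).symm
          _ ≤ φ v b S * (∑ v', gW (C v v' ∩ gset (x v b) (R v b)) S + ENNReal.ofReal (3 / 5) ^ w) := by gcongr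
          _ = _ := by
            rw [mul_add, Finset.mul_sum, mul_comm (φ v b S) (ENNReal.ofReal (3 / 5) ^ w)]
      · have := hφc v b S
        rw [indicator_of_notMem hS] at this
        have h0 : φ v b S = 0 := le_antisymm this zero_le
        simp [h0]
    have hint : ∀ v b, ∫⁻ S, φ v b S ∂(sig d) ≤ ∑ v', ∫⁻ S, φ v b S * ψ v b v' S ∂(sig d) +
        ENNReal.ofReal (3 / 5) ^ w * ∫⁻ S, φ v b S ∂(sig d) := by
      intro v b
      calc ∫⁻ S, φ v b S ∂(sig d) ≤ ∫⁻ S, ∑ v', φ v b S * ψ v b v' S + ENNReal.ofReal (3 / 5) ^ w * φ v b S ∂(sig d) :=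
            lintegral_mono (hpt v b)
        _ = _ := by
            rw [lintegral_add_left (Finset.measurable_sum _ (fun v' _ => hm1 v b v')),
              lintegral_finsetSum _ (fun v' _ => hm1 v b v'), lintegral_const_mul _ (hφm v b)]
    have hF'int : ∑ v', ∫⁻ S, ∑ v, ∑' b, φ v b S * ψ v b v' S ∂(sig d) =
        ∑ v, ∑' b, ∑ v', ∫⁻ S, φ v b S * ψ v b v' S ∂(sig d) := by
      have h1 : ∀ v', ∫⁻ S, ∑ v, ∑' b, φ v b S * ψ v b v' S ∂(sig d) =
          ∑ v, ∑' b, ∫⁻ S, φ v b S * ψ v b v' S ∂(sig d) := by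
        intro v'
        rw [lintegral_finsetSum _ (fun v _ => Measurable.tsum (fun b => hm1 v b v'))]
        apply Finset.sum_congr rfl
        intro v _
        rw [lintegral_tsum (fun b => (hm1 v b v').aemeasurable)]
      simp only [h1]
      rw [Finset.sum_comm]
      apply Finset.sum_congr rfl
      intro v _
      rw [Summable.tsum_finsetSum (fun _ _ => ENNReal.summable)]
    have hsumφ : ∀ v, ∑' b, ∫⁻ S, φ v b S ∂(sig d) ≤ ∫⁻ S, F v S ∂(sig d) := by
      intro v
      rw [← lintegral_tsum (fun b => (hφm v b).aemeasurable)]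
      exact lintegral_mono (hφs v)
    rw [hF'int]
    calc ∑ v, ∫⁻ S, F v S ∂(sig d)
        ≤ ∑ v, (∑' b, ∫⁻ S, φ v b S ∂(sig d) + ((2⁻¹ : ℝ≥0∞) ^ A + A * δ)) :=
          Finset.sum_le_sum (fun v _ => hφmass v)
      _ ≤ ∑ v, (∑' b, (∑ v', ∫⁻ S, φ v b S * ψ v b v' S ∂(sig d) +
            ENNReal.ofReal (3 / 5) ^ w * ∫⁻ S, φ v b S ∂(sig d)) + ((2⁻¹ : ℝ≥0∞) ^ A + A * δ)) := by
          apply Finset.sum_le_sum
          intro v _
          gcongr
          exact hint v _
      _ = ∑ v, ∑' b, ∑ v', ∫⁻ S, φ v b S * ψ v b v' S ∂(sig d) +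
            (ENNReal.ofReal (3 / 5) ^ w * ∑ v, ∑' b, ∫⁻ S, φ v b S ∂(sig d) +
              (Fintype.card V : ℝ≥0∞) * ((2⁻¹ : ℝ≥0∞) ^ A + A * δ)) := by
          simp only [ENNReal.tsum_add, ENNReal.tsum_mul_left, Finset.sum_add_distrib, Finset.mul_sum]
          simp
          ring
      _ ≤ _ := by
          gcongr
          exact hsumφ _

end Step

end Vale.Agent.Lib.P309
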