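import Mathlib
import Vale.Agent.Lib.P309.HStep
import Vale.Agent.Lib.P309.Det

/-! The capacity recursion along the blocks of a deterministic streaming rule. -/

open MeasureTheory ProbabilityTheory Set Module InnerProductSpace
open scoped ENNReal
set_option linter.unusedSectionVars false
set_option linter.unusedVariables false
set_option linter.unusedSimpArgs false
set_option linter.unnecessarySimpa false
set_option linter.style.haveILetI false

namespace Vale.Agent.Lib.P309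

section Chain2
variable {d D w k : ℕ} {V : Type*} [Fintype V] [DecidableEq V] [MeasurableSpace V] [MeasurableSingletonClass V]

lemma kerB_le_one (F : ℕ → V → Vec d → ℝ → V)
    (hF : ∀ t, Measurable (fun p : V × Vec d × ℝ => F t p.1 p.2.1 p.2.2)) (t0 b : ℕ) (v v' : V) (S : Vec d) :
    kerB F t0 b v v' S ≤ 1 :=
  (Finset.single_le_sum (f := fun u => kerB F t0 b v u S) (fun _ _ => zero_le) (Finset.mem_univ v')).trans
    (kerB_sum F hF t0 b v S)

lemma lintegral_kerB_sum_le [Fact (0 < d)] (F : ℕ → V → Vec d → ℝ → V)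
    (hF : ∀ t, Measurable (fun p : V × Vec d × ℝ => F t p.1 p.2.1 p.2.2)) (t0 b : ℕ) (v : V) :
    ∑ v', ∫⁻ S, kerB F t0 b v v' S ∂(sig d) ≤ 1 := by
  rw [← lintegral_finsetSum _ (fun v' _ => measurable_kerB F hF t0 b v v')]
  calc _ ≤ ∫⁻ S, 1 ∂(sig d) := lintegral_mono (fun S => kerB_sum F hF t0 b v S)
    _ = 1 := by simp

/-- the chain of subprobability kernels with small capacity -/
theorem chain_cap [Fact (0 < d)] (hD : 0 < D) {C' : ℝ≥0∞} (hC'T : C' ≠ ⊤) (hC'0 : C' ≠ 0)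
    (hC : ∀ (x : Vec d) (t : ℝ), 0 < t → sig d (Metric.closedBall x t) ≤ C' * ENNReal.ofReal t ^ D)
    (hw0 : 0 < w) (hk : 5 * k ≤ 2 * D) (hw : k + w + 1 ≤ D) (m : ℕ) (hm : m ≤ k)
    (τ : ℝ≥0∞) (hτ0 : τ ≠ 0) (hτT : τ ≠ ⊤) (hN : (Fintype.card V : ℝ≥0∞) ≤ τ ^ (m + 1))
    (F : ℕ → V → Vec d → ℝ → V)
    (hF : ∀ t, Measurable (fun p : V × Vec d × ℝ => F t p.1 p.2.1 p.2.2)) (v0 : V)
    (A : ℕ) {δ : ℝ≥0∞} (hδ0 : δ ≠ 0) (hδT : δ ≠ ⊤) (J : ℕ) :
    ∃ G : V → Vec d → ℝ≥0∞, (∀ v, Measurable (G v)) ∧ (∀ v S, G v S ≤ kerB F 0 (J * w) v0 v S) ∧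
      (∑ v, capW d D (G v) ≤ (A * (4 * 16 ^ D) * (τ * (3 * ENNReal.ofReal 144 ^ w + 1))) ^ J) ∧
      (1 ≤ ∑ v, ∫⁻ S, G v S ∂(sig d) + J * (ENNReal.ofReal (3 / 5) ^ w +
        (Fintype.card V : ℝ≥0∞) * ((2⁻¹ : ℝ≥0∞) ^ A + A * δ))) := by
  classical
  induction J with
  | zero =>
    refine ⟨fun v _ => if v = v0 then 1 else 0, fun v => measurable_const, ?_, ?_, ?_⟩
    · intro v S
      simp only [zero_mul, kerB_zero]
      exact le_rfl
    · rw [Finset.sum_eq_single v0]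
      · simp only [if_true, pow_zero]
        exact capW_one_le
      · intro v _ hv
        simp only [hv, if_false]
        have : capW d D (fun _ => (0 : ℝ≥0∞)) ≤ 0 := by
          apply capW_le
          intro g _
          simp
        exact le_antisymm this zero_le
      · simp
    · rw [Finset.sum_eq_single v0]
      · simp
      · intro v _ hv
        simp [hv]
      · simp
  | succ J ih =>
    obtain ⟨G, hGm, hGle, hGcap, hGmass⟩ := ih
    have hG1 : ∀ v S, G v S ≤ 1 := fun v S => (hGle v S).trans (kerB_le_one F hF _ _ _ _ _)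
    set C : V → V → Set ((Fin w → Vec d) × (Fin w → ℝ)) := fun v v' => setC F (J * w) w v v' with hC₂
    have hCm : ∀ v v', MeasurableSet (C v v') := fun v v' => measurableSet_setC F hF _ _ v v'
    have hdisj : ∀ v, Pairwise (Function.onFun Disjoint (C v)) := by
      intro v u u' huu'
      rw [Function.onFun, Set.disjoint_left]
      intro p hp hp'
      exact huu' (hp.symm.trans hp')
    have hcov : ∀ v p, ∃ v', p ∈ C v v' := fun v p => ⟨runY F (J * w) w v p.1 p.2, rfl⟩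
    obtain ⟨G', hG'm, hG'le, hG'cap, hG'mass⟩ := step_lemma hD hC'T hC'0 hC hw0 hk hw m hm τ hτ0 hτT hN
      C hCm hdisj hcov G hGm hG1 A hδ0 hδT
    refine ⟨G', hG'm, ?_, ?_, ?_⟩
    · intro v' S
      refine (hG'le v' S).trans ?_
      have h1 : kerB F 0 ((J + 1) * w) v0 v' S = ∑ u, kerB F 0 (J * w) v0 u S * kerB F (J * w) w u v' S := by
        rw [show (J + 1) * w = J * w + w by ring, kerB_add F hF]
        simp only [zero_add]
      rw [h1]
      apply Finset.sum_le_sum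
      intro v _
      gcongr
      · exact hGle v S
      · exact le_rfl
    · refine hG'cap.trans ?_
      rw [pow_succ, mul_comm]
      gcongr
    · set η := ENNReal.ofReal (3 / 5) ^ w + (Fintype.card V : ℝ≥0∞) * ((2⁻¹ : ℝ≥0∞) ^ A + A * δ) with hη
      have hmass1 : ∑ v, ∫⁻ S, G v S ∂(sig d) ≤ 1 := by
        rw [← lintegral_finsetSum _ (fun v _ => hGm v)]
        calc _ ≤ ∫⁻ S, 1 ∂(sig d) := by
              apply lintegral_mono
              intro S
              exact (Finset.sum_le_sum (fun v _ => hGle v S)).trans (kerB_sum F hF _ _ v0 S)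
          _ = 1 := by simp
      have h2 : ∑ v, ∫⁻ S, G v S ∂(sig d) ≤ ∑ v', ∫⁻ S, G' v' S ∂(sig d) + η := by
        refine hG'mass.trans ?_
        rw [hη]
        gcongr
        calc ENNReal.ofReal (3 / 5) ^ w * ∑ v, ∫⁻ S, G v S ∂(sig d) ≤ ENNReal.ofReal (3 / 5) ^ w * 1 := by gcongr
          _ = _ := mul_one _
      calc 1 ≤ ∑ v, ∫⁻ S, G v S ∂(sig d) + J * η := hGmass
        _ ≤ ∑ v', ∫⁻ S, G' v' S ∂(sig d) + η + J * η := by gcongr
        _ = _ := by
          push_cast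
          ring

/-- the small balls in terms of capacities -/
lemma lintegral_ball_le_capW {G : Vec d → ℝ≥0∞} {s : Vec d} {ε : ℝ} {lam : ℝ≥0∞} (hlam : lam ≠ 0) (hlamT : lam ≠ ⊤)
    (hfrost : IsFrost d D ((Metric.closedBall s ε).indicator (fun _ => lam))) :
    ∫⁻ S in Metric.closedBall s ε, G S ∂(sig d) ≤ lam⁻¹ * capW d D G := by
  have hm : MeasurableSet (Metric.closedBall s ε) := Metric.isClosed_closedBall.measurableSet
  have h1 := le_capW (f := G) hfrost
  have h2 : ∫⁻ S, G S * (Metric.closedBall s ε).indicator (fun _ => lam) S ∂(sig d) =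
      ∫⁻ S in Metric.closedBall s ε, lam * G S ∂(sig d) := by
    rw [← lintegral_indicator hm]
    apply lintegral_congr
    intro S
    by_cases hS : S ∈ Metric.closedBall s ε
    · simp [hS, mul_comm]
    · simp [hS]
  rw [h2] at h1
  calc ∫⁻ S in Metric.closedBall s ε, G S ∂(sig d)
      = lam⁻¹ * ∫⁻ S in Metric.closedBall s ε, lam * G S ∂(sig d) := by
        simp only [← lintegral_const_mul' _ _ (ENNReal.inv_ne_top.mpr hlam)]
        apply lintegral_congr
        intro S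
        rw [← mul_assoc, ENNReal.inv_mul_cancel hlam hlamT, one_mul]
    _ ≤ _ := by gcongr

/-- the probability of success in terms of the block kernels -/
lemma succ_eq_sum [Fact (0 < d)] {T : ℕ} (F : ℕ → V → Vec d → ℝ → V)
    (hF : ∀ t, Measurable (fun p : V × Vec d × ℝ => F t p.1 p.2.1 p.2.2)) (v0 : V) (out : V → Vec d) (ε : ℝ) :
    ∫⁻ ω : Metric.sphere (0 : Vec d) 1,
      PP d T {A | ‖(ω : Vec d) - out (runY F 0 T v0 A (lab A ω))‖ ≤ ε} ∂(sphereUnif d) =
    ∑ v', ∫⁻ S in Metric.closedBall (out v') ε, kerB F 0 T v0 v' S ∂(sig d) := by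
  classical
  set B : V → Set (Vec d) := fun v => Metric.closedBall (out v) ε with hB
  have hBm : ∀ v, MeasurableSet (B v) := fun v => Metric.isClosed_closedBall.measurableSet
  have h1 : ∀ ω : Metric.sphere (0 : Vec d) 1, PP d T {A | ‖(ω : Vec d) - out (runY F 0 T v0 A (lab A ω))‖ ≤ ε} =
      (fun S : Vec d => ∑ v', (B v').indicator (fun ω => kerB F 0 T v0 v' ω) S) ω := by
    intro ω
    set f : (Fin T → Vec d) → V := fun A => runY F 0 T v0 A (lab A (ω : Vec d)) with hf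
    have hfm : Measurable f := measurable_runLab F hF 0 T v0 ω
    have h2 := sum_measure_preimage_singleton (μ := PP d T) (Finset.univ.filter (fun v' => (ω : Vec d) ∈ B v')) (f := f)
      (fun u _ => hfm (measurableSet_singleton u))
    have h3 : {A | ‖(ω : Vec d) - out (runY F 0 T v0 A (lab A ω))‖ ≤ ε} = f ⁻¹' ↑(Finset.univ.filter (fun v' => (ω : Vec d) ∈ B v')) := by
      ext A
      simp [hf, hB, Metric.mem_closedBall, dist_eq_norm]
    rw [h3, ← h2]
    simp only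
    rw [Finset.sum_filter]
    apply Finset.sum_congr rfl
    intro v' _
    by_cases h4 : (ω : Vec d) ∈ B v'
    · simp only [h4, if_true, indicator_of_mem]
      rfl
    · simp only [h4, if_false, indicator_of_notMem, not_false_eq_true]
  simp only [h1]
  have h5 : ∀ v' ∈ (Finset.univ : Finset V), Measurable (fun S : Vec d =>
      (B v').indicator (fun ω : Vec d => kerB F 0 T v0 v' ω) S) := by
    intro v' _
    exact (measurable_kerB F hF 0 T v0 v').indicator (hBm v')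
  rw [← lintegral_sig (Finset.measurable_sum _ h5), lintegral_finsetSum _ h5]
  apply Finset.sum_congr rfl
  intro v' _
  rw [lintegral_indicator (hBm v')]

/-- the success probability bound for deterministic rules -/
theorem det_cap_bound [Fact (0 < d)] (hD : 0 < D) {C' : ℝ≥0∞} (hC'T : C' ≠ ⊤) (hC'0 : C' ≠ 0)
    (hC : ∀ (x : Vec d) (t : ℝ), 0 < t → sig d (Metric.closedBall x t) ≤ C' * ENNReal.ofReal t ^ D)
    (hw0 : 0 < w) (hk : 5 * k ≤ 2 * D) (hw : k + w + 1 ≤ D) (m : ℕ) (hm : m ≤ k)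
    (τ : ℝ≥0∞) (hτ0 : τ ≠ 0) (hτT : τ ≠ ⊤) (hN : (Fintype.card V : ℝ≥0∞) ≤ τ ^ (m + 1))
    (F : ℕ → V → Vec d → ℝ → V)
    (hF : ∀ t, Measurable (fun p : V × Vec d × ℝ => F t p.1 p.2.1 p.2.2)) (v0 : V)
    {T : ℕ} (hpad : ∀ t, T ≤ t → ∀ v x y, F t v x y = v)
    (A : ℕ) {δ : ℝ≥0∞} (hδ0 : δ ≠ 0) (hδT : δ ≠ ⊤) (J : ℕ) (hJ : T ≤ J * w)
    (out : V → Vec d) (ε : ℝ) {lam : ℝ≥0∞} (hlam : lam ≠ 0) (hlamT : lam ≠ ⊤)
    (hfrost : ∀ s : Vec d, IsFrost d D ((Metric.closedBall s ε).indicator (fun _ => lam))) :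
    ∫⁻ ω : Metric.sphere (0 : Vec d) 1,
      PP d T {A | ‖(ω : Vec d) - out (runY F 0 T v0 A (lab A ω))‖ ≤ ε} ∂(sphereUnif d) ≤
    lam⁻¹ * (A * (4 * 16 ^ D) * (τ * (3 * ENNReal.ofReal 144 ^ w + 1))) ^ J +
      J * (ENNReal.ofReal (3 / 5) ^ w + (Fintype.card V : ℝ≥0∞) * ((2⁻¹ : ℝ≥0∞) ^ A + A * δ)) := by
  classical
  obtain ⟨G, hGm, hGle, hGcap, hGmass⟩ := chain_cap hD hC'T hC'0 hC hw0 hk hw m hm τ hτ0 hτT hN F hF v0 A hδ0 hδT J
  obtain ⟨r, hr⟩ : ∃ r, J * w = T + r := ⟨J * w - T, by omega⟩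
  have hker : ∀ v S, kerB F 0 (J * w) v0 v S = kerB F 0 T v0 v S := by
    intro v S
    rw [hr, kerB_extend F hF hpad]
  simp only [hker] at hGle
  rw [succ_eq_sum F hF v0 out ε]
  set B : V → Set (Vec d) := fun v => Metric.closedBall (out v) ε with hB
  have hBm : ∀ v, MeasurableSet (B v) := fun v => Metric.isClosed_closedBall.measurableSet
  set a := ∑ v, ∫⁻ S in B v, G v S ∂(sig d) with ha
  set b := ∑ v, ∫⁻ S in (B v)ᶜ, kerB F 0 T v0 v S ∂(sig d) with hb
  set P := ∑ v, ∫⁻ S in B v, kerB F 0 T v0 v S ∂(sig d) with hP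
  have h1 : b + P ≤ 1 := by
    rw [hb, hP, ← Finset.sum_add_distrib]
    refine le_trans (le_of_eq ?_) (lintegral_kerB_sum_le F hF 0 T v0)
    apply Finset.sum_congr rfl
    intro v _
    rw [add_comm, lintegral_add_compl _ (hBm v)]
  have hbT : b ≠ ⊤ := ne_top_of_le_ne_top ENNReal.one_ne_top (le_self_add.trans h1)
  have h2 : ∑ v, ∫⁻ S, G v S ∂(sig d) ≤ a + b := by
    rw [ha, hb, ← Finset.sum_add_distrib]
    apply Finset.sum_le_sum
    intro v _
    rw [← lintegral_add_compl _ (hBm v)]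
    gcongr
    exact hGle v _
  set η := J * (ENNReal.ofReal (3 / 5) ^ w + (Fintype.card V : ℝ≥0∞) * ((2⁻¹ : ℝ≥0∞) ^ A + A * δ)) with hη
  have h3 : b + P ≤ b + (a + η) := by
    calc b + P ≤ 1 := h1
      _ ≤ ∑ v, ∫⁻ S, G v S ∂(sig d) + η := hGmass
      _ ≤ a + b + η := by gcongr
      _ = _ := by ring
  have h4 : P ≤ a + η := (ENNReal.add_le_add_iff_left hbT).mp h3
  refine h4.trans ?_
  gcongr
  rw [ha]
  calc ∑ v, ∫⁻ S in B v, G v S ∂(sig d) ≤ ∑ v, lam⁻¹ * capW d D (G v) :=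
        Finset.sum_le_sum (fun v _ => lintegral_ball_le_capW hlam hlamT (hfrost _))
    _ = lam⁻¹ * ∑ v, capW d D (G v) := by rw [Finset.mul_sum]
    _ ≤ _ := by gcongr

/-- the information theoretic bound: the output has to be one of few points -/
theorem det_count_bound [Fact (0 < d)] {T : ℕ} (F : ℕ → V → Vec d → ℝ → V)
    (hF : ∀ t, Measurable (fun p : V × Vec d × ℝ => F t p.1 p.2.1 p.2.2)) (v0 : V)
    (out : V → Vec d) (ε : ℝ) (κ : ℝ≥0∞) (hκ : ∀ s : Vec d, sig d (Metric.closedBall s ε) ≤ κ) :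
    ∫⁻ ω : Metric.sphere (0 : Vec d) 1,
      PP d T {A | ‖(ω : Vec d) - out (runY F 0 T v0 A (lab A ω))‖ ≤ ε} ∂(sphereUnif d) ≤
    (Fintype.card V : ℝ≥0∞) * κ := by
  rw [succ_eq_sum F hF v0 out ε]
  calc _ ≤ ∑ v : V, κ := by
        apply Finset.sum_le_sum
        intro v _
        calc ∫⁻ S in Metric.closedBall (out v) ε, kerB F 0 T v0 v S ∂(sig d)
            ≤ ∫⁻ S in Metric.closedBall (out v) ε, 1 ∂(sig d) :=
              lintegral_mono (fun S => kerB_le_one F hF _ _ _ _ _)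
          _ = sig d (Metric.closedBall (out v) ε) := by simp
          _ ≤ κ := hκ _
    _ = _ := by simp

end Chain2

end Vale.Agent.Lib.P309
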