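import Mathlib
import Vale.Agent.Lib.P309.Det

open MeasureTheory ProbabilityTheory Set Module InnerProductSpace
open scoped ENNReal
set_option linter.unusedSectionVars false
set_option linter.unusedVariables false
set_option linter.unusedSimpArgs false
set_option linter.unnecessarySimpa false

namespace Vale.Agent.Lib.P309

section Numerics

/-- the real form of the constant `E` -/
noncomputable def eR (d w k M : ℕ) : ℝ := (2 * (d : ℝ)) ^ w * (2 ^ (M + 1) : ℝ) ^ (1 / (k : ℝ))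

lemma eR_pos (d w k M : ℕ) (hd : 0 < d) : 0 < eR d w k M := by
  unfold eR
  have : (0:ℝ) < d := by exact_mod_cast hd
  positivity

lemma one_le_eR (d w k M : ℕ) (hd : 0 < d) (hk : 0 < k) : 1 ≤ eR d w k M := by
  unfold eR
  have hd' : (1:ℝ) ≤ d := by exact_mod_cast hd
  have h1 : (1:ℝ) ≤ (2 * (d : ℝ)) ^ w := one_le_pow₀ (by linarith)
  have h2 : (1:ℝ) ≤ ((2:ℝ) ^ (M + 1)) ^ (1 / (k : ℝ)) :=
    Real.one_le_rpow (one_le_pow₀ (by norm_num)) (by positivity)
  nlinarith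

lemma logb_eR (d w k M : ℕ) (hd : 0 < d) :
    Real.logb 2 (16 * eR d w k M) = 4 + w * Real.logb 2 (2 * d) + ((M : ℝ) + 1) / k := by
  unfold eR
  have hd' : (0:ℝ) < d := by exact_mod_cast hd
  rw [Real.logb_mul (by norm_num) (by positivity), Real.logb_mul (by positivity) (by positivity),
    Real.logb_pow, Real.logb_rpow_eq_mul_logb_of_pos (by positivity), Real.logb_pow]
  have h16 : Real.logb 2 16 = 4 := by
    rw [show (16:ℝ) = 2 ^ (4:ℕ) by norm_num, Real.logb_pow, Real.logb_self_eq_one (by norm_num)]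
    norm_num
  rw [h16, Real.logb_self_eq_one (by norm_num)]
  push_cast
  ring

/-- cap bound in a convenient form -/
lemma kappa_le {d wc : ℕ} (hd : 64 ≤ d) (hwc : d ≤ 2 * wc + 3) (ε : ℝ) (hε : 0 < ε) :
    ((d : ℝ) * ε ^ 2 / 2) ^ wc / (wc.factorial : ℝ) ≤ (3 * ε ^ 2) ^ wc := by
  have hwcpos : 0 < wc := by omega
  have hwcR : (0:ℝ) < wc := by exact_mod_cast hwcpos
  have hfac : (wc : ℝ) ^ wc / (wc.factorial : ℝ) ≤ Real.exp wc := Real.pow_div_factorial_le_exp _ hwcR.le _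
  have hfacpos : (0:ℝ) < wc.factorial := by positivity
  have h1 : (wc : ℝ) ^ wc ≤ Real.exp wc * wc.factorial := by
    rwa [div_le_iff₀ hfacpos] at hfac
  have hdR : (d : ℝ) ≤ 2 * wc + 3 := by exact_mod_cast hwc
  have h64 : (64:ℝ) ≤ d := by exact_mod_cast hd
  have hwc30 : (30:ℝ) ≤ wc := by linarith
  rw [div_le_iff₀ hfacpos]
  have hexp : Real.exp 1 < 2.7182818286 := Real.exp_one_lt_d9
  have h2 : ((d : ℝ) * ε ^ 2 / 2) ≤ (wc : ℝ) * (3 * ε ^ 2) / Real.exp 1 := by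
    rw [le_div_iff₀ (Real.exp_pos 1)]
    have he2 : Real.exp 1 * (d / 2) ≤ 3 * wc := by
      have : (d:ℝ) / 2 ≤ wc + 3 / 2 := by linarith
      have h0 : 0 < Real.exp 1 := Real.exp_pos 1
      nlinarith
    have hε2 : 0 < ε ^ 2 := by positivity
    nlinarith
  calc ((d : ℝ) * ε ^ 2 / 2) ^ wc ≤ ((wc : ℝ) * (3 * ε ^ 2) / Real.exp 1) ^ wc := by
        apply pow_le_pow_left₀ (by positivity) h2
    _ = (wc : ℝ) ^ wc * (3 * ε ^ 2) ^ wc / Real.exp wc := by
        rw [div_pow, mul_pow, ← Real.exp_nat_mul, mul_one]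
    _ ≤ (Real.exp wc * wc.factorial) * (3 * ε ^ 2) ^ wc / Real.exp wc := by
        gcongr
    _ = _ := by
        have : Real.exp wc ≠ 0 := (Real.exp_pos _).ne'
        field_simp

lemma arith_b {d wc L : ℝ} (hd : 64 ≤ d) (hwc : d ≤ 2 * wc + 3) (hL : 7 < L) :
    (d / 4) * L ≤ wc * (2 * L - 2) := by
  have h1 : (d - 3) * (L - 1) ≤ wc * (2 * L - 2) := by
    have h2 : 0 ≤ L - 1 := by linarith
    have h3 : (d - 3) ≤ 2 * wc := by linarith
    calc (d - 3) * (L - 1) ≤ (2 * wc) * (L - 1) := mul_le_mul_of_nonneg_right h3 h2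
      _ = _ := by ring
  have h4 : (d / 4) * L ≤ (d - 3) * (L - 1) := by
    have h5 : 0 ≤ (d - 64) * (L - 7) := mul_nonneg (by linarith) (by linarith)
    nlinarith
  linarith

lemma arith_c {d w k A M1 Y : ℝ} (hd : 64 ≤ d) (h8 : 8 * w ≤ d) (hk1 : d < 16 * k + 16) (hA : 7 ≤ A)
    (hM : 0 ≤ M1) (hY : Y = 128 * M1 / d ^ 2) :
    (4 + w * A + M1 / k) + 2 ≤ (d / 4) * (A + Y) := by
  have hdpos : 0 < d := by linarith
  have hkpos : 0 < k := by linarith
  have h1 : w * A ≤ (d / 8) * A := mul_le_mul_of_nonneg_right (by linarith) (by linarith)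
  have h2 : M1 / k ≤ 32 * M1 / d := by
    rw [div_le_div_iff₀ hkpos hdpos]
    have h3 : d ≤ 32 * k := by linarith
    have := mul_le_mul_of_nonneg_left h3 hM
    linarith
  have h3 : (d / 4) * Y = 32 * M1 / d := by
    rw [hY]
    field_simp
    ring
  have h4 : 6 ≤ (d / 8) * A := by
    have : (64 / 8 : ℝ) * 7 ≤ (d / 8) * A := by
      apply mul_le_mul (by linarith) hA (by norm_num) (by linarith)
    linarith
  rw [mul_add, h3]
  linarith

lemma arith_final {d w k wc A L M1 Y P l3 : ℝ} (hd : 64 ≤ d) (h8 : 8 * w ≤ d) (hk1 : d < 16 * k + 16)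
    (hwc : d ≤ 2 * wc + 3) (hA : 7 ≤ A) (hL : 7 < L) (hM : 0 ≤ M1) (hY : Y = 128 * M1 / d ^ 2)
    (hP : 1 ≤ P) (hl3 : l3 ≤ 2) (hw : 0 ≤ w) (hk : 0 < k)
    (hlog : -2 ≤ P * (4 + w * A + M1 / k) + wc * (l3 + 2 * (-L))) :
    L ≤ P * (A + Y) := by
  have hwc0 : 0 ≤ wc := by linarith
  have hdpos : 0 < d := by linarith
  set X := 4 + w * A + M1 / k with hX
  have hXnn : 0 ≤ X := by
    rw [hX]
    have : 0 ≤ M1 / k := div_nonneg hM hk.le
    have : 0 ≤ w * A := mul_nonneg hw (by linarith)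
    linarith
  have h1 : wc * (l3 + 2 * (-L)) ≤ wc * (2 + 2 * (-L)) := mul_le_mul_of_nonneg_left (by linarith) hwc0
  have h2 : wc * (2 * L - 2) ≤ P * X + 2 := by
    have : wc * (2 + 2 * (-L)) = - (wc * (2 * L - 2)) := by ring
    linarith
  have h3 := arith_b hd hwc hL
  have h4 : X + 2 ≤ (d / 4) * (A + Y) := arith_c hd h8 hk1 hA hM hY
  have h5 : P * X + 2 ≤ P * ((d / 4) * (A + Y)) := by
    have : P * (X + 2) ≤ P * ((d / 4) * (A + Y)) := mul_le_mul_of_nonneg_left h4 (by linarith)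
    have h6 : 2 ≤ P * 2 := by linarith
    linarith
  have h7 : (d / 4) * L ≤ (d / 4) * (P * (A + Y)) := by
    calc (d / 4) * L ≤ P * ((d / 4) * (A + Y)) := by linarith
      _ = _ := by ring
  exact le_of_mul_le_mul_left h7 (by positivity)

/-- the numerical consequence of the amplification bound -/
lemma numeric_core {d M n w k wc : ℕ} (hd : 64 ≤ d) (h8 : 8 * w ≤ d) (hk1 : d < 16 * k + 16)
    (hwc : d ≤ 2 * wc + 3) (ε : ℝ) (hε0 : 0 < ε) (hε1 : ε < 1)
    (h : (5 / 12 : ℝ) ≤ (16 * eR d w k M) ^ (2 ^ n) * (3 * ε ^ 2) ^ wc) :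
    Real.logb 2 (1 / ε) ≤ 2 ^ n * (Real.logb 2 (2 * d) + 128 * ((M : ℝ) + 1) / (d : ℝ) ^ 2) := by
  have hd0 : 0 < d := by omega
  have hdR : (64:ℝ) ≤ d := by exact_mod_cast hd
  have hdpos : (0:ℝ) < d := by linarith
  have h8R : 8 * (w:ℝ) ≤ d := by exact_mod_cast h8
  have hk1R : (d:ℝ) < 16 * k + 16 := by exact_mod_cast hk1
  have hwcR : (d:ℝ) ≤ 2 * wc + 3 := by exact_mod_cast hwc
  have hkpos : (0:ℝ) < k := by linarith
  set L := Real.logb 2 (1 / ε) with hL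
  set A := Real.logb 2 (2 * (d:ℝ)) with hA
  have hA7 : 7 ≤ A := by
    rw [hA, show (7:ℝ) = Real.logb 2 (2 ^ (7:ℕ)) by
      rw [Real.logb_pow, Real.logb_self_eq_one (by norm_num)]; norm_num]
    apply Real.logb_le_logb_of_le (by norm_num) (by norm_num)
    linarith
  have hMnn : (0:ℝ) ≤ (M:ℝ) + 1 := by positivity
  have hterm : 0 ≤ 128 * ((M : ℝ) + 1) / (d : ℝ) ^ 2 := by positivity
  have h2n : (1:ℝ) ≤ 2 ^ n := one_le_pow₀ (by norm_num)
  by_cases hL7 : L ≤ 7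
  · have h1 : A + 128 * ((M : ℝ) + 1) / (d : ℝ) ^ 2 ≤ 2 ^ n * (A + 128 * ((M : ℝ) + 1) / (d : ℝ) ^ 2) :=
      le_mul_of_one_le_left (by linarith) h2n
    linarith
  rw [not_le] at hL7
  have hpos1 : 0 < 16 * eR d w k M := by have := eR_pos d w k M hd0; positivity
  have hpos2 : 0 < (3 * ε ^ 2) ^ wc := by positivity
  have hlog := Real.logb_le_logb_of_le (b := 2) (by norm_num) (by norm_num) h
  have h3eps : Real.logb 2 (3 * ε ^ 2) = Real.logb 2 3 + 2 * Real.logb 2 ε := by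
    rw [Real.logb_mul (by norm_num) (by positivity), Real.logb_pow]
    norm_num
  rw [Real.logb_mul (by positivity) (by positivity), Real.logb_pow, Real.logb_pow,
    logb_eR d w k M hd0, h3eps] at hlog
  have hlogε : Real.logb 2 ε = -L := by
    rw [hL, one_div, Real.logb_inv]
    ring
  have hlog3 : Real.logb 2 3 ≤ 2 := by
    have h4 : Real.logb 2 4 = 2 := by
      rw [show (4:ℝ) = 2 ^ (2:ℕ) by norm_num, Real.logb_pow, Real.logb_self_eq_one (by norm_num)]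
      norm_num
    calc Real.logb 2 3 ≤ Real.logb 2 4 :=
          Real.logb_le_logb_of_le (by norm_num) (by norm_num) (by norm_num)
      _ = 2 := h4
  have hlog512 : -2 ≤ Real.logb 2 (5 / 12) := by
    have h4 : Real.logb 2 (1 / 4) = -2 := by
      rw [show (1/4:ℝ) = (2 ^ (2:ℕ))⁻¹ by norm_num, Real.logb_inv, Real.logb_pow, Real.logb_self_eq_one (by norm_num)]
      norm_num
    rw [← h4]
    apply Real.logb_le_logb_of_le (by norm_num) (by norm_num)
    norm_num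
  rw [hlogε] at hlog
  push_cast at hlog
  have hfin := arith_final (d := d) (w := w) (k := k) (wc := wc) (A := A) (L := L) (M1 := (M:ℝ) + 1)
    (Y := 128 * ((M : ℝ) + 1) / (d : ℝ) ^ 2) (P := 2 ^ n) (l3 := Real.logb 2 3) hdR h8R hk1R hwcR hA7 hL7 hMnn rfl h2n hlog3
    (by positivity) hkpos (by linarith)
  exact hfin

/-- from the doubling inequality to the bound on the horizon -/
lemma horizon_bound {d M T w : ℕ} (hd : 64 ≤ d) (hw : d < 8 * w + 8) (ε : ℝ) (hε0 : 0 < ε) (hε1 : ε < 1)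
    (h : Real.logb 2 (1 / ε) ≤ 2 ^ (T / w + 1) * (Real.logb 2 (2 * d) + 128 * ((M : ℝ) + 1) / (d : ℝ) ^ 2)) :
    ((d : ℝ) / 16) * (Real.logb 2 (Real.logb 2 (1 / ε) / (Real.logb 2 (2 * d) + 128 * ((M : ℝ) + 1) / (d : ℝ) ^ 2)) - 1) ≤ T := by
  have hdR : (64:ℝ) ≤ d := by exact_mod_cast hd
  have hwR : (d:ℝ) < 8 * w + 8 := by exact_mod_cast hw
  have hwpos : (0:ℝ) < w := by linarith
  have hw0 : 0 < w := by exact_mod_cast hwpos
  set L := Real.logb 2 (1 / ε) with hL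
  set X := Real.logb 2 (2 * d) + 128 * ((M : ℝ) + 1) / (d : ℝ) ^ 2 with hX
  have hLpos : 0 < L := by
    rw [hL]
    apply Real.logb_pos (by norm_num)
    rw [lt_div_iff₀ hε0]
    linarith
  have hXpos : 0 < X := by
    have h1 : 0 < Real.logb 2 (2 * (d:ℝ)) := by
      apply Real.logb_pos (by norm_num)
      linarith
    have h2 : 0 ≤ 128 * ((M : ℝ) + 1) / (d : ℝ) ^ 2 := by positivity
    rw [hX]
    linarith
  have h1 : L / X ≤ 2 ^ (T / w + 1) := by
    rw [div_le_iff₀ hXpos]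
    exact h
  have h2 : Real.logb 2 (L / X) ≤ ((T / w + 1 : ℕ) : ℝ) := by
    have h3 := Real.logb_le_logb_of_le (b := 2) (by norm_num) (div_pos hLpos hXpos) h1
    rwa [Real.logb_pow, Real.logb_self_eq_one (by norm_num), mul_one] at h3
  have h4 : ((T / w : ℕ) : ℝ) ≤ (T : ℝ) / w := Nat.cast_div_le
  have h5 : Real.logb 2 (L / X) - 1 ≤ (T : ℝ) / w := by
    push_cast at h2
    linarith
  have hTnn : (0:ℝ) ≤ T := by positivity
  by_cases h6 : Real.logb 2 (L / X) - 1 ≤ 0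
  · have : ((d:ℝ) / 16) * (Real.logb 2 (L / X) - 1) ≤ 0 :=
      mul_nonpos_of_nonneg_of_nonpos (by positivity) h6
    linarith
  · rw [not_le] at h6
    have h7 : (d:ℝ) / 16 ≤ w := by linarith
    calc ((d:ℝ) / 16) * (Real.logb 2 (L / X) - 1) ≤ (w:ℝ) * (Real.logb 2 (L / X) - 1) :=
          mul_le_mul_of_nonneg_right h7 h6.le
      _ ≤ (w:ℝ) * ((T : ℝ) / w) := mul_le_mul_of_nonneg_left h5 hwpos.le
      _ = T := by field_simp

/-- passing from the extended nonnegative reals to the reals -/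
lemma enn_to_real {d w k M n : ℕ} (hd : 0 < d) (hk : 0 < k) {κr : ℝ} (hκ : 0 ≤ κr)
    (h : (2 / 3 : ℝ≥0∞) ≤ (2⁻¹) ^ 2 + Dfun (ENNReal.ofReal (eR d w k M)) n * ENNReal.ofReal κr) :
    (5 / 12 : ℝ) ≤ (16 * eR d w k M) ^ (2 ^ n) * κr := by
  have hE : (1:ℝ≥0∞) ≤ ENNReal.ofReal (eR d w k M) := by
    rw [← ENNReal.ofReal_one]
    exact ENNReal.ofReal_le_ofReal (one_le_eR d w k M hd hk)
  have hpos := eR_pos d w k M hd
  have h1 := Dfun_le hE n
  have h2 : ((16 : ℝ≥0∞) * ENNReal.ofReal (eR d w k M)) ^ (2 ^ n) = ENNReal.ofReal ((16 * eR d w k M) ^ (2 ^ n)) := by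
    rw [ENNReal.ofReal_pow (by positivity), ENNReal.ofReal_mul (by norm_num)]
    norm_num
  rw [h2] at h1
  have h3 : (2⁻¹ : ℝ≥0∞) ^ 2 = ENNReal.ofReal (1 / 4) := by
    rw [show (1 / 4 : ℝ) = (2⁻¹) ^ 2 by norm_num, ENNReal.ofReal_pow (by norm_num),
      ENNReal.ofReal_inv_of_pos (by norm_num)]
    norm_num
  have h4 : (2 / 3 : ℝ≥0∞) = ENNReal.ofReal (2 / 3) := by
    rw [ENNReal.ofReal_div_of_pos (by norm_num)]
    norm_num
  have h5 : (2 / 3 : ℝ≥0∞) ≤ ENNReal.ofReal (1 / 4 + (16 * eR d w k M) ^ (2 ^ n) * κr) := by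
    rw [ENNReal.ofReal_add (by norm_num) (by positivity), ENNReal.ofReal_mul (by positivity), ← h3]
    refine h.trans ?_
    gcongr
  rw [h4] at h5
  have h6 := (ENNReal.ofReal_le_ofReal_iff (by positivity)).mp h5
  linarith

end Numerics


end Vale.Agent.Lib.P309
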