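import Mathlib
import Vale.Agent.Lib.P309.Numerics

open MeasureTheory ProbabilityTheory Set Module InnerProductSpace
open scoped ENNReal
set_option linter.unusedSectionVars false
set_option linter.unusedVariables false
set_option linter.unusedSimpArgs false
set_option linter.unnecessarySimpa false

namespace Vale.Agent.Lib.P309

section Reduction

lemma chord_le_arc {d : ℕ} (a b : Vec d) (ha : ‖a‖ = 1) (hb : ‖b‖ = 1) (ε : ℝ)
    (h : Real.arccos (inner ℝ a b) ≤ ε) : ‖b - a‖ ≤ ε := by
  set θ := Real.arccos (inner ℝ a b) with hθ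
  have hθ0 : 0 ≤ θ := Real.arccos_nonneg _
  have hi := abs_real_inner_le_norm a b
  rw [ha, hb, mul_one] at hi
  have hcos : Real.cos θ = inner ℝ a b :=
    Real.cos_arccos (abs_le.mp hi).1 (abs_le.mp hi).2
  have h1 : ‖b - a‖ ^ 2 = 2 - 2 * inner ℝ a b := by
    rw [norm_sub_sq_real, ha, hb, real_inner_comm]
    ring
  have h2 := Real.one_sub_sq_div_two_le_cos (x := θ)
  have h3 : ‖b - a‖ ^ 2 ≤ θ ^ 2 := by
    rw [h1, ← hcos]
    linarith
  have h4 : ‖b - a‖ ≤ θ := (sq_le_sq₀ (norm_nonneg _) hθ0).mp h3
  exact h4.trans h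

variable {d M : ℕ} {Ω : Type*} [MeasurableSpace Ω]

/-- the deterministic rule obtained from the learner by fixing the seed and the horizon -/
noncomputable def ruleF (L : Learner d M Ω) (T : ℕ) (s : Ω) (t : ℕ) (p : Fin (2 ^ M) × Bool)
    (x : Vec d) (y : ℝ) : Fin (2 ^ M) × Bool :=
  if t < T then (if p.2 then p else (L.step t p.1 x y s, L.halt t p.1 x y s)) else p

lemma ruleF_joint (L : Learner d M Ω) (T t : ℕ) :
    Measurable (fun q : (Fin (2 ^ M) × Bool) × Vec d × ℝ × Ω =>
      ruleF L T q.2.2.2 t q.1 q.2.1 q.2.2.1) := by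
  unfold ruleF
  by_cases ht : t < T
  · simp only [ht, if_true]
    apply Measurable.ite
    · exact (measurable_snd.comp measurable_fst) (measurableSet_singleton true)
    · exact measurable_fst
    · apply Measurable.prodMk
      · exact (L.step_meas t).comp ((measurable_fst.comp measurable_fst).prodMk measurable_snd)
      · exact (L.halt_meas t).comp ((measurable_fst.comp measurable_fst).prodMk measurable_snd)
  · simp only [ht, if_false]
    exact measurable_fst

lemma ruleF_sect (L : Learner d M Ω) (T : ℕ) (s : Ω) (t : ℕ) :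
    Measurable (fun p : (Fin (2 ^ M) × Bool) × Vec d × ℝ => ruleF L T s t p.1 p.2.1 p.2.2) :=
  (ruleF_joint L T t).comp (measurable_fst.prodMk
    ((measurable_fst.comp measurable_snd).prodMk ((measurable_snd.comp measurable_snd).prodMk measurable_const)))

lemma ruleF_pad (L : Learner d M Ω) (T : ℕ) (s : Ω) : ∀ t, T ≤ t → ∀ v x y, ruleF L T s t v x y = v := by
  intro t ht v x y
  unfold ruleF
  simp [not_lt.mpr ht]

/-- the foldl in the definition of the run is the recursion of `runY` -/
lemma run_eq_runY (L : Learner d M Ω) (T : ℕ) (A : Fin T → Vec d) (S : Vec d) (s : Ω) :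
    L.run T A S s = runY (ruleF L T s) 0 T (L.init s, false) A (lab A S) := by
  unfold Learner.run
  have key : ∀ (b : ℕ) (hb : b ≤ T) (B : Fin b → Vec d),
      Fin.foldl b (fun p (i : Fin b) =>
        if p.2 then p
        else (L.step i p.1 (B i) (inner ℝ (B i) S) s, L.halt i p.1 (B i) (inner ℝ (B i) S) s))
        (L.init s, false) = runY (ruleF L T s) 0 b (L.init s, false) B (lab B S) := by
    intro b
    induction b with
    | zero =>
      intro hb B
      simp [runY]
    | succ b ih =>
      intro hb B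
      rw [Fin.foldl_succ_last]
      simp only [runY]
      have h1 := ih (by omega) (Fin.init B)
      have h2 : (Fin.init (lab B S) : Fin b → ℝ) = lab (Fin.init B) S := rfl
      rw [h2, ← h1]
      have hlt : 0 + b < T := by omega
      simp only [ruleF, hlt, if_true]
      have h3 : lab B S (Fin.last b) = inner ℝ (B (Fin.last b)) S := rfl
      simp only [h3, Fin.val_last, zero_add, Fin.val_castSucc, Fin.init]
  exact key T le_rfl A

/-- joint measurability of the final state in rows, signal and seed -/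
lemma measurable_runJoint (L : Learner d M Ω) (T b : ℕ) :
    Measurable (fun q : (Fin b → Vec d) × Vec d × Ω =>
      runY (ruleF L T q.2.2) 0 b (L.init q.2.2, false) q.1 (lab q.1 q.2.1)) := by
  induction b with
  | zero =>
    simp only [runY]
    apply Measurable.prodMk
    · exact L.init_meas.comp (measurable_snd.comp measurable_snd)
    · exact measurable_const
  | succ b ih =>
    simp only [runY]
    have h1 : Measurable (fun q : (Fin (b + 1) → Vec d) × Vec d × Ω =>
        ((Fin.init q.1 : Fin b → Vec d), q.2.1, q.2.2)) := by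
      apply Measurable.prodMk
      · apply measurable_pi_iff.mpr
        intro j
        exact (measurable_pi_apply j.castSucc).comp measurable_fst
      · exact measurable_snd
    have h2 := ih.comp h1
    have h3 := ruleF_joint (d := d) L T (0 + b)
    refine h3.comp (h2.prodMk (Measurable.prodMk ?_ (Measurable.prodMk ?_ ?_)))
    · exact (measurable_pi_apply (Fin.last b)).comp measurable_fst
    · exact (measurable_lab.comp (measurable_fst.prodMk (measurable_fst.comp measurable_snd))) |> fun h =>
        (measurable_pi_apply (Fin.last b)).comp h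
    · exact measurable_snd.comp measurable_snd

/-- the relaxed success event, in terms of distances -/
def succSet (L : Learner d M Ω) (T : ℕ) (ε : ℝ) :
    Set (Metric.sphere (0 : Vec d) 1 × ((Fin T → Vec d) × Ω)) :=
  {p | ‖(p.1 : Vec d) - (L.out (runY (ruleF L T p.2.2) 0 T (L.init p.2.2, false) p.2.1 (lab p.2.1 (p.1 : Vec d))).1 p.2.2 : Vec d)‖ ≤ ε}

lemma measurableSet_succSet (L : Learner d M Ω) (T : ℕ) (ε : ℝ) : MeasurableSet (succSet L T ε) := by
  unfold succSet
  apply measurableSet_le
  · apply Measurable.norm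
    apply Measurable.sub
    · exact measurable_subtype_coe.comp measurable_fst
    · have h1 := measurable_runJoint L T T
      have h2 : Measurable (fun p : Metric.sphere (0 : Vec d) 1 × ((Fin T → Vec d) × Ω) =>
          ((p.2.1, (p.1 : Vec d), p.2.2) : (Fin T → Vec d) × Vec d × Ω)) :=
        (measurable_fst.comp measurable_snd).prodMk
          ((measurable_subtype_coe.comp measurable_fst).prodMk (measurable_snd.comp measurable_snd))
      have h3 := h1.comp h2
      have h4 : Measurable (fun p : Metric.sphere (0 : Vec d) 1 × ((Fin T → Vec d) × Ω) =>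
          (L.out (runY (ruleF L T p.2.2) 0 T (L.init p.2.2, false) p.2.1 (lab p.2.1 (p.1 : Vec d))).1 p.2.2)) :=
        L.out_meas.comp ((measurable_fst.comp h3).prodMk (measurable_snd.comp measurable_snd))
      exact measurable_subtype_coe.comp h4
  · exact measurable_const

lemma successProb_le (L : Learner d M Ω) (T : ℕ) (μ : Measure Ω) [IsProbabilityMeasure μ] (ε : ℝ) (hd : 0 < d)
    (C : ℝ≥0∞)
    (hC : ∀ s : Ω, ∫⁻ S : Metric.sphere (0 : Vec d) 1,
      PP d T {A | ‖(S : Vec d) - (L.out (runY (ruleF L T s) 0 T (L.init s, false) A (lab A (S : Vec d))).1 s : Vec d)‖ ≤ ε} ∂(sphereUnif d) ≤ C) :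
    L.successProb T μ ε ≤ C := by
  have : Fact (0 < d) := ⟨hd⟩
  have hsub : {p : Metric.sphere (0 : Vec d) 1 × ((Fin T → Vec d) × Ω) |
      Real.arccos (inner ℝ ((L.out (L.run T p.2.1 p.1 p.2.2).1 p.2.2 : Metric.sphere (0 : Vec d) 1) : Vec d)
        (p.1 : Vec d)) ≤ ε} ⊆ succSet L T ε := by
    intro p hp
    have h1 := chord_le_arc _ _ (by simpa using (L.out (L.run T p.2.1 p.1 p.2.2).1 p.2.2).2) (by simpa using p.1.2) ε hp
    rw [run_eq_runY] at h1
    exact h1
  unfold Learner.successProb
  refine (measure_mono hsub).trans ?_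
  have hS := measurableSet_succSet L T ε
  rw [← lintegral_indicator_one hS]
  have hind : Measurable ((succSet L T ε).indicator (1 : Metric.sphere (0 : Vec d) 1 × ((Fin T → Vec d) × Ω) → ℝ≥0∞)) :=
    measurable_one.indicator hS
  rw [lintegral_prod _ hind.aemeasurable]
  have h2 : ∀ S : Metric.sphere (0 : Vec d) 1,
      ∫⁻ q, (succSet L T ε).indicator (1 : Metric.sphere (0 : Vec d) 1 × ((Fin T → Vec d) × Ω) → ℝ≥0∞) (S, q) ∂((PP d T).prod μ) =
      ∫⁻ s, ∫⁻ A, (succSet L T ε).indicator (1 : Metric.sphere (0 : Vec d) 1 × ((Fin T → Vec d) × Ω) → ℝ≥0∞) (S, (A, s)) ∂(PP d T) ∂μ := by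
    intro S
    have h3 : Measurable (fun q : (Fin T → Vec d) × Ω =>
        (succSet L T ε).indicator (1 : Metric.sphere (0 : Vec d) 1 × ((Fin T → Vec d) × Ω) → ℝ≥0∞) (S, q)) :=
      hind.comp (measurable_const.prodMk measurable_id)
    exact lintegral_prod_symm _ h3.aemeasurable
  simp only [h2]
  rw [lintegral_lintegral_swap]
  · calc _ ≤ ∫⁻ s : Ω, C ∂μ := by
          apply lintegral_mono
          intro s
          refine le_trans (le_of_eq ?_) (hC s)
          apply lintegral_congr
          intro S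
          have hmA : MeasurableSet {A : Fin T → Vec d | ‖(S : Vec d) - (L.out (runY (ruleF L T s) 0 T (L.init s, false) A (lab A (S : Vec d))).1 s : Vec d)‖ ≤ ε} := by
            have h4 : Measurable (fun A : Fin T → Vec d => ((S, (A, s)) : Metric.sphere (0 : Vec d) 1 × ((Fin T → Vec d) × Ω))) :=
              measurable_const.prodMk (measurable_id.prodMk measurable_const)
            exact h4 hS
          rw [← lintegral_indicator_one hmA]
          apply lintegral_congr
          intro A
          rfl
      _ = C := by simp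
  · have h5 : Measurable (fun q : Metric.sphere (0 : Vec d) 1 × Ω =>
        ∫⁻ A, (succSet L T ε).indicator (1 : Metric.sphere (0 : Vec d) 1 × ((Fin T → Vec d) × Ω) → ℝ≥0∞) (q.1, (A, q.2)) ∂(PP d T)) := by
      apply Measurable.lintegral_prod_right'
        (f := fun r : (Metric.sphere (0 : Vec d) 1 × Ω) × (Fin T → Vec d) =>
          (succSet L T ε).indicator (1 : Metric.sphere (0 : Vec d) 1 × ((Fin T → Vec d) × Ω) → ℝ≥0∞) (r.1.1, (r.2, r.1.2)))
      exact hind.comp ((measurable_fst.comp measurable_fst).prodMk (measurable_snd.prodMk (measurable_snd.comp measurable_fst)))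
    exact h5.aemeasurable

/-- the main theorem: lower bound on the horizon for randomized learners -/
theorem main_bound {T : ℕ} (hd : 64 ≤ d) (μ : Measure Ω) [IsProbabilityMeasure μ] (L : Learner d M Ω)
    {ε : ℝ} (hε0 : 0 < ε) (hε1 : ε < 1) (h : (2 / 3 : ℝ≥0∞) ≤ L.successProb T μ ε) :
    ((d : ℝ) / 16) * (Real.logb 2 (Real.logb 2 (1 / ε) / (Real.logb 2 (2 * d) + 128 * ((M : ℝ) + 1) / (d : ℝ) ^ 2)) - 1) ≤ T := by
  set w := d / 8 with hw
  set k := d / 16 with hk
  set m := d - (w + w) with hm
  set wc := (d - 2) / 2 with hwc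
  set n := T / w + 1 with hn
  have hd0 : 0 < d := by omega
  have hd' : d = (w + w) + m := by omega
  have hm2 : 2 ≤ m := by omega
  have h8 : 8 * w ≤ d := by omega
  have h16 : 16 * k ≤ d := by omega
  have hk2 : 2 ≤ k := by omega
  have hk4 : 4 * k < m := by omega
  have hw0 : 0 < w := by omega
  have hwc0 : 0 < wc := by omega
  have hTn : T ≤ n * w := by
    have h1 := Nat.div_add_mod T w
    have h2 := Nat.mod_lt T hw0
    rw [hn, add_mul, one_mul, mul_comm (T / w) w]
    omega
  set E := ENNReal.ofReal (eR d w k M) with hEdef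
  have hposE := eR_pos d w k M hd0
  have hE : ENNReal.ofReal ((2 * (d : ℝ)) ^ w) * (Fintype.card (Fin (2 ^ M) × Bool) : ℝ≥0∞) ^ (1 / (k : ℝ)) = E := by
    rw [hEdef, eR, ENNReal.ofReal_mul (by positivity)]
    congr 1
    rw [← ENNReal.ofReal_rpow_of_pos (by positivity)]
    congr 1
    rw [Fintype.card_prod, Fintype.card_fin, Fintype.card_bool, pow_succ, ENNReal.ofReal_mul (by positivity)]
    push_cast
    rw [ENNReal.ofReal_pow (by norm_num)]
    norm_num
  have hE0 : E ≠ 0 := by simpa [hEdef] using hposE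
  have hET : E ≠ ⊤ := by simp [hEdef]
  set κr : ℝ := ((d : ℝ) * ε ^ 2 / 2) ^ wc / (wc.factorial : ℝ) with hκr
  have hκr0 : 0 ≤ κr := by positivity
  have hκ : ∀ c : Vec d, sphereUnif d {ω | ‖(ω : Vec d) - c‖ ≤ ε} ≤ ENNReal.ofReal κr := fun c =>
    cap_le hwc0 (by omega) c ε hε0
  have hdet : ∀ s : Ω, ∫⁻ S : Metric.sphere (0 : Vec d) 1,
      PP d T {A | ‖(S : Vec d) - (L.out (runY (ruleF L T s) 0 T (L.init s, false) A (lab A (S : Vec d))).1 s : Vec d)‖ ≤ ε} ∂(sphereUnif d) ≤
        (2⁻¹) ^ 2 + Dfun E n * ENNReal.ofReal κr := by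
    intro s
    exact det_bound hd' hm2 h8 h16 hk2 hk4 (ruleF L T s) (ruleF_sect L T s) (ruleF_pad L T s) hTn
      (L.init s, false) (fun v => (L.out v.1 s : Vec d)) ε _ hκ E hE hE0 hET
  have hsucc := successProb_le L T μ ε hd0 _ hdet
  have hreal := enn_to_real hd0 (by omega) hκr0 (h.trans hsucc)
  have hκle : κr ≤ (3 * ε ^ 2) ^ wc := kappa_le hd (by omega) ε hε0
  have hreal2 : (5 / 12 : ℝ) ≤ (16 * eR d w k M) ^ (2 ^ n) * (3 * ε ^ 2) ^ wc :=
    hreal.trans (mul_le_mul_of_nonneg_left hκle (by positivity))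
  have hnum := numeric_core hd h8 (by omega) (by omega) ε hε0 hε1 hreal2
  exact horizon_bound hd (by omega) ε hε0 hε1 hnum

end Reduction


end Vale.Agent.Lib.P309
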