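import Mathlib
import Vale.Agent.Lib.P309.HChain
import Vale.Agent.Lib.P309.Main

/-! The final memory-sample tradeoff. -/

open MeasureTheory ProbabilityTheory Set Module InnerProductSpace
open scoped ENNReal
set_option linter.unusedSectionVars false
set_option linter.unusedVariables false
set_option linter.unusedSimpArgs false
set_option linter.unnecessarySimpa false
set_option linter.style.haveILetI false

namespace Vale.Agent.Lib.P309

section SphereDim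
variable {d wc : ℕ}

lemma sig_ball_le (hd : 64 ≤ d) (h1 : 2 * wc + 2 ≤ d) (h2 : d ≤ 2 * wc + 3) (x : Vec d) {t : ℝ} (ht : 0 < t) :
    sig d (Metric.closedBall x t) ≤ ENNReal.ofReal ((3 * t ^ 2) ^ wc) := by
  have hwc0 : 0 < wc := by omega
  rw [sig_apply Metric.isClosed_closedBall.measurableSet]
  have h3 : {ω : Metric.sphere (0 : Vec d) 1 | (ω : Vec d) ∈ Metric.closedBall x t} =
      {ω : Metric.sphere (0 : Vec d) 1 | ‖(ω : Vec d) - x‖ ≤ t} := by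
    ext ω
    simp [Metric.mem_closedBall, dist_eq_norm]
  rw [h3]
  refine (cap_le hwc0 h1 x t ht).trans ?_
  apply ENNReal.ofReal_le_ofReal
  exact kappa_le hd h2 t ht

lemma sig_ball_le_const [Fact (0 < d)] (hd : 64 ≤ d) (h1 : 2 * wc + 2 ≤ d) (h2 : d ≤ 2 * wc + 3) (x : Vec d) {t : ℝ} (ht : 0 < t) :
    sig d (Metric.closedBall x t) ≤ ENNReal.ofReal (3 ^ wc) * ENNReal.ofReal t ^ wc := by
  rw [← ENNReal.ofReal_pow ht.le, ← ENNReal.ofReal_mul (by positivity)]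
  by_cases ht1 : t ≤ 1
  · refine (sig_ball_le hd h1 h2 x ht).trans ?_
    apply ENNReal.ofReal_le_ofReal
    rw [mul_pow]
    gcongr
    nlinarith
  · push Not at ht1
    calc sig d (Metric.closedBall x t) ≤ 1 := prob_le_one
      _ = ENNReal.ofReal 1 := by simp
      _ ≤ _ := by
          apply ENNReal.ofReal_le_ofReal
          have h3 : (1:ℝ) ≤ 3 ^ wc := one_le_pow₀ (by norm_num)
          have h4 : (1:ℝ) ≤ t ^ wc := one_le_pow₀ ht1.le
          nlinarith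

/-- constant multiples of indicators of small balls are Frostman densities -/
lemma cap_frost (hd : 64 ≤ d) (h1 : 2 * wc + 2 ≤ d) (h2 : d ≤ 2 * wc + 3) (s : Vec d) {ε : ℝ} (hε : 0 < ε) :
    IsFrost d wc ((Metric.closedBall s ε).indicator (fun _ => (ENNReal.ofReal ((3 * ε) ^ wc))⁻¹)) := by
  have hBm : MeasurableSet (Metric.closedBall s ε) := Metric.isClosed_closedBall.measurableSet
  refine ⟨measurable_const.indicator hBm, ?_⟩
  intro x t ht
  set a := ENNReal.ofReal ((3 * ε) ^ wc) with ha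
  have ha0 : a ≠ 0 := by
    simp only [ha, ne_eq, ENNReal.ofReal_eq_zero, not_le]
    positivity
  have haT : a ≠ ⊤ := ENNReal.ofReal_ne_top
  have h3 : ∫⁻ S in Metric.closedBall x t, (Metric.closedBall s ε).indicator (fun _ => a⁻¹) S ∂(sig d) =
      a⁻¹ * sig d (Metric.closedBall x t ∩ Metric.closedBall s ε) := by
    rw [lintegral_indicator hBm, setLIntegral_const, Measure.restrict_apply hBm, inter_comm]
  rw [h3]
  have h4 : sig d (Metric.closedBall x t ∩ Metric.closedBall s ε) ≤ a * ENNReal.ofReal t ^ wc := by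
    rw [ha, ← ENNReal.ofReal_pow ht.le, ← ENNReal.ofReal_mul (by positivity)]
    by_cases hte : t ≤ ε
    · refine (measure_mono inter_subset_left).trans ((sig_ball_le hd h1 h2 x ht).trans ?_)
      apply ENNReal.ofReal_le_ofReal
      rw [← mul_pow]
      apply pow_le_pow_left₀ (by positivity)
      have := mul_le_mul_of_nonneg_right hte ht.le
      nlinarith
    · push Not at hte
      refine (measure_mono inter_subset_right).trans ((sig_ball_le hd h1 h2 s hε).trans ?_)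
      apply ENNReal.ofReal_le_ofReal
      rw [← mul_pow]
      apply pow_le_pow_left₀ (by positivity)
      have := mul_le_mul_of_nonneg_left hte.le hε.le
      nlinarith
  calc a⁻¹ * sig d (Metric.closedBall x t ∩ Metric.closedBall s ε)
      ≤ a⁻¹ * (a * ENNReal.ofReal t ^ wc) := by gcongr
    _ = _ := by
      rw [← mul_assoc, ENNReal.inv_mul_cancel ha0 haT, one_mul]

end SphereDim

section Numbers

lemma nat_le_pow_div_eight {d : ℕ} (hd : 64 ≤ d) : d ≤ 2 ^ (d / 8) := by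
  have key : ∀ q : ℕ, 6 ≤ q → 8 * (q + 1) ≤ 2 ^ q := by
    intro q hq
    induction q, hq using Nat.le_induction with
    | base => norm_num
    | succ q hq ih =>
      rw [pow_succ]
      omega
  have h1 := key (d / 8) (by omega)
  have h2 := Nat.div_add_mod d 8
  have h3 := Nat.mod_lt d (by norm_num : 8 > 0)
  omega

lemma nat_le_mul_two_pow_div (A d : ℕ) (hd : 0 < d) : A ≤ d * 2 ^ (A / d) := by
  have h1 : A / d + 1 ≤ 2 ^ (A / d) := Nat.lt_two_pow_self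
  have h2 := Nat.div_add_mod A d
  have h3 := Nat.mod_lt A hd
  calc A = d * (A / d) + A % d := h2.symm
    _ ≤ d * (A / d + 1) := by nlinarith
    _ ≤ _ := Nat.mul_le_mul_left _ h1

/-- the rate of the recursion is a power of two -/
lemma psi_le {d w wc A b : ℕ} (hd : 64 ≤ d) :
    (A : ℝ≥0∞) * (4 * 16 ^ wc) * ((2 : ℝ≥0∞) ^ b * (3 * ENNReal.ofReal 144 ^ w + 1)) ≤
      2 ^ (d / 8 + A / d + 2 + 4 * wc + b + (8 * w + 2)) := by
  have hA : A ≤ 2 ^ (d / 8 + A / d) := by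
    calc A ≤ d * 2 ^ (A / d) := nat_le_mul_two_pow_div A d (by omega)
      _ ≤ 2 ^ (d / 8) * 2 ^ (A / d) := Nat.mul_le_mul_right _ (nat_le_pow_div_eight hd)
      _ = _ := (pow_add _ _ _).symm
  have hA' : (A : ℝ≥0∞) ≤ 2 ^ (d / 8 + A / d) := by
    exact_mod_cast hA
  have h4 : (4 : ℝ≥0∞) * 16 ^ wc = 2 ^ (2 + 4 * wc) := by
    rw [pow_add, pow_mul]
    norm_num
  have h144 : ENNReal.ofReal 144 ^ w ≤ (2 : ℝ≥0∞) ^ (8 * w) := by
    rw [pow_mul]
    gcongr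
    have : ENNReal.ofReal 144 = (144 : ℝ≥0∞) := by
      rw [show (144:ℝ) = ((144 : ℕ) : ℝ) by norm_num, ENNReal.ofReal_natCast]
      norm_num
    rw [this]
    norm_num
  have h5 : 3 * ENNReal.ofReal 144 ^ w + 1 ≤ (2 : ℝ≥0∞) ^ (8 * w + 2) := by
    have h6 : (1 : ℝ≥0∞) ≤ 2 ^ (8 * w) := one_le_pow₀ (by norm_num)
    calc 3 * ENNReal.ofReal 144 ^ w + 1 ≤ 3 * 2 ^ (8 * w) + 2 ^ (8 * w) := by gcongr
      _ = 4 * 2 ^ (8 * w) := by ring
      _ = _ := by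
        rw [pow_add]
        norm_num
        ring
  calc _ ≤ (2 : ℝ≥0∞) ^ (d / 8 + A / d) * 2 ^ (2 + 4 * wc) * (2 ^ b * 2 ^ (8 * w + 2)) := by
        rw [h4]
        gcongr
    _ = _ := by
        simp only [← pow_add]
        congr 1
        ring

lemma arith_main {d Mp T w wc X J L : ℝ} (hd : 1024 ≤ d) (h1 : 16 * w ≤ d) (h2 : d < 16 * w + 16)
    (hwc : d ≤ 2 * wc + 3) (hX : X ≤ 3 * d + 17 * (Mp / d)) (hJ : J * w ≤ T + w) (hJ0 : 0 ≤ J)
    (hMp : 1 ≤ Mp) (hT : 0 ≤ T) (hmain : wc * (L - 8 / 5) ≤ 1 + X * J) :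
    d * (L - 2) ≤ (110 + 600 * (Mp / d ^ 2)) * (T + d) := by
  have hd0 : 0 < d := by linarith
  set Q := T + d with hQ
  have hQ1 : 1024 ≤ Q := by rw [hQ]; linarith
  set B := Mp / d ^ 2 with hB
  have hB0 : 0 ≤ B := by positivity
  have hBQ : 0 ≤ B * Q := by positivity
  have hw16 : 16 ≤ w := by linarith
  have hd17 : d ≤ 17 * w := by linarith
  have hJd : J * d ≤ 17 * Q := by
    have h3 : J * d ≤ J * (17 * w) := mul_le_mul_of_nonneg_left hd17 hJ0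
    have h4 : w ≤ d := by linarith
    rw [hQ]
    nlinarith
  have hXJ : X * J ≤ 51 * Q + 289 * (B * Q) := by
    have h3 : X * J ≤ (3 * d + 17 * (Mp / d)) * J := mul_le_mul_of_nonneg_right hX hJ0
    have h4 : (3 * d + 17 * (Mp / d)) * J = 3 * (J * d) + 17 * (Mp / d ^ 2) * (J * d) := by
      field_simp
    have h5 : 17 * (Mp / d ^ 2) * (J * d) ≤ 17 * (Mp / d ^ 2) * (17 * Q) :=
      mul_le_mul_of_nonneg_left hJd (by positivity)
    rw [h4] at h3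
    have h6 : 17 * (Mp / d ^ 2) * (17 * Q) = 289 * (B * Q) := by
      rw [hB]
      ring
    linarith
  have hgoal : (110 + 600 * B) * Q = 110 * Q + 600 * (B * Q) := by ring
  rw [hgoal]
  by_cases hL : L ≤ 2
  · have h3 : d * (L - 2) ≤ 0 := mul_nonpos_of_nonneg_of_nonpos hd0.le (by linarith)
    linarith
  push Not at hL
  have hwc0 : 0 ≤ wc := by linarith
  have h3 : wc * (L - 2) ≤ wc * (L - 8 / 5) := by
    apply mul_le_mul_of_nonneg_left _ hwc0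
    linarith
  have h4 : (0.495 * d) * (L - 2) ≤ wc * (L - 2) := by
    apply mul_le_mul_of_nonneg_right _ (by linarith)
    linarith
  have h5 : 0.495 * (d * (L - 2)) = (0.495 * d) * (L - 2) := by ring
  linarith

lemma arith_count {d Mp T wc L : ℝ} (hd : 1024 ≤ d) (hwc : d ≤ 2 * wc + 3) (hMp : 1 ≤ Mp) (hT : d ^ 2 ≤ T + d)
    (hcount : 2 * wc * L ≤ Mp + 8 / 5 * wc + 1) :
    d * (L - 2) ≤ (110 + 600 * (Mp / d ^ 2)) * (T + d) := by
  have hd0 : 0 < d := by linarith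
  have hQ0 : 0 ≤ T + d := le_trans (by positivity) hT
  have h1 : 600 * Mp ≤ 600 * (Mp / d ^ 2) * (T + d) := by
    have h2 : 600 * (Mp / d ^ 2) * d ^ 2 ≤ 600 * (Mp / d ^ 2) * (T + d) :=
      mul_le_mul_of_nonneg_left hT (by positivity)
    have h3 : 600 * (Mp / d ^ 2) * d ^ 2 = 600 * Mp := by
      field_simp
    linarith
  have hgoal : (110 + 600 * (Mp / d ^ 2)) * (T + d) = 110 * (T + d) + 600 * (Mp / d ^ 2) * (T + d) := by ring
  rw [hgoal]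
  by_cases hL : L ≤ 2
  · have h3 : d * (L - 2) ≤ 0 := mul_nonpos_of_nonneg_of_nonpos hd0.le (by linarith)
    linarith
  push Not at hL
  have hL2 : 0 ≤ L - 2 := by linarith
  have h3 : (d - 3) * (L - 2) ≤ 2 * wc * (L - 2) := by
    apply mul_le_mul_of_nonneg_right _ hL2
    linarith
  have hwc0 : 0 ≤ wc := by linarith
  have h4 : 2 * wc * (L - 2) ≤ Mp + 1 := by nlinarith
  have h5 : 0.99 * (d * (L - 2)) ≤ (d - 3) * (L - 2) := by
    have : 0.99 * d ≤ d - 3 := by linarith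
    have h6 := mul_le_mul_of_nonneg_right this hL2
    linarith
  linarith

lemma logb_three_le : Real.logb 2 3 ≤ 8 / 5 := by
  rw [Real.logb_le_iff_le_rpow (by norm_num) (by norm_num)]
  have h1 : ((3:ℝ)) ^ (5:ℕ) ≤ ((2:ℝ) ^ ((8:ℝ) / 5)) ^ (5:ℕ) := by
    rw [← Real.rpow_natCast ((2:ℝ) ^ ((8:ℝ) / 5)) 5, ← Real.rpow_mul (by norm_num)]
    norm_num
  exact (pow_le_pow_iff_left₀ (by norm_num) (by positivity) (by norm_num)).mp h1

lemma log_main {ε : ℝ} (hε : 0 < ε) {wc XJ : ℕ} (h : (1 / 2 : ℝ) ≤ (3 * ε) ^ wc * 2 ^ XJ) :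
    (wc : ℝ) * (Real.logb 2 (1 / ε) - 8 / 5) ≤ 1 + (XJ : ℝ) := by
  have h1 := Real.logb_le_logb_of_le (b := 2) (by norm_num) (by norm_num) h
  have h2 : Real.logb 2 (1 / 2) = -1 := by
    rw [one_div, Real.logb_inv, Real.logb_self_eq_one (by norm_num)]
  have hne : (3 * ε) ≠ 0 := by positivity
  rw [h2, Real.logb_mul (pow_ne_zero _ hne) (by positivity), Real.logb_pow, Real.logb_pow,
    Real.logb_mul (by norm_num) hε.ne', Real.logb_self_eq_one (by norm_num)] at h1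
  have h3 : Real.logb 2 (1 / ε) = - Real.logb 2 ε := by
    rw [one_div, Real.logb_inv]
  rw [h3]
  have h4 := logb_three_le
  have hwc : (0:ℝ) ≤ wc := by positivity
  nlinarith

lemma log_count {ε : ℝ} (hε : 0 < ε) {wc Mp : ℕ} (h : (2 / 3 : ℝ) ≤ 2 ^ Mp * (3 * ε ^ 2) ^ wc) :
    2 * (wc : ℝ) * Real.logb 2 (1 / ε) ≤ (Mp : ℝ) + 8 / 5 * wc + 1 := by
  have h1 := Real.logb_le_logb_of_le (b := 2) (by norm_num) (by norm_num) h
  have hne : (3 * ε ^ 2) ≠ 0 := by positivity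
  rw [Real.logb_mul (by positivity) (pow_ne_zero _ hne), Real.logb_pow, Real.logb_pow,
    Real.logb_mul (by norm_num) (by positivity), Real.logb_pow, Real.logb_self_eq_one (by norm_num)] at h1
  have h3 : Real.logb 2 (1 / ε) = - Real.logb 2 ε := by
    rw [one_div, Real.logb_inv]
  rw [h3]
  have h4 := logb_three_le
  have h5 : -1 ≤ Real.logb 2 (2 / 3) := by
    rw [Real.logb_div (by norm_num) (by norm_num), Real.logb_self_eq_one (by norm_num)]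
    linarith
  have hwc : (0:ℝ) ≤ wc := by positivity
  push_cast at h1
  nlinarith

lemma five_thirds_pow {w : ℕ} (hw : 64 ≤ w) : 3468 * (w : ℝ) ≤ (5 / 3 : ℝ) ^ w := by
  induction w, hw using Nat.le_induction with
  | base => norm_num
  | succ w hw ih =>
    rw [pow_succ]
    push_cast
    have hw' : (64:ℝ) ≤ w := by exact_mod_cast hw
    nlinarith

lemma horizon_big {d T w J : ℕ} (hw : 64 ≤ w) (h1 : 16 * w ≤ d) (h2 : d < 16 * w + 16) (hJ : J * w ≤ T + w)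
    (h : (1 / 6 : ℝ) < 2 * J * (3 / 5) ^ w) : (d : ℝ) ^ 2 ≤ (T : ℝ) + d := by
  have h3 := five_thirds_pow hw
  have h4 : ((5 / 3 : ℝ)) ^ w * (3 / 5) ^ w = 1 := by
    rw [← mul_pow]
    norm_num
  have hpos : (0:ℝ) < (3 / 5) ^ w := by positivity
  have h5 : (5 / 3 : ℝ) ^ w ≤ 12 * J := by
    have h6 : (1:ℝ) ≤ 12 * J * (3 / 5) ^ w := by linarith
    have h7 : (5 / 3 : ℝ) ^ w * 1 ≤ (5 / 3 : ℝ) ^ w * (12 * J * (3 / 5) ^ w) :=
      mul_le_mul_of_nonneg_left h6 (by positivity)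
    have h8 : (5 / 3 : ℝ) ^ w * (12 * J * (3 / 5) ^ w) = 12 * J * ((5 / 3 : ℝ) ^ w * (3 / 5) ^ w) := by ring
    rw [h8, h4] at h7
    linarith
  have hwR : (64:ℝ) ≤ w := by exact_mod_cast hw
  have h1R : 16 * (w:ℝ) ≤ d := by exact_mod_cast h1
  have h2R : (d:ℝ) < 16 * w + 16 := by exact_mod_cast h2
  have hJR : (J:ℝ) * w ≤ T + w := by exact_mod_cast hJ
  have hTR : (0:ℝ) ≤ T := by positivity
  have h9 : 289 * (w:ℝ) ≤ J := by linarith
  have h10 : 289 * (w:ℝ) * w ≤ J * w := mul_le_mul_of_nonneg_right h9 (by positivity)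
  have hd0 : (0:ℝ) ≤ d := by positivity
  have h11 : (d:ℝ) ≤ 17 * w := by linarith
  have h12 : (d:ℝ) ^ 2 ≤ (17 * w) ^ 2 := by gcongr
  nlinarith

end Numbers

section Final
variable {d M : ℕ} {Ω : Type*} [MeasurableSpace Ω]

lemma rem_bound {Mp w A : ℕ} (h1 : A = (Mp + 1) + w) {δ : ℝ≥0∞} (hAδ : (A : ℝ≥0∞) * δ = (2⁻¹ : ℝ≥0∞) ^ A) :
    (2 : ℝ≥0∞) ^ Mp * ((2⁻¹ : ℝ≥0∞) ^ A + A * δ) ≤ ENNReal.ofReal (3 / 5) ^ w := by
  rw [hAδ, ← two_mul]
  have h2 : (2:ℝ≥0∞) ^ Mp * (2 * (2⁻¹ : ℝ≥0∞) ^ A) = (2⁻¹ : ℝ≥0∞) ^ w := by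
    rw [h1, pow_add (2⁻¹ : ℝ≥0∞) (Mp + 1) w, ← mul_assoc, ← mul_assoc, ← pow_succ, ← mul_pow,
      ENNReal.mul_inv_cancel (by norm_num) (by norm_num), one_pow, one_mul]
  rw [h2]
  gcongr
  rw [show (2⁻¹ : ℝ≥0∞) = ENNReal.ofReal (1 / 2) by
    rw [one_div, ENNReal.ofReal_inv_of_pos (by norm_num)]
    simp]
  apply ENNReal.ofReal_le_ofReal
  norm_num

lemma two_thirds_eq : (2 / 3 : ℝ≥0∞) = ENNReal.ofReal (2 / 3) := by
  rw [ENNReal.ofReal_div_of_pos (by norm_num)]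
  simp

lemma count_to_real {ε : ℝ} (hε0 : 0 < ε) {wc Mp : ℕ}
    (h : (2 / 3 : ℝ≥0∞) ≤ (2 : ℝ≥0∞) ^ Mp * ENNReal.ofReal ((3 * ε ^ 2) ^ wc)) :
    (2 / 3 : ℝ) ≤ 2 ^ Mp * (3 * ε ^ 2) ^ wc := by
  rw [two_thirds_eq] at h
  have h1 : (2 : ℝ≥0∞) ^ Mp * ENNReal.ofReal ((3 * ε ^ 2) ^ wc) = ENNReal.ofReal (2 ^ Mp * (3 * ε ^ 2) ^ wc) := by
    rw [ENNReal.ofReal_mul (by positivity), ENNReal.ofReal_pow (by norm_num : (0:ℝ) ≤ 2) Mp]
    simp
  rw [h1] at h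
  exact (ENNReal.ofReal_le_ofReal_iff (by positivity)).mp h

lemma main_to_real {ε : ℝ} (hε0 : 0 < ε) {wc w J X : ℕ} {Ψ N : ℝ≥0∞} (hΨ : Ψ ≤ 2 ^ X)
    (hN : N ≤ ENNReal.ofReal (3 / 5) ^ w)
    (h : (2 / 3 : ℝ≥0∞) ≤ ENNReal.ofReal ((3 * ε) ^ wc) * Ψ ^ J + (J : ℝ≥0∞) * (ENNReal.ofReal (3 / 5) ^ w + N)) :
    (2 / 3 : ℝ) ≤ (3 * ε) ^ wc * 2 ^ (X * J) + 2 * J * (3 / 5) ^ w := by
  have h1 : ENNReal.ofReal ((3 * ε) ^ wc) * Ψ ^ J + (J : ℝ≥0∞) * (ENNReal.ofReal (3 / 5) ^ w + N) ≤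
      ENNReal.ofReal ((3 * ε) ^ wc * 2 ^ (X * J) + 2 * J * (3 / 5) ^ w) := by
    rw [ENNReal.ofReal_add (by positivity) (by positivity), ENNReal.ofReal_mul (by positivity)]
    gcongr
    · rw [ENNReal.ofReal_pow (by norm_num : (0:ℝ) ≤ 2) (X * J), pow_mul]
      simp only [ENNReal.ofReal_ofNat]
      gcongr
    · rw [ENNReal.ofReal_mul (by positivity), ENNReal.ofReal_pow (by norm_num : (0:ℝ) ≤ 3 / 5) w, mul_comm (2 : ℝ) J,
        ENNReal.ofReal_mul (by positivity)]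
      simp only [ENNReal.ofReal_natCast, ENNReal.ofReal_ofNat]
      rw [mul_assoc]
      gcongr
      rw [two_mul]
      gcongr
  have h2 := h.trans h1
  rw [two_thirds_eq] at h2
  exact (ENNReal.ofReal_le_ofReal_iff (by positivity)).mp h2

/-- the rate exponent -/
def parA (d M : ℕ) : ℕ := (M + 1) + d / 16 + 1
def parB (d M : ℕ) : ℕ := (M + 1) / (d / 16 + 1) + 1
def parX (d M : ℕ) : ℕ := d / 8 + parA d M / d + 2 + 4 * ((d - 2) / 2) + parB d M + (8 * (d / 16) + 2)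
def parJ (d T : ℕ) : ℕ := T / (d / 16) + 1

lemma learner_main {T : ℕ} (hd : 1024 ≤ d) (μ : Measure Ω) [IsProbabilityMeasure μ] (L : Learner d M Ω)
    {ε : ℝ} (hε0 : 0 < ε) (h : (2 / 3 : ℝ≥0∞) ≤ L.successProb T μ ε) :
    (2 / 3 : ℝ) ≤ (3 * ε) ^ ((d - 2) / 2) * 2 ^ (parX d M * parJ d T) + 2 * parJ d T * (3 / 5) ^ (d / 16) := by
  have hd0 : 0 < d := by omega
  haveI : Fact (0 < d) := ⟨hd0⟩
  have hw0 : 0 < d / 16 := by omega
  have hwc1 : 2 * ((d - 2) / 2) + 2 ≤ d := by omega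
  have hwc2 : d ≤ 2 * ((d - 2) / 2) + 3 := by omega
  have hD : 0 < (d - 2) / 2 := by omega
  have hd64 : 64 ≤ d := by omega
  have hTJ : T ≤ parJ d T * (d / 16) := by
    have h1 := Nat.div_add_mod T (d / 16)
    have h2 := Nat.mod_lt T hw0
    rw [parJ, add_mul, one_mul, mul_comm (T / (d / 16)) (d / 16)]
    omega
  have hC : ∀ (x : Vec d) (t : ℝ), 0 < t → sig d (Metric.closedBall x t) ≤
      ENNReal.ofReal (3 ^ ((d - 2) / 2)) * ENNReal.ofReal t ^ ((d - 2) / 2) :=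
    fun x t ht => sig_ball_le_const hd64 hwc1 hwc2 x ht
  have hC'T : ENNReal.ofReal (3 ^ ((d - 2) / 2)) ≠ ⊤ := ENNReal.ofReal_ne_top
  have hC'0 : ENNReal.ofReal ((3:ℝ) ^ ((d - 2) / 2)) ≠ 0 := by
    simp only [ne_eq, ENNReal.ofReal_eq_zero, not_le]
    positivity
  have hcard : (Fintype.card (Fin (2 ^ M) × Bool) : ℝ≥0∞) = 2 ^ (M + 1) := by
    rw [Fintype.card_prod, Fintype.card_fin, Fintype.card_bool, pow_succ]
    push_cast
    rfl
  have hτ0 : (2 : ℝ≥0∞) ^ parB d M ≠ 0 := pow_ne_zero _ (by norm_num)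
  have hτT : (2 : ℝ≥0∞) ^ parB d M ≠ ⊤ := ENNReal.pow_ne_top (by norm_num)
  have hN : (Fintype.card (Fin (2 ^ M) × Bool) : ℝ≥0∞) ≤ ((2 : ℝ≥0∞) ^ parB d M) ^ (d / 16 + 1) := by
    rw [hcard, ← pow_mul]
    apply pow_le_pow_right₀ (by norm_num)
    have h1 := Nat.div_add_mod (M + 1) (d / 16 + 1)
    have h2 := Nat.mod_lt (M + 1) (by omega : d / 16 + 1 > 0)
    rw [parB, add_mul, one_mul, mul_comm ((M + 1) / (d / 16 + 1)) (d / 16 + 1)]
    omega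
  have hA0 : (parA d M : ℝ≥0∞) ≠ 0 := by
    have : parA d M ≠ 0 := by
      unfold parA
      omega
    exact_mod_cast this
  have hAT : (parA d M : ℝ≥0∞) ≠ ⊤ := ENNReal.natCast_ne_top _
  have h2invT : ((2⁻¹ : ℝ≥0∞) ^ parA d M) ≠ ⊤ := ENNReal.pow_ne_top (by simp)
  have hδ0 : (2⁻¹ : ℝ≥0∞) ^ parA d M / parA d M ≠ 0 := by
    simp [ENNReal.div_eq_zero_iff]
  have hδT : (2⁻¹ : ℝ≥0∞) ^ parA d M / parA d M ≠ ⊤ := by
    rw [ne_eq, ENNReal.div_eq_top]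
    rintro (⟨-, h'⟩ | ⟨h', -⟩)
    · exact hA0 h'
    · exact h2invT h'
  have hAδ : (parA d M : ℝ≥0∞) * ((2⁻¹ : ℝ≥0∞) ^ parA d M / parA d M) = (2⁻¹ : ℝ≥0∞) ^ parA d M :=
    ENNReal.mul_div_cancel hA0 hAT
  have hlam0 : (ENNReal.ofReal ((3 * ε) ^ ((d - 2) / 2)))⁻¹ ≠ 0 := by simp
  have hlamT : (ENNReal.ofReal ((3 * ε) ^ ((d - 2) / 2)))⁻¹ ≠ ⊤ := by
    simp only [ne_eq, ENNReal.inv_eq_top, ENNReal.ofReal_eq_zero, not_le]
    positivity
  have hfrost : ∀ s : Vec d, IsFrost d ((d - 2) / 2) ((Metric.closedBall s ε).indicator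
      (fun _ => (ENNReal.ofReal ((3 * ε) ^ ((d - 2) / 2)))⁻¹)) :=
    fun s => cap_frost hd64 hwc1 hwc2 s hε0
  have hk : 5 * (d / 16) ≤ 2 * ((d - 2) / 2) := by omega
  have hww : d / 16 + d / 16 + 1 ≤ (d - 2) / 2 := by omega
  have hdet : ∀ s : Ω, ∫⁻ S : Metric.sphere (0 : Vec d) 1,
      PP d T {A | ‖(S : Vec d) - (L.out (runY (ruleF L T s) 0 T (L.init s, false) A (lab A (S : Vec d))).1 s : Vec d)‖ ≤ ε} ∂(sphereUnif d) ≤
      ((ENNReal.ofReal ((3 * ε) ^ ((d - 2) / 2)))⁻¹)⁻¹ * ((parA d M : ℝ≥0∞) * (4 * 16 ^ ((d - 2) / 2)) * ((2 : ℝ≥0∞) ^ parB d M * (3 * ENNReal.ofReal 144 ^ (d / 16) + 1))) ^ parJ d T +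
        (parJ d T : ℝ≥0∞) * (ENNReal.ofReal (3 / 5) ^ (d / 16) + (Fintype.card (Fin (2 ^ M) × Bool) : ℝ≥0∞) * ((2⁻¹ : ℝ≥0∞) ^ parA d M + parA d M * ((2⁻¹ : ℝ≥0∞) ^ parA d M / parA d M))) := by
    intro s
    exact det_cap_bound (D := (d - 2) / 2) (k := d / 16) hD hC'T hC'0 hC hw0 hk hww (d / 16) le_rfl _ hτ0 hτT hN (ruleF L T s) (ruleF_sect L T s)
      (L.init s, false) (ruleF_pad L T s) _ hδ0 hδT _ hTJ (fun v => (L.out v.1 s : Vec d)) ε hlam0 hlamT hfrost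
  have hsucc := h.trans (successProb_le L T μ ε hd0 _ hdet)
  rw [inv_inv] at hsucc
  refine main_to_real hε0 (psi_le hd64) ?_ hsucc
  rw [hcard]
  exact rem_bound (by unfold parA; omega) hAδ

lemma learner_count {T : ℕ} (hd : 1024 ≤ d) (μ : Measure Ω) [IsProbabilityMeasure μ] (L : Learner d M Ω)
    {ε : ℝ} (hε0 : 0 < ε) (h : (2 / 3 : ℝ≥0∞) ≤ L.successProb T μ ε) :
    (2 / 3 : ℝ) ≤ 2 ^ (M + 1) * (3 * ε ^ 2) ^ ((d - 2) / 2) := by
  have hd0 : 0 < d := by omega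
  haveI : Fact (0 < d) := ⟨hd0⟩
  have hκ : ∀ s : Vec d, sig d (Metric.closedBall s ε) ≤ ENNReal.ofReal ((3 * ε ^ 2) ^ ((d - 2) / 2)) :=
    fun s => sig_ball_le (by omega) (by omega) (by omega) s hε0
  have hdet2 : ∀ s : Ω, ∫⁻ S : Metric.sphere (0 : Vec d) 1,
      PP d T {A | ‖(S : Vec d) - (L.out (runY (ruleF L T s) 0 T (L.init s, false) A (lab A (S : Vec d))).1 s : Vec d)‖ ≤ ε} ∂(sphereUnif d) ≤
      (Fintype.card (Fin (2 ^ M) × Bool) : ℝ≥0∞) * ENNReal.ofReal ((3 * ε ^ 2) ^ ((d - 2) / 2)) := by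
    intro s
    exact det_count_bound (ruleF L T s) (ruleF_sect L T s)
      (L.init s, false) (fun v => (L.out v.1 s : Vec d)) ε _ hκ
  have hsucc2 := h.trans (successProb_le L T μ ε hd0 _ hdet2)
  have hcard : (Fintype.card (Fin (2 ^ M) × Bool) : ℝ≥0∞) = 2 ^ (M + 1) := by
    rw [Fintype.card_prod, Fintype.card_fin, Fintype.card_bool, pow_succ]
    push_cast
    rfl
  rw [hcard] at hsucc2
  exact count_to_real hε0 hsucc2

lemma parX_le (hd : 1024 ≤ d) :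
    (parX d M : ℝ) ≤ 3 * d + 17 * (((M : ℝ) + 1) / d) := by
  have hdR : (1024:ℝ) ≤ d := by exact_mod_cast hd
  have hd0R : (0:ℝ) < d := by linarith
  set w := d / 16 with hw
  have hw16 : 16 * w ≤ d := by omega
  have hw16' : d < 16 * w + 16 := by omega
  have h1R : 16 * (w:ℝ) ≤ d := by exact_mod_cast hw16
  have h2R : (d:ℝ) < 16 * w + 16 := by exact_mod_cast hw16'
  have h3 : ((d / 8 : ℕ) : ℝ) ≤ (d : ℝ) / 8 := by
    simpa using Nat.cast_div_le (α := ℝ) (m := d) (n := 8)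
  have h4 : ((parA d M / d : ℕ) : ℝ) ≤ (parA d M : ℝ) / d := Nat.cast_div_le
  have hAR : (parA d M : ℝ) = ((M : ℝ) + 1) + w + 1 := by
    rw [parA]
    push_cast
    rfl
  have h5 : (parA d M : ℝ) / d ≤ ((M : ℝ) + 1) / d + 1 := by
    rw [hAR, div_le_iff₀ hd0R]
    have : (((M : ℝ) + 1) / d + 1) * d = ((M : ℝ) + 1) + d := by
      field_simp
    rw [this]
    linarith
  have h6 : (((M + 1) / (w + 1) : ℕ) : ℝ) ≤ 16 * (((M : ℝ) + 1) / d) := by
    refine (Nat.cast_div_le (α := ℝ)).trans ?_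
    rw [div_le_iff₀ (by positivity)]
    have h7 : 16 * (((M : ℝ) + 1) / d) * (((w + 1 : ℕ) : ℝ)) = ((M : ℝ) + 1) * ((16 * ((w:ℝ) + 1)) / d) := by
      push_cast
      field_simp
    rw [h7]
    have h8 : 1 ≤ (16 * ((w:ℝ) + 1)) / d := by
      rw [le_div_iff₀ hd0R]
      linarith
    push_cast
    have hM : (0:ℝ) ≤ (M : ℝ) + 1 := by positivity
    nlinarith
  have h9 : (4 * ((((d - 2) / 2 : ℕ)) : ℝ)) ≤ 2 * d - 4 := by
    have h10 : 2 * ((d - 2) / 2) + 2 ≤ d := by omega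
    have h11 : (2 * (((d - 2) / 2 : ℕ) : ℝ) + 2) ≤ d := by exact_mod_cast h10
    linarith
  have hXR : (parX d M : ℝ) = ((d / 8 : ℕ) : ℝ) + ((parA d M / d : ℕ) : ℝ) + 2 + 4 * (((d - 2) / 2 : ℕ) : ℝ) +
      ((((M + 1) / (w + 1) : ℕ) : ℝ) + 1) + (8 * w + 2) := by
    rw [parX, parB]
    push_cast
    rfl
  rw [hXR]
  linarith

/-- the memory-sample tradeoff for randomized learners -/
theorem main_tradeoff {T : ℕ} (hd : 1024 ≤ d) (μ : Measure Ω) [IsProbabilityMeasure μ] (L : Learner d M Ω)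
    {ε : ℝ} (hε0 : 0 < ε) (hε1 : ε < 1) (h : (2 / 3 : ℝ≥0∞) ≤ L.successProb T μ ε) :
    (d : ℝ) * (Real.logb 2 (1 / ε) - 2) ≤ (110 + 600 * (((M : ℝ) + 1) / (d : ℝ) ^ 2)) * ((T : ℝ) + d) := by
  have hmain := learner_main hd μ L hε0 h
  have hcount := learner_count hd μ L hε0 h
  have hw64 : 64 ≤ d / 16 := by omega
  have hw16 : 16 * (d / 16) ≤ d := by omega
  have hw16' : d < 16 * (d / 16) + 16 := by omega
  have hJw : parJ d T * (d / 16) ≤ T + d / 16 := by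
    rw [parJ, add_mul, one_mul]
    have := Nat.div_mul_le_self T (d / 16)
    omega
  have hdR : (1024:ℝ) ≤ d := by exact_mod_cast hd
  have hMpR : (1:ℝ) ≤ (M : ℝ) + 1 := by
    have : (0:ℝ) ≤ M := by positivity
    linarith
  have h1R : 16 * ((d / 16 : ℕ) : ℝ) ≤ d := by exact_mod_cast hw16
  have h2R : (d:ℝ) < 16 * ((d / 16 : ℕ) : ℝ) + 16 := by exact_mod_cast hw16'
  have hwc2R : (d:ℝ) ≤ 2 * (((d - 2) / 2 : ℕ) : ℝ) + 3 := by
    have : d ≤ 2 * ((d - 2) / 2) + 3 := by omega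
    exact_mod_cast this
  by_cases hcase : 2 * (parJ d T : ℝ) * (3 / 5) ^ (d / 16) ≤ 1 / 6
  · have h1 : (1 / 2 : ℝ) ≤ (3 * ε) ^ ((d - 2) / 2) * 2 ^ (parX d M * parJ d T) := by linarith
    have h2 := log_main hε0 h1
    have h3 : (((d - 2) / 2 : ℕ) : ℝ) * (Real.logb 2 (1 / ε) - 8 / 5) ≤ 1 + (parX d M : ℝ) * parJ d T := by
      have : ((parX d M * parJ d T : ℕ) : ℝ) = (parX d M : ℝ) * parJ d T := by push_cast; rfl
      rw [← this]
      exact h2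
    have hJwR : (parJ d T : ℝ) * ((d / 16 : ℕ) : ℝ) ≤ T + ((d / 16 : ℕ) : ℝ) := by exact_mod_cast hJw
    exact arith_main hdR h1R h2R hwc2R (parX_le hd) hJwR (by positivity) hMpR (by positivity) h3
  · push Not at hcase
    have h1 := horizon_big hw64 hw16 hw16' hJw hcase
    have h2 := log_count hε0 hcount
    have h3 : 2 * (((d - 2) / 2 : ℕ) : ℝ) * Real.logb 2 (1 / ε) ≤ ((M : ℝ) + 1) + 8 / 5 * (((d - 2) / 2 : ℕ) : ℝ) + 1 := by
      simpa using h2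
    exact arith_count hdR hwc2R hMpR h1 h3

end Final

end Vale.Agent.Lib.P309
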